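import Crest.Agent.R162.C.Defs

/-! # Row 162, block C: deterministic properties and measurability of the marks -/

set_option autoImplicit false

open scoped ENNReal NNReal Topology
open Set Filter MeasureTheory Metric

noncomputable section
namespace Crest.Agent.R162.Cv

open Crest.ProbabilityR.Loewner

variable {κ : ℝ} {μ : Measure Path} {P : Par} {ω ω' : Path} {x x' z : ℂ} {s s' t : ℝ}

/-! ### constants -/

theorem bb_pos (hκ8 : κ < 8) : 0 < bb κ := by unfold bb; linarith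

theorem bb_lt_one (hκ : 0 < κ) : bb κ < 1 := by unfold bb; linarith

theorem aa_pos (hκ : 0 < κ) (hκ8 : κ < 8) : 0 < aa κ := by
  unfold aa; rw [sub_pos, lt_div_iff₀ hκ]; linarith

theorem Par.Ok.C_ge (h : P.Ok κ μ) : 2 ≤ P.C := h.koebe.two_le

theorem Par.Ok.N_ge (h : P.Ok κ μ) : 32 * P.C ^ 2 ≤ P.N := by
  have h1 := h.num.N_ge
  have h2 : P.c * P.N ≤ 1 * P.N := mul_le_mul_of_nonneg_right h.c_le (Nat.cast_nonneg _)
  linarith

theorem Par.Ok.N_one (h : P.Ok κ μ) : 1 ≤ P.N := by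
  have h1 := h.N_ge
  have h2 := h.C_ge
  have : (1 : ℝ) ≤ P.N := by nlinarith
  exact_mod_cast this

theorem Par.p_pos (P : Par) : 0 < P.p := Real.exp_pos _

theorem Par.Ok.p_le (h : P.Ok κ μ) : P.p ≤ 1 := by
  have := h.CS_ge
  exact Real.exp_le_one_iff.2 (by nlinarith [sq_nonneg P.m])

theorem Par.Ok.c₃_pos (h : P.Ok κ μ) : 0 < P.c₃ := by
  have := h.c_pos; have := h.δ'_pos; have := h.C_ge
  unfold Par.c₃; positivity

theorem Par.Ok.c₃_le (h : P.Ok κ μ) : P.c₃ ≤ 1 / 4 := by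
  have h1 := h.c_pos; have h2 := h.δ'_pos; have h3 := h.C_ge; have h4 := h.c_le; have h5 := h.δ'_le
  unfold Par.c₃
  rw [div_le_iff₀ (by positivity)]
  have : P.δ' ^ 2 ≤ 1 := by nlinarith
  nlinarith

theorem Par.Ok.θ_pos (h : P.Ok κ μ) : 0 < P.θ := mul_pos h.c₃_pos P.p_pos

theorem Par.Ok.θ_le (h : P.Ok κ μ) : P.θ ≤ 1 / 4 := by
  have := mul_le_mul h.c₃_le h.p_le P.p_pos.le (by norm_num)
  unfold Par.θ; linarith

theorem Par.Ok.η_pos (h : P.Ok κ μ) : 0 < P.η := by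
  have := h.θ_pos; have := h.C_ge; have := h.lyap.one_le
  unfold Par.η; positivity

theorem Gr_nonneg (κ : ℝ) (ω : Path) (z : ℂ) (t : ℝ) : 0 ≤ Gr κ ω z t :=
  mul_nonneg (Real.rpow_nonneg Up_nonneg _) (Real.rpow_nonneg Sc_mem.1 _)

theorem Vg_nonneg (κ g : ℝ) (ω : Path) (z : ℂ) (t : ℝ) : 0 ≤ Vg κ g ω z t :=
  mul_nonneg (Real.rpow_nonneg Up_nonneg _) (Real.rpow_nonneg Sc_mem.1 _)

/-! ### hitting times -/

theorem le_stop_of_agr {τ : Path → ℝ} (hτ : Stop τ) (h : Agr t ω ω') (ht : t ≤ τ ω) : t ≤ τ ω' := by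
  refine le_of_not_gt fun h' => ?_
  have := hτ.agr ω' ω (Lx.agr_symm (Lx.agr_of_le h h'.le))
  linarith

theorem hit_mono {ρ ρ' T T' : ℝ} (hρ : ρ ≤ ρ') (hT : T ≤ T') : Hit x ρ T ⊆ Hit x ρ' T' := by
  exact fun ω ⟨t, ht, ha, hu⟩ => ⟨t, ⟨ht.1, ht.2.trans hT⟩, ha, hu.trans hρ⟩

theorem hitU_mono {ρ T T' : ℝ} (hT : 0 ≤ T) (h : T ≤ T') : hitU x ρ T ω ≤ hitU x ρ T' ω := by
  refine le_of_not_gt fun h' => ?_
  by_cases hω : ω ∈ Hit x ρ T'
  · obtain ⟨h1, h2⟩ := hitU_spec hω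
    exact (lt_Up_of_lt_hitU h' h1).not_ge (h2.trans_le (min_le_left _ _))
  · rw [hitU_of_not_hit hω] at h'
    exact h'.not_ge ((hitU_mem hT).2.trans h)

theorem hitU_eq_of_hit {ρ T T' : ℝ} (h : T ≤ T') (hω : ω ∈ Hit x ρ T) : hitU x ρ T' ω = hitU x ρ T ω := by
  obtain ⟨h1, h2⟩ := hitU_spec hω
  obtain ⟨t, ht, -⟩ := hω
  exact (le_of_not_gt fun h' => (lt_Up_of_lt_hitU h' h1).not_ge (h2.trans_le (min_le_left _ _))).antisymm
    (hitU_mono (ht.1.trans ht.2) h)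

/-- `hitU_spec`, `alive_iff` -/
theorem at_hit {C T : ℝ} (hx : C * s ≤ x.im) (hω : ω ∈ Hit x (C * s) T) :
    Alive ω x (hitU x (C * s) T ω) ∧ Up ω x (hitU x (C * s) T ω) = C * s ∧ 0 < Yc ω x (hitU x (C * s) T ω) := by
  obtain ⟨h1, h2⟩ := hitU_spec hω
  exact ⟨h1, h2.trans (min_eq_left hx), alive_iff.1 h1⟩

/-- `hC.near` at the hitting time, where `Up x / C = s`; `|Yc z - Yc x| ≤ ‖gt z - gt x‖` -/
theorem at_hit_near {C T : ℝ} (hC : KoebeF C) (hs : 0 < s) (hx : C * s ≤ x.im) (hω : ω ∈ Hit x (C * s) T)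
    (hz : z ∈ ball x s) :
    Alive ω z (hitU x (C * s) T ω) ∧ s ≤ Up ω z (hitU x (C * s) T ω) ∧
      Up ω z (hitU x (C * s) T ω) ≤ C ^ 2 * s ∧
      Yc ω x (hitU x (C * s) T ω) / 2 ≤ Yc ω z (hitU x (C * s) T ω) ∧
      Yc ω z (hitU x (C * s) T ω) ≤ 3 / 2 * Yc ω x (hitU x (C * s) T ω) ∧
      s * ‖Zc ω z (hitU x (C * s) T ω) - Zc ω x (hitU x (C * s) T ω)‖ ≤ Yc ω x (hitU x (C * s) T ω) * ‖z - x‖ ∧
      Sc ω z (hitU x (C * s) T ω) ≤ C * Sc ω x (hitU x (C * s) T ω) := by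
  obtain ⟨h1, h2, h3⟩ := at_hit hx hω
  have hC0 : 0 < C := by linarith [hC.two_le]
  set τ := hitU x (C * s) T ω
  obtain ⟨a1, a2, a3, -, a5, a6, a7, -⟩ := hC.near ω x τ h1 z (by rwa [h2, mul_div_cancel_left₀ _ hC0.ne'])
  rw [h2] at a3 a5 a6
  have e : Zc ω z τ - Zc ω x τ = gt ω z τ - gt ω x τ := by simp [Zc]
  have b := (Complex.abs_im_le_norm (gt ω z τ - gt ω x τ)).trans a2
  rw [Complex.sub_im, abs_le] at b
  refine ⟨a1, le_of_mul_le_mul_left a6 hC0, by linarith, by unfold Yc at b ⊢; linarith [b.1],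
    by unfold Yc at b ⊢; linarith [b.2], le_of_mul_le_mul_left ?_ hC0, a7⟩
  rw [e]; linarith

theorem Par.Ok.stop_tau (h : P.Ok κ μ) (x : ℂ) (s : ℝ) : Stop (P.tau x s) := stop_hitU _ _ h.T_nonneg

theorem Par.Ok.tau_mem (h : P.Ok κ μ) (x : ℂ) (s : ℝ) (ω : Path) : P.tau x s ω ∈ Icc 0 P.T :=
  hitU_mem h.T_nonneg

theorem Par.Ok.sub_pos (h : P.Ok κ μ) (hS : P.Sub x s x' s') : 0 < s := by
  have h1 : (1 : ℝ) ≤ P.N := by exact_mod_cast h.N_one
  nlinarith [hS.pos, hS.le]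

/-- `hit_order` with `ρ = C s`, `ρ' = C s'` (`C s' < N s' ≤ s`) -/
theorem Par.Ok.order (h : P.Ok κ μ) (hS : P.Sub x s x' s') (ω : Path) :
    P.tau x s ω ≤ P.tau x' s' ω ∧ (ω ∈ P.H x' s' → ω ∈ P.H x s) := by
  have hC := h.C_ge
  have hs := h.sub_pos hS
  have hC0 : 0 < P.C := by linarith
  refine h.koebe.hit_order (mul_pos hC0 hs) hS.im h.T_nonneg
    (by rw [mul_div_cancel_left₀ _ hC0.ne']; exact hS.mem) (mul_lt_mul_of_pos_left ?_ hC0)
  have h1 : P.C < P.N := by nlinarith [h.N_ge]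
  exact (mul_lt_mul_of_pos_right h1 hS.pos).trans_le hS.le

theorem Par.Ok.ratio_aux {a b : ℝ} (h : a ^ 2 ≤ b ^ 2) (hb : 0 ≤ b) : a ≤ b :=
  (le_abs_self a).trans (abs_le_of_sq_le_sq' h hb |> abs_le.2)

/-- Recipe: `τ ≤ τ'` and `ω ∈ H x s` by `order`; `at_hit_near` for `(x, s)` and `z = x'`: `s ≤ Up x' τ`,
`Yc x' τ ≤ 3/2 Y`; `Up_mul_Yc_sq`: `Up x' τ * Y'² ≤ Up x' τ' * (Yc x' τ)²` with `Up x' τ' = C s'`;
so `Y'² ≤ (C / N) (9/4) Y²`. -/
theorem Par.Ok.ratio (h : P.Ok κ μ) (hS : P.Sub x s x' s') (hω : ω ∈ P.H x' s') :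
    P.Y x' s' ω ≤ 2 * √(P.C / P.N) * P.Y x s ω := by
  obtain ⟨h1, h2⟩ := h.order hS ω
  have hs := h.sub_pos hS
  have hC0 : 0 < P.C := by linarith [h.C_ge]
  have hN : (0 : ℝ) < P.N := by exact_mod_cast h.N_one
  obtain ⟨-, a2, -, -, a5, -⟩ := at_hit_near h.koebe hs hS.im (h2 hω) hS.mem
  have a6 := Up_mul_Yc_sq (ω := ω) (z := x') (h.tau_mem x s ω).1 h1
  have a7 : Up ω x' (P.tau x' s' ω) = P.C * s' := (at_hit hS.im' hω).2.1
  rw [a7] at a6
  have y0 : 0 ≤ P.Y x s ω := Yc_nonneg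
  have a8 : Yc ω x' (P.tau x s ω) ^ 2 ≤ (2 * P.Y x s ω) ^ 2 :=
    pow_le_pow_left₀ Yc_nonneg (a5.trans (by change 3 / 2 * P.Y x s ω ≤ _; linarith)) 2
  have a9 : P.N * s' * P.Y x' s' ω ^ 2 ≤ P.C * s' * (2 * P.Y x s ω) ^ 2 :=
    (mul_le_mul_of_nonneg_right (hS.le.trans a2) (sq_nonneg _)).trans
      (a6.trans (mul_le_mul_of_nonneg_left a8 (mul_pos hC0 hS.pos).le))
  refine Par.Ok.ratio_aux ?_ (by positivity)
  rw [mul_right_comm, mul_pow, Real.sq_sqrt (by positivity), ← mul_div_assoc, le_div_iff₀ hN]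
  refine le_of_mul_le_mul_right ?_ hS.pos
  linarith

/-- `Yc_anti`, `gt_zero` -/
theorem Par.Ok.Y_le (h : P.Ok κ μ) (hx : 0 < x.im) (s : ℝ) (ω : Path) : P.Y x s ω ∈ Icc 0 x.im := by
  exact ⟨Yc_nonneg, (Yc_anti le_rfl (h.tau_mem x s ω).1).trans_eq (Lx.yc_zero hx)⟩

theorem Par.Ok.tau_le_en (h : P.Ok κ μ) (x : ℂ) (s : ℝ) (ω : Path) : P.tau x s ω ≤ P.en x s ω := by
  exact le_add_of_nonneg_right (mul_nonneg (sq_nonneg _) h.snake.T_pos.le)

theorem Par.Ok.en_le (h : P.Ok κ μ) (hx : 0 < x.im) (s : ℝ) (ω : Path) :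
    P.en x s ω ≤ P.T + x.im ^ 2 * P.Tm := by
  exact add_le_add (h.tau_mem x s ω).2 (mul_le_mul_of_nonneg_right
    (pow_le_pow_left₀ (h.Y_le hx s ω).1 (h.Y_le hx s ω).2 2) h.snake.T_pos.le)

/-! ### adaptedness -/

theorem agr_Yc (h : Agr t ω ω') : Yc ω' z t = Yc ω z t := by
  exact Lx.agr_Yc h

theorem agr_Zc (h : Agr t ω ω') : Zc ω' z t = Zc ω z t := by
  exact Lx.agr_Zc h

theorem agr_Sc (h : Agr t ω ω') : Sc ω' z t = Sc ω z t := by
  exact Lx.agr_Sc h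

theorem agr_Vg (h : Agr t ω ω') (κ g : ℝ) : Vg κ g ω' z t = Vg κ g ω z t := by
  rw [Vg, Vg, h.Up, agr_Sc h]

theorem Par.Ok.agr_tau (h : P.Ok κ μ) (ha : Agr t ω ω') (ht : P.tau x s ω ≤ t) :
    P.tau x s ω' = P.tau x s ω ∧ (ω' ∈ P.H x s ↔ ω ∈ P.H x s) ∧ P.Y x s ω' = P.Y x s ω ∧
      (ω' ∈ P.Flag x s ↔ ω ∈ P.Flag x s) ∧ P.en x s ω' = P.en x s ω := by
  have ha' := Lx.agr_of_le ha ht
  have h1 := (h.stop_tau x s).agr ω ω' ha'
  have h2 : ω' ∈ P.H x s ↔ ω ∈ P.H x s := hit_of_agr ha'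
  have h3 : P.Y x s ω' = P.Y x s ω := by rw [Par.Y, Par.Y, h1, agr_Yc ha']
  exact ⟨h1, h2, h3, by simp only [Par.Flag, mem_ofPred_eq, h1, h2, agr_Sc ha'], by rw [Par.en, Par.en, h1, h3]⟩

theorem Par.Ok.agr_pot (h : P.Ok κ μ) (ha : Agr t ω ω') (ht : P.tau x s ω ≤ t) :
    P.potG κ z x s ω' = P.potG κ z x s ω ∧ P.potV κ z x s ω' = P.potV κ z x s ω ∧
      P.pot κ z x s ω' = P.pot κ z x s ω := by
  have ha' := Lx.agr_of_le ha ht
  obtain ⟨h1, h2, -⟩ := h.agr_tau ha ht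
  have k : ∀ g, (P.H x s).indicator (fun ω => Vg κ g ω z (P.tau x s ω)) ω' =
      (P.H x s).indicator (fun ω => Vg κ g ω z (P.tau x s ω)) ω := fun g => by
    by_cases hω : ω ∈ P.H x s
    · rw [indicator_of_mem hω, indicator_of_mem (h2.2 hω), h1, agr_Vg ha']
    · rw [indicator_of_notMem hω, indicator_of_notMem (mt h2.1 hω)]
  have e1 : P.potG κ z x s ω' = P.potG κ z x s ω := k _
  have e2 : P.potV κ z x s ω' = P.potV κ z x s ω := k _
  exact ⟨e1, e2, by rw [Par.pot, Par.pot, e1, e2]⟩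

/-- `Mark.agr`: for `u ≤ Tm`, `scl Y (sh τ ω) u = (ω (τ + max (Y² u) 0) - ω τ) / Y` and `τ + max (Y² u) 0 ≤ en` -/
theorem Par.Ok.agr_mrk (h : P.Ok κ μ) (ha : Agr t ω ω') (ht : P.en x s ω ≤ t) :
    P.mrk x s ω' = P.mrk x s ω := by
  have ht' := (h.tau_le_en x s ω).trans ht
  obtain ⟨h1, -, h3, h4, -⟩ := h.agr_tau ha ht'
  unfold Par.mrk
  by_cases hω : ω ∈ P.Flag x s
  · rw [indicator_of_mem hω, indicator_of_mem (h4.2 hω), h1, h3]
    refine h.snake.mark.agr _ _ fun u hu => ?_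
    have : P.tau x s ω + max (P.Y x s ω ^ 2 * u) 0 ≤ t := le_trans (add_le_add_right (max_le
      (mul_le_mul_of_nonneg_left hu (sq_nonneg _)) (mul_nonneg (sq_nonneg _) h.snake.T_pos.le)) _) ht
    simp only [scl, sh, ContinuousMap.coe_mk, ha _ this, ha _ ht']
  · rw [indicator_of_notMem hω, indicator_of_notMem (mt h4.1 hω)]

theorem Par.Ok.agr_mrk' (h : P.Ok κ μ) (hS : P.Sub x s x' s') (ha : Agr t ω ω') (ht : P.tau x' s' ω ≤ t) :
    P.mrk' x s x' s' ω' = P.mrk' x s x' s' ω := by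
  have h1 := (h.agr_tau ha ht).1
  have h2 := (h.agr_tau ha ((h.order hS ω).1.trans ht)).2.2.2.2
  unfold Par.mrk'
  simp only [indicator_apply, mem_ofPred_eq, h1, h2]
  split_ifs with hω
  exacts [h.agr_mrk ha (hω.trans ht), rfl]

theorem Par.Ok.mrk_mem (h : P.Ok κ μ) (x : ℂ) (s : ℝ) (ω : Path) : P.mrk x s ω ∈ Icc (0 : ℝ) (1 / 2) := by
  unfold Par.mrk
  by_cases hω : ω ∈ P.Flag x s
  · rw [indicator_of_mem hω]; exact ⟨h.snake.mark.nonneg _, h.snake.mark.half _⟩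
  · rw [indicator_of_notMem hω]; norm_num

theorem Par.Ok.mrk'_mem (h : P.Ok κ μ) (x : ℂ) (s : ℝ) (x' : ℂ) (s' : ℝ) (ω : Path) :
    P.mrk' x s x' s' ω ∈ Icc 0 (P.mrk x s ω) := by
  exact ⟨indicator_nonneg (fun ω _ => (h.mrk_mem x s ω).1) ω,
    indicator_le_self' (fun ω _ => (h.mrk_mem x s ω).1) ω⟩

theorem Par.Ok.pot_nonneg (h : P.Ok κ μ) (z x : ℂ) (s : ℝ) (ω : Path) :
    0 ≤ P.potG κ z x s ω ∧ 0 ≤ P.potV κ z x s ω ∧ 0 ≤ P.pot κ z x s ω := by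
  have h1 : 0 ≤ P.potG κ z x s ω := indicator_nonneg (fun ω _ => Gr_nonneg _ _ _ _) ω
  have h2 : 0 ≤ P.potV κ z x s ω := indicator_nonneg (fun ω _ => Vg_nonneg _ _ _ _ _) ω
  exact ⟨h1, h2, add_nonneg h1 (mul_nonneg h.η_pos.le h2)⟩

/-! ### measurability -/

theorem measurable_Yc : Measurable fun p : Path × ℂ × ℝ => Yc p.1 p.2.1 p.2.2 := by
  exact Lx.measurable_Yc'

theorem measurable_Vg (κ g : ℝ) : Measurable fun p : Path × ℂ × ℝ => Vg κ g p.1 p.2.1 p.2.2 := by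
  exact (measurable_Up.pow_const _).mul (measurable_Sc.pow_const _)

theorem measurable_Gr (κ : ℝ) : Measurable fun p : Path × ℂ × ℝ => Gr κ p.1 p.2.1 p.2.2 := measurable_Vg _ _

/-- `measurable_dens`, `Measurable.lintegral_prod_right'` -/
theorem measurable_nz_Ioi (κ s₀ y : ℝ) : Measurable fun p : Path × ℂ => nz κ s₀ y p.1 p.2 (Ioi 0) := by
  have hm : Measurable fun q : (Path × ℂ) × ℝ => (y, q.1.1, q.1.2, q.2) := by fun_prop
  exact ((measurable_dens (κ := κ) (s₀ := s₀)).comp hm).ennreal_ofReal.lintegral_prod_right'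
    (ν := volume.restrict (Ioi 0))

theorem measurable_nu_Ioi (κ s₀ y : ℝ) (A : Set ℂ) : Measurable fun ω : Path => nu κ s₀ y ω A (Ioi 0) := by
  exact (measurable_nz_Ioi κ s₀ y).lintegral_prod_right' (ν := volume.restrict A)

theorem measurableSet_Hit (x : ℂ) (ρ T : ℝ) : MeasurableSet (Hit x ρ T) := by
  have hm : Measurable fun ω : Path => (ω, x, ρ, T) := by fun_prop
  exact hm measurableSet_hit

theorem Par.measurableSet_H (P : Par) (x : ℂ) (s : ℝ) : MeasurableSet (P.H x s) := measurableSet_Hit _ _ _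

theorem Par.Ok.measurable_Y (h : P.Ok κ μ) (x : ℂ) (s : ℝ) : Measurable (P.Y x s) := by
  exact measurable_Yc.comp (measurable_id.prodMk (measurable_const.prodMk (h.stop_tau x s).meas))

theorem Par.Ok.measurableSet_Flag (h : P.Ok κ μ) (x : ℂ) (s : ℝ) : MeasurableSet (P.Flag x s) := by
  exact (P.measurableSet_H x s).inter (measurableSet_le measurable_const
    (measurable_Sc.comp (measurable_id.prodMk (measurable_const.prodMk (h.stop_tau x s).meas))))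

theorem Par.Ok.stop_en (h : P.Ok κ μ) (x : ℂ) (s : ℝ) : Stop (P.en x s) := by
  exact ⟨(h.stop_tau x s).meas.add (((h.measurable_Y x s).pow_const 2).mul_const _),
    fun ω => (h.tau_mem x s ω).1.trans (h.tau_le_en x s ω),
    fun ω ω' ha => (h.agr_tau ha (h.tau_le_en x s ω)).2.2.2.2⟩

/-- `measurable_scl`, `continuous_sh`, `Mark.cont` -/
theorem Par.Ok.measurable_mrk (h : P.Ok κ μ) (x : ℂ) (s : ℝ) : Measurable (P.mrk x s) := by
  exact (h.snake.mark.cont.measurable.comp (measurable_scl.comp ((h.measurable_Y x s).prodMk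
    (continuous_sh.measurable.comp ((h.stop_tau x s).meas.prodMk measurable_id))))).indicator
    (h.measurableSet_Flag x s)

theorem Par.Ok.measurable_mrk' (h : P.Ok κ μ) (x : ℂ) (s : ℝ) (x' : ℂ) (s' : ℝ) :
    Measurable (P.mrk' x s x' s') := by
  exact (h.measurable_mrk x s).indicator (measurableSet_le (h.stop_en x s).meas (h.stop_tau x' s').meas)

theorem Par.Ok.measurable_potG (h : P.Ok κ μ) (x : ℂ) (s : ℝ) :
    Measurable fun p : Path × ℂ => P.potG κ p.2 x s p.1 := by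
  exact ((measurable_Gr κ).comp (measurable_fst.prodMk (measurable_snd.prodMk
    ((h.stop_tau x s).meas.comp measurable_fst)))).indicator (measurable_fst (P.measurableSet_H x s))

theorem Par.Ok.measurable_potV (h : P.Ok κ μ) (x : ℂ) (s : ℝ) :
    Measurable fun p : Path × ℂ => P.potV κ p.2 x s p.1 := by
  exact ((measurable_Vg κ P.g).comp (measurable_fst.prodMk (measurable_snd.prodMk
    ((h.stop_tau x s).meas.comp measurable_fst)))).indicator (measurable_fst (P.measurableSet_H x s))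

theorem Par.Ok.measurable_pot (h : P.Ok κ μ) (x : ℂ) (s : ℝ) :
    Measurable fun p : Path × ℂ => P.pot κ p.2 x s p.1 := by
  exact (h.measurable_potG x s).add ((h.measurable_potV x s).const_mul _)

theorem Par.Ok.measurable_gain (h : P.Ok κ μ) (z x : ℂ) (s s' : ℝ) : Measurable (P.gain κ z x s s') := by
  have hm : Measurable fun ω : Path => (ω, z, P.en x s ω) :=
    measurable_id.prodMk (measurable_const.prodMk (h.stop_en x s).meas)
  exact ((h.measurable_mrk x s).mul ((measurable_Gr κ).comp hm)).indicator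
    (measurableSet_lt measurable_const (measurable_Up.comp hm))

theorem Par.measurable_last (P : Par) (κ : ℝ) (x : ℂ) : Measurable (P.last κ x) := by
  exact measurable_const.indicator ((P.measurableSet_H _ _).union (MeasurableSet.const _))

end Crest.Agent.R162.Cv
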