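import Crest.Agent.R162.C.Grid
import Crest.Agent.R162.C.Mark

/-! # Row 162, block C: choice of the parameters, passage to the limit -/

set_option autoImplicit false

open scoped ENNReal NNReal Topology
open Set Filter MeasureTheory Metric

noncomputable section
namespace Crest.Agent.R162.Cv

open Crest.ProbabilityR.Loewner

/-- the choice of `n, N, y` -/
structure Par.Ch (P : Par) : Prop where
  C_ge : 2 ≤ P.C
  c_pos : 0 < P.c
  c_le : P.c ≤ 1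
  CS_ge : 1 ≤ P.CS
  δ'_pos : 0 < P.δ'
  δ'_le : P.δ' ≤ 1 / 2
  m_ge : 32 * P.C ^ 2 / P.c ≤ P.m
  n_eq : P.n = ⌈Real.exp (2 * P.CS * P.m ^ 2)⌉₊
  N_eq : P.N = P.n ^ 4
  y_eq : P.y = P.c * P.s (P.n + 1) / P.m

variable {κ : ℝ} {P : Par}

/-- `128 ≤ 32 C² ≤ m ≤ 2 CS m² ≤ exp (2 CS m²) ≤ n ≤ N` -/
theorem Par.Ch.basic (h : P.Ch) : 32 * P.C ^ 2 ≤ P.m ∧ 128 ≤ P.m ∧ P.m ≤ P.n ∧ P.n ≤ P.N ∧
    Real.exp (2 * P.CS * P.m ^ 2) ≤ P.n ∧ (P.n : ℝ) ≤ 2 * Real.exp (2 * P.CS * P.m ^ 2) := by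
  have h1 : 32 * P.C ^ 2 ≤ P.m := (le_div_self (by positivity) h.c_pos h.c_le).trans h.m_ge
  have h2 : 128 ≤ P.m := by linarith [pow_le_pow_left₀ zero_le_two h.C_ge 2]
  have h3 : Real.exp (2 * P.CS * P.m ^ 2) ≤ P.n := h.n_eq ▸ Nat.le_ceil _
  have h4 := le_self_pow₀ (by linarith : 1 ≤ P.m) two_ne_zero
  have h5 := le_mul_of_one_le_left (sq_nonneg P.m) h.CS_ge
  have h6 := Real.add_one_le_exp (2 * P.CS * P.m ^ 2)
  refine ⟨h1, h2, by linarith, h.N_eq ▸ Nat.le_self_pow (by norm_num) _, h3, ?_⟩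
  rw [h.n_eq]
  linarith [Nat.ceil_lt_add_one (Real.exp_pos (2 * P.CS * P.m ^ 2)).le]

theorem Par.Ch.s_zero_le (h : P.Ch) : 0 < P.s 0 ∧ P.s 0 ≤ 1 / P.m := by
  obtain ⟨-, h2, h3, h4, -⟩ := h.basic
  have h5 : P.m ≤ P.N := h3.trans (Nat.cast_le.2 h4)
  simp only [Par.s, sd, zero_add, pow_one, one_div]
  exact ⟨inv_pos.2 (by linarith), inv_anti₀ (by linarith) h5⟩

/-- `√(C / N) = √C / n²`, `n + 1 ≤ 2 n`, `√C ≤ C`, `n ≥ (2 CS m²)² / 2 ≥ 4 C CS m²` -/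
theorem Par.Ch.indep (h : P.Ch) : P.CS * P.m ^ 2 * (P.n + 1) * (2 * √(P.C / P.N)) ≤ 1 := by
  obtain ⟨h1, h2, h3, -, h5, -⟩ := h.basic
  have C2 := h.C_ge
  have n0 : (0 : ℝ) < P.n := by linarith
  have a1 := le_self_pow₀ (by linarith : 1 ≤ P.C) two_ne_zero
  have a2 : 2 * P.C ≤ P.CS * P.m ^ 2 := by
    linarith [le_self_pow₀ (by linarith : 1 ≤ P.m) two_ne_zero, le_mul_of_one_le_left (sq_nonneg P.m) h.CS_ge]
  have a3 : √(P.C / P.N) ≤ P.C / P.n ^ 2 := Real.sqrt_le_iff.2 ⟨by positivity, by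
    rw [h.N_eq, div_pow, ← pow_mul, Nat.cast_pow]
    gcongr⟩
  rw [mul_assoc 2] at h5
  generalize P.CS * P.m ^ 2 = A at *
  have : 0 ≤ A := by linarith
  calc _ ≤ A * (2 * P.n) * (2 * (P.C / P.n ^ 2)) := by gcongr; linarith
    _ = 4 * P.C * A / P.n := by field_simp; ring
    _ ≤ 1 := (div_le_one n0).2 (by
      linarith [Real.quadratic_le_exp_of_nonneg (by linarith : 0 ≤ 2 * A), mul_le_mul_of_nonneg_right a2 this])

/-- Recipe: `s = N^{-(k+1)}`, `2 s ≤ 2 / 128 ≤ exp (-e)`; `gaugeReal_eq`; `(2s)^{2-b} ≤ 4 s^{2-b}`;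
`log (1 / (2 s)) ≤ (k + 1) log N ≤ (n + 2) 4 n ≤ 12 n²`, `log (12 n²) ≤ 3 + 2 (1 + 2 CS m²) ≤ 9 CS m²`,
`(9 CS m²)^{b/2} ≤ 9 CS m^b` (`M.log_ge`, `M.ll_ge` give positivity). -/
theorem Par.Ch.phi_le (h : P.Ch) (hκ : 0 < κ) (hκ8 : κ < 8) {k : ℕ} (hk : k ≤ P.n + 1) :
    gaugeReal κ (2 * P.s k) ≤ 36 * P.CS * P.s k ^ (2 - bb κ) * P.m ^ bb κ := by
  obtain ⟨-, h2, h3, h4, h5, h6⟩ := h.basic
  have CS := h.CS_ge
  have b0 : 0 < bb κ := by unfold bb; linarith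
  have b1 : bb κ < 1 := by unfold bb; linarith
  have n0 : (128 : ℝ) ≤ P.n := by linarith
  have N1 : 1 ≤ P.N := le_trans (by exact_mod_cast (by linarith : (1 : ℝ) ≤ P.n)) h4
  have s0 : 0 < P.s k := sd_pos N1 k
  have s1 : P.s k ≤ 1 / 128 :=
    (sd_anti N1 k.zero_le).trans (h.s_zero_le.2.trans (one_div_le_one_div_of_le (by norm_num) h2))
  have e3 : Real.exp 1 ≤ 3 := by linarith [Real.exp_one_lt_d9]
  have s2 : 2 * P.s k ≤ Real.exp (-Real.exp 1) := by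
    have : Real.exp (Real.exp 1) ≤ 64 := (Real.exp_le_exp.2 e3).trans (by
      linarith [show Real.exp 1 ^ 3 = Real.exp 3 from Real.exp_one_pow 3, pow_le_pow_left₀ (Real.exp_pos 1).le e3 3])
    rw [Real.exp_neg]
    linarith [inv_anti₀ (Real.exp_pos _) this]
  have l0 := (Real.exp_pos 1).trans_le (M.log_ge (by positivity) s2)
  have l1 : Real.log (1 / (2 * P.s k)) ≤ 12 * P.n ^ 2 := by
    have k1 : (k : ℝ) ≤ P.n + 1 := by exact_mod_cast hk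
    have k2 := Real.log_le_self (by linarith : (0 : ℝ) ≤ P.n)
    refine (Real.log_le_log (by positivity) (one_div_le_one_div_of_le s0 (by linarith))).trans ?_
    rw [Par.s, sd, one_div, inv_inv, Real.log_pow, h.N_eq, Nat.cast_pow, Real.log_pow]
    push_cast
    have k3 := Real.log_nonneg (by linarith : (1 : ℝ) ≤ P.n)
    calc _ ≤ (3 * P.n : ℝ) * (4 * P.n) := by gcongr; linarith
      _ = _ := by ring
  have l2 : Real.log (Real.log (1 / (2 * P.s k))) ≤ 9 * P.CS * P.m ^ 2 := by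
    refine ((Real.log_le_iff_le_exp l0).2 (l1.trans (?_ : _ ≤ Real.exp ((3 : ℕ) * (2 * P.CS * P.m ^ 2))))).trans ?_
    · rw [Real.exp_nat_mul]
      generalize Real.exp _ = E at *
      linarith [pow_le_pow_left₀ (by linarith) h6 2, mul_le_mul_of_nonneg_right (by linarith : 48 ≤ E) (sq_nonneg E)]
    · push_cast
      linarith [show 0 ≤ P.CS * P.m ^ 2 by positivity]
  have l3 : (9 * P.CS * P.m ^ 2) ^ (bb κ / 2) ≤ 9 * P.CS * P.m ^ bb κ := by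
    rw [Real.mul_rpow (by positivity) (by positivity), ← Real.rpow_natCast, ← Real.rpow_mul (by linarith),
      Nat.cast_ofNat, mul_div_cancel₀ _ two_ne_zero]
    exact mul_le_mul_of_nonneg_right (Real.rpow_le_self_of_one_le (by linarith) (by linarith)) (by positivity)
  have l4 : (2 : ℝ) ^ (2 - bb κ) ≤ 4 :=
    (Real.rpow_le_rpow_of_exponent_le one_le_two (by linarith : 2 - bb κ ≤ 2)).trans_eq (by norm_num)
  have l5 := (Real.rpow_le_rpow (M.ll_nonneg (by positivity) s2) l2 (by positivity)).trans l3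
  rw [gaugeReal_eq κ s2, Real.mul_rpow zero_le_two s0.le]
  exact (mul_le_mul (mul_le_mul_of_nonneg_right l4 (by positivity)) l5
    (Real.rpow_nonneg (M.ll_nonneg (by positivity) s2) _) (by positivity)).trans_eq (by ring)

/-- `(1 - θ)^n ≤ exp (-θ n) ≤ exp (-c₃ / p) ≤ 2 p² / c₃²` (`n ≥ p⁻²`, `0 < θ ≤ 1`), `m^b ≤ m ≤ CS m² ≤ 1 / p` -/
theorem Par.Ch.left (h : P.Ch) (hκ : 0 < κ) (hκ8 : κ < 8) :
    P.m ^ bb κ * (1 - P.θ) ^ P.n / P.θ ≤ 2 / P.c₃ ^ 3 := by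
  obtain ⟨-, h2, -, -, h5, -⟩ := h.basic
  have C2 := h.C_ge
  have c0 := h.c_pos
  have d0 := h.δ'_pos
  have c1 : 0 < P.c₃ := by unfold Par.c₃; positivity
  have c2 : P.c₃ ≤ 1 := (div_le_one (by positivity)).2 (by
    linarith [pow_le_pow_left₀ zero_le_two C2 2, mul_le_one₀ h.c_le (sq_nonneg _)
      (pow_le_one₀ (n := 2) d0.le (by linarith [h.δ'_le]))])
  have a1 : P.m ≤ P.CS * P.m ^ 2 :=
    (le_self_pow₀ (by linarith) two_ne_zero).trans (le_mul_of_one_le_left (sq_nonneg _) h.CS_ge)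
  have a2 := Real.add_one_le_exp (P.CS * P.m ^ 2)
  have a3 : P.θ = P.c₃ / Real.exp (P.CS * P.m ^ 2) := by rw [Par.θ, Par.p, neg_mul, Real.exp_neg, div_eq_mul_inv]
  rw [mul_assoc, two_mul, Real.exp_add] at h5
  generalize Real.exp (P.CS * P.m ^ 2) = E at *
  have E0 : 0 < E := by linarith
  have t0 : 0 < P.θ := a3 ▸ by positivity
  have t1 : P.θ ≤ 1 := a3 ▸ (div_le_one E0).2 (by linarith)
  have a4 : P.m ^ bb κ ≤ E := (Real.rpow_le_self_of_one_le (by linarith) (by unfold bb; linarith)).trans (by linarith)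
  have a5 : (1 - P.θ) ^ P.n ≤ 2 / (P.c₃ * E) ^ 2 := by
    have x0 : 0 < P.c₃ * E := by positivity
    refine (pow_le_pow_left₀ (by linarith) (Real.one_sub_le_exp_neg _) _).trans ?_
    rw [← Real.exp_nat_mul, mul_neg, Real.exp_neg, ← inv_div]
    refine inv_anti₀ (by positivity) (le_trans (by linarith [Real.quadratic_le_exp_of_nonneg x0.le])
      (Real.exp_le_exp.2 (?_ : P.c₃ * E ≤ _)))
    rw [a3, ← mul_div_assoc, le_div_iff₀ E0]
    linarith [mul_le_mul_of_nonneg_right h5 c1.le]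
  calc _ ≤ E * (2 / (P.c₃ * E) ^ 2) / P.θ := by gcongr
    _ = _ := by rw [a3]; field_simp

/-- `s 0 = 1 / N ≤ exp (-m²)`, `m^b ≤ m²`, `exp (-(1-b) m²) ≤ 1 / ((1-b) m²)` -/
theorem Par.Ch.strip (h : P.Ch) (hκ : 0 < κ) (hκ8 : κ < 8) :
    P.m ^ bb κ * P.s 0 ^ (1 - bb κ) ≤ 1 / (1 - bb κ) := by
  obtain ⟨-, h2, -, h4, h5, -⟩ := h.basic
  have b1 : 0 < 1 - bb κ := by unfold bb; linarith
  have m0 : 0 < P.m := by linarith
  have a1 : P.s 0 ≤ Real.exp (-P.m ^ 2) := by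
    simp only [Par.s, sd, zero_add, pow_one, Real.exp_neg]
    exact inv_anti₀ (Real.exp_pos _) ((Real.exp_le_exp.2 (by
      linarith [le_mul_of_one_le_left (sq_nonneg P.m) h.CS_ge, sq_nonneg P.m])).trans (h5.trans (Nat.cast_le.2 h4)))
  have a2 : P.s 0 ^ (1 - bb κ) ≤ (P.m ^ 2 * (1 - bb κ))⁻¹ := by
    refine (Real.rpow_le_rpow h.s_zero_le.1.le a1 b1.le).trans ?_
    rw [← Real.exp_mul, neg_mul, Real.exp_neg]
    exact inv_anti₀ (by positivity) (by linarith [Real.add_one_le_exp (P.m ^ 2 * (1 - bb κ))])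
  have a3 : P.m ^ bb κ ≤ P.m ^ 2 :=
    (Real.rpow_le_self_of_one_le (by linarith) (by linarith)).trans (le_self_pow₀ (by linarith) two_ne_zero)
  exact (mul_le_mul a3 a2 (Real.rpow_nonneg h.s_zero_le.1.le _) (sq_nonneg _)).trans_eq (by field_simp)

theorem Par.Ch.num (h : P.Ch) (hκ : 0 < κ) (hκ8 : κ < 8) : P.Num κ := by
  obtain ⟨-, h2, h3, h4, -⟩ := h.basic
  have m0 : 0 < P.m := by linarith
  have N1 : 1 ≤ P.N := le_trans (by exact_mod_cast (by linarith : (1 : ℝ) ≤ P.n)) h4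
  exact ⟨(div_le_iff₀' h.c_pos).1 (h.m_ge.trans (h3.trans (Nat.cast_le.2 h4))), h.indep,
    h.y_eq ▸ div_pos (mul_pos h.c_pos (sd_pos N1 _)) m0, by rw [h.y_eq, mul_div_cancel₀ _ m0.ne'],
    fun _ hk => h.phi_le hκ hκ8 hk, h.left hκ hκ8, h.strip hκ hκ8⟩

/-- Recipe: `F l = liminf_j cost j l`, `F = liminf_l F l` (`Measurable.liminf`, Fatou `lintegral_liminf_le`,
`liminf_le_of_frequently_le'`); `tendsto_pre` gives `gauge (γ [0,l] ∩ ball) = liminf_j pre ≤ F l`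
(`Tendsto.liminf_eq`, `liminf_le_liminf`), and `gauge (γ [0,∞) ∩ ball)` is the limit of these
(`tendsto_measure_iUnion_atTop`). -/
theorem finiteness_of_cost {μ : Measure Path} {R : ℝ} {B : ℝ≥0∞} (hB : B < ⊤) {δ : ℕ → ℝ≥0∞}
    (hδ : Tendsto δ atTop (𝓝[>] 0)) (cost : ℕ → ℕ → Path → ℝ≥0∞) (hm : ∀ j l, Measurable (cost j l))
    (hi : ∀ j l, ∫⁻ ω, cost j l ω ∂μ ≤ B)
    (hc : ∀ (j l : ℕ) (ω : Path) (γ : ℝ → ℂ), IsChordalTrace ω γ →
      pre κ (δ j) (γ '' Icc 0 l ∩ closedBall 0 R) ≤ cost j l ω) :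
    ∃ F : Path → ℝ≥0∞, Measurable F ∧ ∫⁻ ω, F ω ∂μ < ⊤ ∧
      ∀ (ω : Path) (γ : ℝ → ℂ), IsChordalTrace ω γ → gaugeMeasure κ (γ '' Ici 0 ∩ closedBall 0 R) ≤ F ω := by
  have h1 : ∀ l, Measurable fun ω => liminf (fun j => cost j l ω) atTop := fun l => Measurable.liminf fun j => hm j l
  refine ⟨fun ω => liminf (fun l => liminf (fun j => cost j l ω) atTop) atTop, Measurable.liminf h1,
    lt_of_le_of_lt ((lintegral_liminf_le h1).trans (liminf_le_of_frequently_le' (Frequently.of_forall fun l =>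
      (lintegral_liminf_le fun j => hm j l).trans (liminf_le_of_frequently_le' (Frequently.of_forall fun j => hi j l)))))
      hB, fun ω γ hγ => ?_⟩
  have hmono : Monotone fun l : ℕ => γ '' Icc 0 l ∩ closedBall 0 R := fun l l' h =>
    inter_subset_inter_left _ (image_mono (Icc_subset_Icc_right (by exact_mod_cast h)))
  have hU : ⋃ l : ℕ, γ '' Icc 0 l ∩ closedBall 0 R = γ '' Ici 0 ∩ closedBall 0 R := by
    rw [← iUnion_inter, ← image_iUnion]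
    congr 2
    exact Subset.antisymm (iUnion_subset fun l => Icc_subset_Ici_self) fun t ht =>
      mem_iUnion.2 ⟨⌈t⌉₊, ht, Nat.le_ceil t⟩
  have h2 := tendsto_measure_iUnion_atTop (μ := gaugeMeasure κ) hmono
  rw [hU] at h2
  rw [← h2.liminf_eq]
  refine liminf_le_liminf (Eventually.of_forall fun l => ?_)
  rw [Function.comp_apply, ← (tendsto_pre κ hδ _).liminf_eq]
  exact liminf_le_liminf (Eventually.of_forall fun j => hc j l ω γ hγ)

end Crest.Agent.R162.Cv
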