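import Crest.Agent.R162.C.Glob
import Crest.Agent.R162.C.Num

/-! # Row 162, block C: assembly -/

set_option autoImplicit false

open scoped ENNReal NNReal Topology
open Set Filter MeasureTheory Metric

noncomputable section
namespace Crest.Agent.R162.Cv

open Crest.ProbabilityR.Loewner

theorem finiteness_nonneg {κ : ℝ} {μ : Measure Path} (hκ : 0 < κ) (hκ8 : κ < 8) (hμ : Wie κ μ) {R : ℝ}
    (hR : 0 ≤ R) :
    ∃ F : Path → ℝ≥0∞, Measurable F ∧ ∫⁻ ω, F ω ∂μ < ⊤ ∧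
      ∀ (ω : Path) (γ : ℝ → ℂ), IsChordalTrace ω γ → gaugeMeasure κ (γ '' Ici 0 ∩ closedBall 0 R) ≤ F ω := by
  obtain ⟨C, hC⟩ := exists_koebeF
  obtain ⟨C₁, hC₁⟩ := exists_good
  have ha := aa_pos hκ hκ8
  set g : ℝ := min (aa κ / 2) 2 with hg
  have hg0 : 0 < g := lt_min (by linarith) two_pos
  have hga : g < aa κ := (min_le_left _ _).trans_lt (by linarith)
  have hg2 : g ≤ 2 := min_le_right _ _
  obtain ⟨CL, hCL⟩ := exists_lyap hκ hκ8 hμ hg0 hga hg2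
  obtain ⟨s₀, c₀, C₀, hlow⟩ := exists_low hκ hκ8 hμ
  have hC2 := hC.two_le
  have hCL1 := hCL.one_le
  have hC11 := hC₁.one_le
  set s₁ : ℝ := (1 / (4 * C * CL)) ^ (aa κ - g)⁻¹ / C with hs₁
  have hs₁0 : 0 < s₁ := by positivity
  have hs₁s : (C * s₁) ^ (aa κ - g) ≤ 1 / (4 * C * CL) := by
    rw [hs₁, mul_div_cancel₀ _ (by positivity), Real.rpow_inv_rpow (by positivity) (by linarith)]
  have hδ : 1 / (2 * C₁ * C) ≤ 1 / 2 := one_div_le_one_div_of_le two_pos (by nlinarith)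
  obtain ⟨δ', c, CS, m₀, hδ', hδ'', hc, hc1, hCS, hm₀, hsn⟩ :=
    exists_snake hκ hκ8 hμ hlow (A := 1 / s₁ + 1) (δ := 1 / (2 * C₁ * C))
      (by have : 0 < 1 / s₁ := by positivity
          linarith) (by positivity) hδ
  set m : ℕ → ℝ := fun j => max m₀ (32 * C ^ 2 / c) + j with hm
  have hmm : ∀ j, m₀ ≤ m j := fun j => (le_max_left _ _).trans (le_add_of_nonneg_right j.cast_nonneg)
  have hmm' : ∀ j, 32 * C ^ 2 / c ≤ m j := fun j =>
    (le_max_right _ _).trans (le_add_of_nonneg_right j.cast_nonneg)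
  choose Tm π hπ using fun j => hsn (m j) (hmm j)
  set n : ℕ → ℕ := fun j => ⌈Real.exp (2 * CS * m j ^ 2)⌉₊ with hn
  let P : ℕ → ℕ → Par := fun j l =>
    ⟨C, C₁, g, CL, s₀, s₁, δ', c, CS, R, m j, Tm j, l, c * sd (n j ^ 4) (n j + 1) / m j, π j, n j ^ 4, n j⟩
  have hch : ∀ j l, (P j l).Ch := fun j l =>
    ⟨hC2, hc, hc1, hCS, hδ', hδ''.trans hδ, hmm' j, rfl, rfl, rfl⟩
  have hok : ∀ j l, (P j l).Ok κ μ := fun j l =>
    ⟨hκ, hκ8, hμ, hC, hC₁, hg0, hga, hg2, hCL, hlow.s_pos, hs₁0, hs₁s, hδ', hδ''.trans hδ, hc, hc1, hCS,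
      hm₀.trans (hmm j), hR, l.cast_nonneg, hπ j, (hch j l).num hκ hκ8⟩
  refine finiteness_of_cost (B := ENNReal.ofReal ((P 0 0).K₁ * (P 0 0).I₀ κ) +
      ENNReal.ofReal ((P 0 0).K₂ * (P 0 0).I₀ κ) + ENNReal.ofReal ((P 0 0).K₃ κ))
    (by finiteness) (δ := fun j => ENNReal.ofReal (2 * (P j 0).s 0)) ?_ (fun j l => (P j l).cost κ)
    (fun j l => (hok j l).measurable_cost) (fun j l => (hok j l).cost_le) (fun j l ω γ hγ => (hok j l).cover hγ)
  refine tendsto_inf.2 ⟨?_, tendsto_principal.2 (Eventually.of_forall fun j => ?_)⟩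
  · have h1 : Tendsto m atTop atTop := tendsto_atTop_add_const_left _ _ tendsto_natCast_atTop_atTop
    have h2 : Tendsto (fun j => 2 * (P j 0).s 0) atTop (𝓝 0) := by
      have h3 : Tendsto (fun j => 2 * (m j)⁻¹) atTop (𝓝 0) := by
        simpa using h1.inv_tendsto_atTop.const_mul 2
      refine squeeze_zero (fun j => ?_) (fun j => ?_) h3
      · have := (hch j 0).s_zero_le.1
        positivity
      · have := (hch j 0).s_zero_le.2
        rw [one_div] at this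
        exact mul_le_mul_of_nonneg_left this zero_le_two
    simpa using ENNReal.tendsto_ofReal h2
  · have := (hch j 0).s_zero_le.1
    exact ENNReal.ofReal_pos.2 (by positivity)

theorem finiteness {κ : ℝ} {μ : Measure Path} (hκ : 0 < κ) (hκ8 : κ < 8) (hμ : Wie κ μ) (R : ℝ) :
    ∃ F : Path → ℝ≥0∞, Measurable F ∧ ∫⁻ ω, F ω ∂μ < ⊤ ∧
      ∀ (ω : Path) (γ : ℝ → ℂ), IsChordalTrace ω γ → gaugeMeasure κ (γ '' Ici 0 ∩ closedBall 0 R) ≤ F ω := by
  obtain ⟨F, h1, h2, h3⟩ := finiteness_nonneg hκ hκ8 hμ (abs_nonneg R)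
  exact ⟨F, h1, h2, fun ω γ hγ => (measure_mono (inter_subset_inter_right _
    (closedBall_subset_closedBall (le_abs_self R)))).trans (h3 ω γ hγ)⟩

end Crest.Agent.R162.Cv
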