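import Crest.Agent.R162.Z
import Crest.Agent.R162.K2
import Crest.Agent.R162.M

/-!
# Row 162, block C: definitions (owner helper28).  FROZEN.

Overview.  Squares of level `k` have side `s k = N^{-(k+1)}`; `x k z` is the centre of the square of level `k`
containing `z`.  All sums over squares are written as integrals over `z`.  `tau x s` is the first time at which
`Υ(x) ≤ C s`, `mrk x s ∈ [0, 1/2]` is the snake mark read on the rescaled path after `tau x s`.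
-/

set_option autoImplicit false

open scoped ENNReal NNReal Topology
open Set Filter MeasureTheory Metric

noncomputable section
namespace Crest.Agent.R162.Cv

open Crest.ProbabilityR.Loewner

/-- centre of the square of side `s` containing `z` -/
def cen (s : ℝ) (z : ℂ) : ℂ := ⟨s * (⌊z.re / s⌋ + 1 / 2), s * (⌊z.im / s⌋ + 1 / 2)⟩

/-- the (half open) square of side `s` containing `z₀` -/
def cell (s : ℝ) (z₀ : ℂ) : Set ℂ := {z | cen s z = cen s z₀}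

/-- `U` is a union of squares of side `s` -/
def Sat (s : ℝ) (U : Set ℂ) : Prop := ∀ z ∈ U, cell s z ⊆ U

/-- side of the squares of level `k` -/
def sd (N k : ℕ) : ℝ := ((N : ℝ) ^ (k + 1))⁻¹

def box (a h : ℝ) : Set ℂ := {z | |z.re| ≤ a ∧ 0 ≤ z.im ∧ z.im ≤ h}

/-- follow `ω` up to time `t`, then the increments of `ω'` read at the scale `Y` -/
def res (t Y : ℝ) (ω ω' : Path) : Path := spl t ω (scl Y⁻¹ ω')

/-- a ball of points near `x` whose images lie just below the image of `x` -/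
structure Good (C₁ : ℝ) : Prop where
  one_le : 1 ≤ C₁
  good : ∀ (ω : Path) (x : ℂ) (t δ : ℝ), Alive ω x t → 0 < δ → δ ≤ 1 / 2 → ∃ z₁ : ℂ,
    ∀ z ∈ ball z₁ (δ * Up ω x t / C₁), z ∈ ball x (C₁ * δ * Up ω x t) ∧ Alive ω z t ∧
      ‖Zc ω z t - (Zc ω x t - ((δ / 2 * Yc ω x t : ℝ) : ℂ) * Complex.I)‖ ≤ δ / 4 * Yc ω x t

/-- the parameters of the cover -/
structure Par where
  C : ℝ
  C₁ : ℝ
  g : ℝ
  CL : ℝ
  s₀ : ℝ
  s₁ : ℝ
  δ' : ℝ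
  c : ℝ
  CS : ℝ
  R : ℝ
  m : ℝ
  Tm : ℝ
  T : ℝ
  y : ℝ
  π : Path → ℝ
  N : ℕ
  n : ℕ

namespace Par

variable (P : Par)

/-- probability of a snake -/
def p : ℝ := Real.exp (-P.CS * P.m ^ 2)

def c₃ : ℝ := P.c * P.δ' ^ 2 / (2 * P.C ^ 2)

/-- contraction per level -/
def θ : ℝ := P.c₃ * P.p

def η : ℝ := P.θ / (P.C * P.CL)

def tau (x : ℂ) (s : ℝ) : Path → ℝ := hitU x (P.C * s) P.T

def H (x : ℂ) (s : ℝ) : Set Path := Hit x (P.C * s) P.T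

def Y (x : ℂ) (s : ℝ) (ω : Path) : ℝ := Yc ω x (P.tau x s ω)

def Flag (x : ℂ) (s : ℝ) : Set Path := {ω | ω ∈ P.H x s ∧ P.s₁ ≤ Sc ω x (P.tau x s ω)}

/-- the mark of the square with centre `x` and side `s` -/
def mrk (x : ℂ) (s : ℝ) : Path → ℝ :=
  (P.Flag x s).indicator fun ω => P.π (scl (P.Y x s ω) (sh (P.tau x s ω) ω))

/-- end of the window on which the mark is read -/
def en (x : ℂ) (s : ℝ) (ω : Path) : ℝ := P.tau x s ω + P.Y x s ω ^ 2 * P.Tm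

/-- the part of the mark which is known when the child `(x', s')` is hit -/
def mrk' (x : ℂ) (s : ℝ) (x' : ℂ) (s' : ℝ) : Path → ℝ :=
  {ω | P.en x s ω ≤ P.tau x' s' ω}.indicator (P.mrk x s)

def s (k : ℕ) : ℝ := sd P.N k

def x (k : ℕ) (z : ℂ) : ℂ := cen (P.s k) z

def W (k : ℕ) (z : ℂ) (ω : Path) : ℝ := ∏ i ∈ Finset.range k, (1 - P.mrk (P.x i z) (P.s i) ω)

def W' (k : ℕ) (z : ℂ) (ω : Path) : ℝ :=
  ∏ i ∈ Finset.range k, (1 - P.mrk' (P.x i z) (P.s i) (P.x (i + 1) z) (P.s (i + 1)) ω)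

/-- `G(z)` at the time when `(x, s)` is hit -/
def potG (κ : ℝ) (z x : ℂ) (s : ℝ) : Path → ℝ := (P.H x s).indicator fun ω => Gr κ ω z (P.tau x s ω)

/-- `V_g(z)` at the time when `(x, s)` is hit -/
def potV (κ : ℝ) (z x : ℂ) (s : ℝ) : Path → ℝ := (P.H x s).indicator fun ω => Vg κ P.g ω z (P.tau x s ω)

def pot (κ : ℝ) (z x : ℂ) (s : ℝ) (ω : Path) : ℝ := P.potG κ z x s ω + P.η * P.potV κ z x s ω

/-- the part of `G(z)` removed by the mark of `(x, s)` -/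
def gain (κ : ℝ) (z x : ℂ) (s s' : ℝ) : Path → ℝ :=
  {ω | P.C ^ 2 * s' < Up ω z (P.en x s ω)}.indicator fun ω => P.mrk x s ω * Gr κ ω z (P.en x s ω)

def Phi (κ : ℝ) (μ : Measure Path) (k : ℕ) (z : ℂ) : ℝ≥0∞ :=
  ∫⁻ ω, ENNReal.ofReal (P.W' k z ω * P.pot κ z (P.x k z) (P.s k) ω) ∂μ

/-- cost per unit area of a square of level `k` -/
def f (κ : ℝ) (k : ℕ) : ℝ := gaugeReal κ (2 * P.s k) / P.s k ^ 2

/-- cost per unit area of the square of the last level with centre `x` -/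
def last (κ : ℝ) (x : ℂ) : Path → ℝ≥0∞ :=
  {ω | ω ∈ P.H x (P.s (P.n + 1)) ∨ x.im < 3 * P.C * P.s (P.n + 1)}.indicator
    fun _ => ENNReal.ofReal (P.f κ (P.n + 1))

/-- the top squares -/
def U : Set ℂ := {z | ‖P.x 0 z‖ ≤ P.R + 1 ∧ 4 * P.C * P.s 0 ≤ (P.x 0 z).im}

/-- the strip -/
def S : Set ℂ := {z | ‖P.x 0 z‖ ≤ P.R + 1 ∧ 0 < (P.x 0 z).im ∧ (P.x 0 z).im < 4 * P.C * P.s 0}

def costM (κ : ℝ) (k : ℕ) (ω : Path) : ℝ≥0∞ :=
  ∫⁻ z in P.U, ENNReal.ofReal (P.W k z ω * P.mrk (P.x k z) (P.s k) ω) * ENNReal.ofReal (P.f κ k)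

def costL (κ : ℝ) (ω : Path) : ℝ≥0∞ :=
  ∫⁻ z in P.U, ENNReal.ofReal (P.W (P.n + 1) z ω) * P.last κ (P.x (P.n + 1) z) ω

def costS (κ : ℝ) (ω : Path) : ℝ≥0∞ := ∫⁻ z in P.S, P.last κ (P.x (P.n + 1) z) ω

def cost (κ : ℝ) (ω : Path) : ℝ≥0∞ :=
  ∑ k ∈ Finset.range (P.n + 1), P.costM κ k ω + P.costL κ ω + P.costS κ ω

/-- `∫_U Im^{-b}` is at most this -/
def I₀ (κ : ℝ) : ℝ := 2 * (P.R + 2) * (P.R + 2) ^ (1 - bb κ) / (1 - bb κ)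

def K₁ : ℝ := 36 * P.CS * (8 * P.C ^ 2 * P.C₁ ^ 4 / P.c) * (P.CS * Real.exp P.CS)

def K₂ : ℝ := 2 * (36 * P.CS) * P.CL * P.C ^ 2 * (P.C * P.CL) * (2 / P.c₃ ^ 3)

def K₃ (κ : ℝ) : ℝ := 36 * P.CS * P.CL * (4 * P.C) * (2 * (P.R + 2) * (5 * P.C) / (1 - bb κ) ^ 2)

/-- the bound for the expected cost; it does not depend on `m, Tm, T, y, π, N, n` -/
def B (κ : ℝ) : ℝ := P.K₁ * P.I₀ κ + P.K₂ * P.I₀ κ + P.K₃ κ

/-- `(x', s')` is a descendant of `(x, s)` -/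
structure Sub (x : ℂ) (s : ℝ) (x' : ℂ) (s' : ℝ) : Prop where
  pos : 0 < s'
  le : P.N * s' ≤ s
  mem : x' ∈ ball x s
  im : P.C * s ≤ x.im
  im' : P.C * s' ≤ x'.im

/-- the numerical constraints -/
structure Num (κ : ℝ) : Prop where
  N_ge : 32 * P.C ^ 2 ≤ P.c * P.N
  indep : P.CS * P.m ^ 2 * (P.n + 1) * (2 * √(P.C / P.N)) ≤ 1
  y_pos : 0 < P.y
  y_le : P.m * P.y ≤ P.c * P.s (P.n + 1)
  phi_le : ∀ k ≤ P.n + 1, gaugeReal κ (2 * P.s k) ≤ 36 * P.CS * P.s k ^ (2 - bb κ) * P.m ^ bb κ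
  left : P.m ^ bb κ * (1 - P.θ) ^ P.n / P.θ ≤ 2 / P.c₃ ^ 3
  strip : P.m ^ bb κ * P.s 0 ^ (1 - bb κ) ≤ 1 / (1 - bb κ)

structure Ok (κ : ℝ) (μ : Measure Path) : Prop where
  hκ : 0 < κ
  hκ8 : κ < 8
  wie : Wie κ μ
  koebe : KoebeF P.C
  good : Good P.C₁
  g_pos : 0 < P.g
  g_lt : P.g < aa κ
  g_le : P.g ≤ 2
  lyap : Lyap κ μ P.g P.CL
  s₀_pos : 0 < P.s₀
  s₁_pos : 0 < P.s₁
  s₁_small : (P.C * P.s₁) ^ (aa κ - P.g) ≤ 1 / (4 * P.C * P.CL)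
  δ'_pos : 0 < P.δ'
  δ'_le : P.δ' ≤ 1 / 2
  c_pos : 0 < P.c
  c_le : P.c ≤ 1
  CS_ge : 1 ≤ P.CS
  m_ge : 1 ≤ P.m
  R_nonneg : 0 ≤ P.R
  T_nonneg : 0 ≤ P.T
  snake : Snake κ μ P.s₀ (1 / P.s₁ + 1) (1 / (2 * P.C₁ * P.C)) P.δ' P.c P.CS P.m P.Tm P.π
  num : P.Num κ

end Par

end Crest.Agent.R162.Cv
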