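import Crest.Agent.R162.C.Loc

/-! # Row 162, block C: one step of the potential (pointwise in `z`) -/

set_option autoImplicit false

open scoped ENNReal NNReal Topology
open Set Filter MeasureTheory Metric

noncomputable section
namespace Crest.Agent.R162.Cv

open Crest.ProbabilityR.Loewner

variable {κ : ℝ} {μ : Measure Path} {P : Par} {ω : Path} {x x' z : ℂ} {s s' : ℝ}

theorem step_G_meas_spl (t : ℝ) (ω : Path) : Measurable fun ω' : Path => spl t ω ω' :=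
  (continuous_spl.comp (continuous_const.prodMk (continuous_const.prodMk continuous_id))).measurable

theorem step_G_meas_Gr (κ : ℝ) (z : ℂ) {τ : Path → ℝ} (hτ : Measurable τ) :
    Measurable fun ω : Path => Gr κ ω z (τ ω) :=
  (measurable_Gr κ).comp (measurable_id.prodMk (measurable_const.prodMk hτ))

/-- Recipe: `T' = T + (Im x)² Tm ≥ en` (`en_le`), `τ'' = hitU x' (C s') T'`, `σ = min τ'' en` (`Stop.min`, `stop_en`),
`π̂ = {en ≤ τ''}.indicator (mrk x s)`.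
(a) `(1 - mrk') potG ≤ (1 - π̂) Gr z τ''` pointwise (`hitU_eq_of_hit`).
(b) `π̂` is invariant under `Agr (σ ω₁) ω₁` (if `en ≤ τ''`: `agr_mrk`, `le_stop_of_agr`; otherwise `τ''` and `en` are
invariant, `agr_tau` with `tau x s ≤ tau x' s' ≤ τ''` by `order`, `hitU_mono`).  So `EE_tower` at `σ` and `green_super`
(`After τ'' ω₁ (σ ω₁) T'`, `le_stop_of_agr`) give `EE[(1 - π̂) Gr z τ''] ≤ EE[(1 - π̂) Gr z σ]`.
(c) `gain ≤ π̂ Gr z σ` pointwise: if `τ'' < en ≤ T'` then `ω₁ ∈ Hit x' (C s') T'` (`hitU_of_not_hit`) and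
`Up z en ≤ Up z τ'' ≤ C² s'` (`Up_anti`, `at_hit_near`).
(d) add (`lintegral_add_left`) and use `green_super` with `After σ ω (tau x s ω) T'`. -/
theorem Par.Ok.step_G (h : P.Ok κ μ) (hS : P.Sub x s x' s') (hz : z ∈ ball x' s') (ω : Path) :
    EE μ ω (P.tau x s ω) (fun ω₁ => ENNReal.ofReal ((1 - P.mrk' x s x' s' ω₁) * P.potG κ z x' s' ω₁)) +
      EE μ ω (P.tau x s ω) (fun ω₁ => ENNReal.ofReal (P.gain κ z x s s' ω₁)) ≤
      ENNReal.ofReal (Gr κ ω z (P.tau x s ω)) := by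
  have hC := h.C_ge
  have hs := h.sub_pos hS
  have hx : 0 < x.im := lt_of_lt_of_le (by positivity) hS.im
  set T' : ℝ := P.T + x.im ^ 2 * P.Tm with hT'
  have hTT : P.T ≤ T' := le_add_of_nonneg_right (mul_nonneg (sq_nonneg _) h.snake.T_pos.le)
  have hT'0 : 0 ≤ T' := h.T_nonneg.trans hTT
  set τ'' : Path → ℝ := hitU x' (P.C * s') T' with hτ''
  have sτ'' : Stop τ'' := stop_hitU _ _ hT'0
  have sen : Stop (P.en x s) := h.stop_en x s
  set σ : Path → ℝ := fun ω => min (τ'' ω) (P.en x s ω) with hσ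
  have sσ : Stop σ := sτ''.min sen
  set q : Path → ℝ := {ω | P.en x s ω ≤ τ'' ω}.indicator (P.mrk x s) with hq
  have hqm : Measurable q := (h.measurable_mrk x s).indicator (measurableSet_le sen.meas sτ''.meas)
  have hq0 : ∀ ω, 0 ≤ q ω := fun ω => indicator_nonneg (fun ω _ => (h.mrk_mem x s ω).1) ω
  have hq1 : ∀ ω, q ω ≤ 1 := fun ω =>
    (indicator_le_self' (fun ω _ => (h.mrk_mem x s ω).1) ω).trans ((h.mrk_mem x s ω).2.trans (by norm_num))
  have hττ : ∀ ω, P.tau x s ω ≤ τ'' ω := fun ω => (h.order hS ω).1.trans (hitU_mono h.T_nonneg hTT)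
  have hτσ : ∀ ω, P.tau x s ω ≤ σ ω := fun ω => le_min (hττ ω) (h.tau_le_en x s ω)
  have hστ : ∀ ω', P.tau x s ω ≤ σ (spl (P.tau x s ω) ω ω') := fun ω' => by
    have := hτσ (spl (P.tau x s ω) ω ω')
    rwa [(h.agr_tau (agr_spl _ ω ω') le_rfl).1] at this
  -- (a)
  have ha : ∀ ω₁, (1 - P.mrk' x s x' s' ω₁) * P.potG κ z x' s' ω₁ ≤ (1 - q ω₁) * Gr κ ω₁ z (τ'' ω₁) := by
    intro ω₁
    by_cases hH : ω₁ ∈ P.H x' s'
    · have h1 : τ'' ω₁ = P.tau x' s' ω₁ := hitU_eq_of_hit hTT hH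
      have h2 : q ω₁ = P.mrk' x s x' s' ω₁ := by
        simp only [hq, Par.mrk', indicator, mem_ofPred_eq, h1]
      rw [h2, h1, Par.potG, indicator_of_mem hH]
    · rw [Par.potG, indicator_of_notMem hH, mul_zero]
      exact mul_nonneg (by linarith [hq1 ω₁]) (Gr_nonneg _ _ _ _)
  -- (b)
  have hb : ∀ ω₁ ω₂, Agr (σ ω₁) ω₁ ω₂ → q ω₂ = q ω₁ := by
    intro ω₁ ω₂ hA
    have he : P.en x s ω₂ = P.en x s ω₁ := (h.agr_tau hA (hτσ ω₁)).2.2.2.2
    by_cases hc : P.en x s ω₁ ≤ τ'' ω₁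
    · have h1 : σ ω₁ = P.en x s ω₁ := min_eq_right hc
      rw [h1] at hA
      have h2 : P.en x s ω₂ ≤ τ'' ω₂ := he ▸ le_stop_of_agr sτ'' hA hc
      rw [hq, indicator_of_mem (show ω₂ ∈ {ω | P.en x s ω ≤ τ'' ω} from h2),
        indicator_of_mem (show ω₁ ∈ {ω | P.en x s ω ≤ τ'' ω} from hc), h.agr_mrk hA le_rfl]
    · have h1 : σ ω₁ = τ'' ω₁ := min_eq_left (le_of_not_ge hc)
      rw [h1] at hA
      have h2 : ¬P.en x s ω₂ ≤ τ'' ω₂ := by rw [he, sτ''.agr _ _ hA]; exact hc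
      rw [hq, indicator_of_notMem (show ω₂ ∉ {ω | P.en x s ω ≤ τ'' ω} from h2),
        indicator_of_notMem (show ω₁ ∉ {ω | P.en x s ω ≤ τ'' ω} from hc)]
  have hm1 : Measurable fun ω₁ => ENNReal.ofReal ((1 - q ω₁) * Gr κ ω₁ z (τ'' ω₁)) :=
    ((measurable_const.sub hqm).mul (step_G_meas_Gr κ z sτ''.meas)).ennreal_ofReal
  have hb2 : ∀ ω₁, EE μ ω₁ (σ ω₁) (fun ω₂ => ENNReal.ofReal ((1 - q ω₂) * Gr κ ω₂ z (τ'' ω₂))) ≤
      ENNReal.ofReal ((1 - q ω₁) * Gr κ ω₁ z (σ ω₁)) := by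
    intro ω₁
    have hA : After τ'' ω₁ (σ ω₁) T' :=
      ⟨sτ'', sσ.nonneg ω₁, fun ω' => le_stop_of_agr sτ'' (agr_spl _ ω₁ ω') (min_le_left _ _),
        fun ω' => (hitU_mem hT'0).2⟩
    have h1 := green_super h.hκ h.hκ8 h.wie z hA
    have h0 : 0 ≤ 1 - q ω₁ := by linarith [hq1 ω₁]
    rw [ENNReal.ofReal_mul h0]
    refine le_trans (le_of_eq ?_) (mul_le_mul_right h1 _)
    unfold EE
    rw [← lintegral_const_mul' _ _ ENNReal.ofReal_ne_top]
    refine lintegral_congr fun ω' => ?_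
    beta_reduce
    rw [hb ω₁ _ (agr_spl _ ω₁ ω'), ENNReal.ofReal_mul h0]
  have hb3 : EE μ ω (P.tau x s ω)
      (fun ω₁ => ENNReal.ofReal ((1 - P.mrk' x s x' s' ω₁) * P.potG κ z x' s' ω₁)) ≤
      EE μ ω (P.tau x s ω) (fun ω₁ => ENNReal.ofReal ((1 - q ω₁) * Gr κ ω₁ z (σ ω₁))) := by
    refine le_trans (b := EE μ ω (P.tau x s ω)
      (fun ω₁ => ENNReal.ofReal ((1 - q ω₁) * Gr κ ω₁ z (τ'' ω₁)))) ?_ ?_
    · exact lintegral_mono fun ω' => ENNReal.ofReal_le_ofReal (ha _)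
    · rw [h.wie.EE_tower sσ hστ hm1]
      exact lintegral_mono fun ω' => hb2 _
  -- (c)
  have hc : ∀ ω₁, P.gain κ z x s s' ω₁ ≤ q ω₁ * Gr κ ω₁ z (σ ω₁) := by
    intro ω₁
    by_cases hU : P.C ^ 2 * s' < Up ω₁ z (P.en x s ω₁)
    · have h1 : P.en x s ω₁ ≤ τ'' ω₁ := by
        by_contra hlt
        have hlt := lt_of_not_ge hlt
        have hH : ω₁ ∈ Hit x' (P.C * s') T' := by
          by_contra hn
          have := hitU_of_not_hit hn
          have h3 := h.en_le hx s ω₁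
          simp only [hτ''] at hlt
          linarith
        have h3 := (at_hit_near h.koebe hS.pos hS.im' hH hz).2.2.1
        have h4 : Up ω₁ z (P.en x s ω₁) ≤ Up ω₁ z (τ'' ω₁) := Up_anti (sτ''.nonneg ω₁) hlt.le
        linarith
      have h2 : σ ω₁ = P.en x s ω₁ := min_eq_right h1
      rw [Par.gain, indicator_of_mem (show ω₁ ∈ {ω | P.C ^ 2 * s' < Up ω z (P.en x s ω)} from hU), h2, hq,
        indicator_of_mem (show ω₁ ∈ {ω | P.en x s ω ≤ τ'' ω} from h1)]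
    · rw [Par.gain, indicator_of_notMem (show ω₁ ∉ {ω | P.C ^ 2 * s' < Up ω z (P.en x s ω)} from hU)]
      exact mul_nonneg (hq0 _) (Gr_nonneg _ _ _ _)
  -- (d)
  have hA : After σ ω (P.tau x s ω) T' :=
    ⟨sσ, (h.tau_mem x s ω).1, hστ, fun ω' => (min_le_left _ _).trans (hitU_mem hT'0).2⟩
  refine le_trans ?_ (green_super h.hκ h.hκ8 h.wie z hA)
  refine (add_le_add hb3 (lintegral_mono fun ω' => ENNReal.ofReal_le_ofReal (hc _))).trans (le_of_eq ?_)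
  unfold EE
  rw [← lintegral_add_left]
  · refine lintegral_congr fun ω' => ?_
    rw [← ENNReal.ofReal_add (mul_nonneg (by linarith [hq1 (spl (P.tau x s ω) ω ω')]) (Gr_nonneg _ _ _ _))
      (mul_nonneg (hq0 _) (Gr_nonneg _ _ _ _))]
    congr 1; ring
  · exact (((measurable_const.sub hqm).mul (step_G_meas_Gr κ z sσ.meas)).ennreal_ofReal).comp
      (step_G_meas_spl _ _)

/-- Recipe: `EE_res` (`measurable_gain`); for `ω₁ = res τ Y ω ω'`: `en ω₁ = τ + Y² Tm` (`agr_tau`), `mrk ω₁ = π (sh 0 ω')`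
(`mrk_res`), `res_Up`, `res_Gr` with `ζ = Zc ω z τ / Y`, `λ = Up z τ * Y / Yc z τ ∈ [2s/3, 2 C² s]` (`at_hit_near`).
`‖ζ - Zc x τ / Y‖ ≤ δ'` (`at_hit_near`), so `|Re ζ| ≤ 1/s₁ + 1`, `Im ζ ∈ [1 - δ', 2]` (`flag_re`).  If `c ≤ Up ω' ζ Tm` then
`Up ω₁ z en ≥ 2 s c / 3 > C² s'` (`num.N_ge`).  `Wie.sh_zero`, `snake.surv`, `λ^{-b} ≥ s^{-b} / (2 C²)`. -/
theorem Par.Ok.gain_ge (h : P.Ok κ μ) (hs' : 0 < s') (hss : P.N * s' ≤ s) (hx : P.C * s ≤ x.im)
    (hω : ω ∈ P.Flag x s) (hz : z ∈ ball x (P.δ' * s)) :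
    ENNReal.ofReal (P.c * P.p * s ^ (-bb κ) / (2 * P.C ^ 2)) ≤
      EE μ ω (P.tau x s ω) (fun ω₁ => ENNReal.ofReal (P.gain κ z x s s' ω₁)) := by
  have hC := h.C_ge
  have hN : (1 : ℝ) ≤ P.N := by exact_mod_cast h.N_one
  have hs0 : 0 < s := lt_of_lt_of_le (by positivity) hss
  have d0 := h.δ'_pos
  have d1 := h.δ'_le
  have c0 := h.c_pos
  have p0 := P.p_pos
  obtain ⟨a1, a2, a3, a4, a5, a6, -⟩ := at_hit_near h.koebe hs0 hx hω.1
    (ball_subset_ball (by nlinarith) hz)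
  obtain ⟨f1, f2⟩ := h.flag_re hx hω
  have Y0 : 0 < P.Y x s ω := (at_hit hx hω.1).2.2
  change Alive ω z (P.tau x s ω) at a1
  change s ≤ Up ω z (P.tau x s ω) at a2
  change Up ω z (P.tau x s ω) ≤ _ at a3
  change P.Y x s ω / 2 ≤ Yc ω z (P.tau x s ω) at a4
  change Yc ω z (P.tau x s ω) ≤ 3 / 2 * P.Y x s ω at a5
  change s * ‖Zc ω z (P.tau x s ω) - Zc ω x (P.tau x s ω)‖ ≤ P.Y x s ω * _ at a6
  have hen : ∀ ω', P.en x s (res (P.tau x s ω) (P.Y x s ω) ω ω') = P.tau x s ω + P.Y x s ω ^ 2 * P.Tm := fun ω' =>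
    (h.agr_tau (agr_res _ _ ω ω') le_rfl).2.2.2.2
  have hmk := h.mrk_res hx hω
  set τ := P.tau x s ω
  set Y := P.Y x s ω
  set D := (Zc ω z τ - Zc ω x τ) / Y with hD
  have e : Zc ω z τ / Y = D + Zc ω x τ / Y := by rw [hD]; ring
  have n : ‖D‖ ≤ P.δ' := by
    rw [hD, norm_div, Complex.norm_real, Real.norm_of_nonneg Y0.le, div_le_iff₀ Y0]
    refine le_of_mul_le_mul_left (a6.trans ?_) hs0
    exact (mul_le_mul_of_nonneg_left (mem_ball_iff_norm.1 hz).le Y0.le).trans_eq (by ring)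
  have r1 := abs_le.1 ((Complex.abs_re_le_norm D).trans n)
  have r2 := abs_le.1 ((Complex.abs_im_le_norm D).trans n)
  have r3 := abs_le.1 f1
  have z1 : |(Zc ω z τ / Y).re| ≤ 1 / P.s₁ + 1 := by
    rw [e, abs_le, Complex.add_re]
    constructor <;> linarith [r1.1, r1.2, r3.1, r3.2]
  have z2 : (Zc ω z τ / Y).im ∈ Icc (1 - P.δ') 2 := by
    rw [e, Complex.add_im, f2]
    constructor <;> linarith [r2.1, r2.2]
  have y0 := alive_iff.1 a1
  set l := Up ω z τ * Y / Yc ω z τ with hl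
  have l1 : 2 / 3 * s ≤ l := by
    rw [hl, le_div_iff₀ y0]
    calc _ ≤ 2 / 3 * s * (3 / 2 * Y) := by gcongr
      _ = s * Y := by ring
      _ ≤ _ := by gcongr
  have l2 : l ≤ 2 * P.C ^ 2 * s := by
    rw [hl, div_le_iff₀ y0]
    calc _ ≤ P.C ^ 2 * s * (2 * Yc ω z τ) := mul_le_mul a3 (by linarith) Y0.le (by positivity)
      _ = _ := by ring
  have l0 : 0 < l := lt_of_lt_of_le (by positivity) l1
  have l3 : P.C ^ 2 * s' < l * P.c := by
    have h1 := mul_le_mul_of_nonneg_right h.num.N_ge hs'.le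
    have h2 := mul_le_mul_of_nonneg_left hss c0.le
    have h3 := mul_le_mul_of_nonneg_right l1 c0.le
    have h4 := mul_pos c0 hs0
    linarith
  have hA : MeasurableSet {ω' : Path | P.c ≤ Up ω' (Zc ω z τ / Y) P.Tm} := measurableSet_le measurable_const
    (measurable_Up.comp (f := fun ω' : Path => (ω', Zc ω z τ / Y, P.Tm)) (measurable_id.prodMk measurable_const))
  rw [EE_res h.wie Y0 _ _ (h.measurable_gain z x s s').ennreal_ofReal]
  calc _ ≤ ENNReal.ofReal (l ^ (-bb κ)) * ENNReal.ofReal (P.c * P.p) := by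
        rw [← ENNReal.ofReal_mul (by positivity), mul_comm (l ^ _), mul_div_assoc]
        exact ENNReal.ofReal_le_ofReal (mul_le_mul_of_nonneg_left
          (mass_pt_rpow h.hκ h.hκ8 hs0 (by nlinarith) l0 l2) (by positivity))
    _ ≤ _ := mul_le_mul_right (h.snake.surv _ z1 z2) _
    _ ≤ _ := by
        rw [← lintegral_const_mul' _ _ ENNReal.ofReal_ne_top]
        refine le_trans (setLIntegral_mono_ae' hA (h.wie.sh_zero.mono fun ω' e' hω' => ?_))
          (setLIntegral_le_lintegral _ _)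
        rw [Par.gain, indicator_of_mem, hen, hmk, res_Gr a1 Y0 h.snake.T_pos.le, e',
          ← ENNReal.ofReal_mul (by positivity), mul_left_comm]
        rw [mem_ofPred_eq, hen, res_Up a1 Y0 h.snake.T_pos.le, e']
        exact l3.trans_le (mul_le_mul_of_nonneg_left hω' l0.le)

theorem Par.Ok.step_V_EE (h : P.Ok κ μ) (hs : 0 < s) (hx : P.C * s ≤ x.im) (hz : z ∈ ball x s) {t : ℝ}
    (hA : After (P.tau x s) ω t P.T) :
    EE μ ω t (fun ω₁ => ENNReal.ofReal (P.potV κ z x s ω₁)) ≤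
      ENNReal.ofReal (P.C * (2 * Vg κ P.g ω z t * wt 1 (P.C * s) (Up ω z t) + P.CL * Gr κ ω z t)) := by
  have hC := h.C_ge
  have C0 : 0 < P.C := by linarith
  rw [ENNReal.ofReal_mul C0.le]
  refine le_trans ?_ (mul_le_mul_right (h.lyap.lyap z (P.C * s) _ ω t P.T (by positivity) hA) _)
  unfold EE
  rw [← lintegral_const_mul' _ _ ENNReal.ofReal_ne_top]
  refine lintegral_mono fun ω' => ?_
  beta_reduce
  generalize spl t ω ω' = ω₁
  rw [← ENNReal.ofReal_mul C0.le, Par.potV]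
  by_cases hH : ω₁ ∈ P.H x s
  · obtain ⟨-, a2, a3, -⟩ := at_hit_near h.koebe hs hx hH hz
    rw [indicator_of_mem hH, mul_left_comm]
    refine ENNReal.ofReal_le_ofReal (le_mul_of_one_le_right (Vg_nonneg _ _ _ _ _) ?_)
    rw [← div_le_iff₀' C0]
    refine le_min ?_ ?_
    · rw [Real.rpow_one, div_le_div_iff₀ C0 (by positivity), one_mul, mul_comm]
      exact mul_le_mul_of_nonneg_right a2 C0.le
    · rw [Real.rpow_one, div_le_div_iff₀ C0 (show 0 < Up ω₁ z (P.tau x s ω₁) from hs.trans_le a2), one_mul]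
      exact a3.trans_eq (by ring)
  · rw [indicator_of_notMem hH, ENNReal.ofReal_zero]
    exact zero_le

/-- Recipe: `ε = C s'`.  On `H x' s'`, `Up z τ' ∈ [s', C² s']` (`at_hit_near`), so `1 ≤ C * wt 1 ε (Up z τ')` and
`potV ≤ C * (Vg z τ' * wt)`.  `lyap.lyap` with `After (tau x' s') ω (tau x s ω) T` (`order`, `agr_tau`, `agr_spl`);
`wt 1 ε (Up z τ) ≤ ε / Up z τ ≤ C / N` and `2 C² / N ≤ 1/4` (`N_ge`). -/
theorem Par.Ok.step_V (h : P.Ok κ μ) (hS : P.Sub x s x' s') (hz' : z ∈ ball x' s') (hz : z ∈ ball x s)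
    (hω : ω ∈ P.H x s) :
    EE μ ω (P.tau x s ω) (fun ω₁ => ENNReal.ofReal (P.potV κ z x' s' ω₁)) ≤
      ENNReal.ofReal (Vg κ P.g ω z (P.tau x s ω) / 4 + P.C * P.CL * Gr κ ω z (P.tau x s ω)) := by
  have hC := h.C_ge
  have hs := h.sub_pos hS
  have hs' := hS.pos
  have hA : After (P.tau x' s') ω (P.tau x s ω) P.T :=
    ⟨h.stop_tau _ _, (h.tau_mem x s ω).1, fun ω' => (h.agr_tau (agr_spl _ ω ω') le_rfl).1.ge.trans
      (h.order hS _).1, fun ω' => (h.tau_mem _ _ ω').2⟩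
  refine (h.step_V_EE hs' hS.im' hz' hA).trans (ENNReal.ofReal_le_ofReal ?_)
  have a2 : s ≤ Up ω z (P.tau x s ω) := (at_hit_near h.koebe hs hS.im hω hz).2.1
  have w : P.C * wt 1 (P.C * s') (Up ω z (P.tau x s ω)) ≤ 1 / 8 := by
    refine (mul_le_mul_of_nonneg_left (min_le_right _ _) (by linarith)).trans ?_
    rw [Real.rpow_one, ← mul_div_assoc, div_le_iff₀ (hs.trans_le a2)]
    have h1 := mul_le_mul_of_nonneg_right h.N_ge hs'.le
    have h2 := hS.le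
    linarith
  nlinarith [mul_le_mul_of_nonneg_left w (Vg_nonneg κ P.g ω z (P.tau x s ω))]

theorem Par.Ok.step_pt_η (h : P.Ok κ μ) : P.η * (P.C * P.CL) = P.θ := by
  have hC := h.C_ge
  have hL := h.lyap.one_le
  exact div_mul_cancel₀ _ (by positivity)

/-- `(1 - mrk') pot ≤ (1 - mrk') potG + η potV`, `lintegral_add_right`, `step_G`, `step_V`, `η C CL = θ` -/
theorem Par.Ok.step_pt (h : P.Ok κ μ) (hS : P.Sub x s x' s') (hz' : z ∈ ball x' s') (hz : z ∈ ball x s)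
    (hω : ω ∈ P.H x s) :
    EE μ ω (P.tau x s ω) (fun ω₁ => ENNReal.ofReal ((1 - P.mrk' x s x' s' ω₁) * P.pot κ z x' s' ω₁)) +
      EE μ ω (P.tau x s ω) (fun ω₁ => ENNReal.ofReal (P.gain κ z x s s' ω₁)) ≤
      ENNReal.ofReal ((1 + P.θ) * Gr κ ω z (P.tau x s ω) + P.η / 4 * Vg κ P.g ω z (P.tau x s ω)) := by
  have η0 := h.η_pos
  have hm : Measurable fun ω' => ENNReal.ofReal P.η * ENNReal.ofReal (P.potV κ z x' s' (spl (P.tau x s ω) ω ω')) :=
    ((h.measurable_potV x' s').comp ((step_G_meas_spl _ ω).prodMk measurable_const)).ennreal_ofReal.const_mul _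
  have h1 : EE μ ω (P.tau x s ω) (fun ω₁ => ENNReal.ofReal ((1 - P.mrk' x s x' s' ω₁) * P.pot κ z x' s' ω₁)) ≤
      EE μ ω (P.tau x s ω) (fun ω₁ => ENNReal.ofReal ((1 - P.mrk' x s x' s' ω₁) * P.potG κ z x' s' ω₁)) +
      ENNReal.ofReal P.η * EE μ ω (P.tau x s ω) (fun ω₁ => ENNReal.ofReal (P.potV κ z x' s' ω₁)) := by
    unfold EE
    rw [← lintegral_const_mul' _ _ ENNReal.ofReal_ne_top, ← lintegral_add_right _ hm]
    refine lintegral_mono fun ω' => ?_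
    beta_reduce
    generalize spl _ ω ω' = ω₁
    rw [← ENNReal.ofReal_mul η0.le]
    refine le_trans (ENNReal.ofReal_le_ofReal ?_) ENNReal.ofReal_add_le
    rw [Par.pot, mul_add]
    exact add_le_add_right (mul_le_of_le_one_left (mul_nonneg η0.le (h.pot_nonneg z x' s' ω₁).2.1)
      (by linarith [(h.mrk'_mem x s x' s' ω₁).1])) _
  have hC := h.C_ge
  have hL := h.lyap.one_le
  have G0 := Gr_nonneg κ ω z (P.tau x s ω)
  have V0 := Vg_nonneg κ P.g ω z (P.tau x s ω)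
  refine (add_le_add_left h1 _).trans ?_
  rw [add_right_comm]
  refine (add_le_add (h.step_G hS hz' ω) (mul_le_mul_right (h.step_V hS hz' hz hω) _)).trans_eq ?_
  rw [← ENNReal.ofReal_mul η0.le, ← ENNReal.ofReal_add G0 (by positivity), ← h.step_pt_η]
  congr 1; ring

/-- not hit: no descendant is hit on any continuation (`agr_tau`, `order`) -/
theorem Par.Ok.step_dead (h : P.Ok κ μ) (hS : P.Sub x s x' s') (hω : ω ∉ P.H x s) :
    EE μ ω (P.tau x s ω) (fun ω₁ => ENNReal.ofReal ((1 - P.mrk' x s x' s' ω₁) * P.pot κ z x' s' ω₁)) = 0 := by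
  refine (lintegral_congr fun ω' => ?_).trans lintegral_zero
  have : spl (P.tau x s ω) ω ω' ∉ P.H x' s' := fun h' =>
    hω ((h.agr_tau (agr_spl _ ω ω') le_rfl).2.1.1 ((h.order hS _).2 h'))
  simp [Par.pot, Par.potG, Par.potV, this]

/-- hit but not flagged: `S(z) ≤ C S(x) ≤ C s₁`, so `Gr = Vg * S^{a-g} ≤ Vg / (4 C CL)` (`s₁_small`), and
`(1 + θ) G + η V / 4 ≤ (1 - θ) (G + η V)` since `θ ≤ 1/4`, `η C CL = θ` -/
theorem Par.Ok.step_noflag (h : P.Ok κ μ) (hS : P.Sub x s x' s') (hz' : z ∈ ball x' s') (hz : z ∈ ball x s)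
    (hω : ω ∈ P.H x s) (hf : ω ∉ P.Flag x s) :
    EE μ ω (P.tau x s ω) (fun ω₁ => ENNReal.ofReal ((1 - P.mrk' x s x' s' ω₁) * P.pot κ z x' s' ω₁)) ≤
      ENNReal.ofReal ((1 - P.θ) * P.pot κ z x s ω) := by
  refine (le_self_add.trans (h.step_pt hS hz' hz hω)).trans (ENNReal.ofReal_le_ofReal ?_)
  have hC := h.C_ge
  have hL := h.lyap.one_le
  have η0 := h.η_pos
  have V0 := Vg_nonneg κ P.g ω z (P.tau x s ω)
  have h1 : Sc ω x (P.tau x s ω) ≤ P.s₁ := le_of_not_ge fun h' => hf ⟨hω, h'⟩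
  have h2 : Sc ω z (P.tau x s ω) ≤ P.C * P.s₁ := (at_hit_near h.koebe (h.sub_pos hS) hS.im hω hz).2.2.2.2.2.2.trans
    (mul_le_mul_of_nonneg_left h1 (by linarith))
  have g0 : 0 < aa κ - P.g := by linarith [h.g_lt]
  have h3 : Gr κ ω z (P.tau x s ω) ≤ Vg κ P.g ω z (P.tau x s ω) * (1 / (4 * P.C * P.CL)) := by
    rw [Gr, Vg, Vg, ← add_sub_cancel P.g (aa κ), Real.rpow_add_of_nonneg Sc_mem.1 h.g_pos.le g0.le, ← mul_assoc]
    exact mul_le_mul_of_nonneg_left ((Real.rpow_le_rpow Sc_mem.1 h2 g0.le).trans h.s₁_small) V0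
  have h4 := mul_le_mul_of_nonneg_left h3 h.θ_pos.le
  rw [show P.θ * (Vg κ P.g ω z (P.tau x s ω) * (1 / (4 * P.C * P.CL))) = P.η * Vg κ P.g ω z (P.tau x s ω) / 4 by
    rw [← h.step_pt_η]; field_simp] at h4
  rw [Par.pot, Par.potG, Par.potV, indicator_of_mem hω, indicator_of_mem hω]
  nlinarith [mul_le_mul_of_nonneg_right h.θ_le (mul_nonneg η0.le V0)]

/-- flagged: `step_pt`, `gain_ge`, `Gr z τ ≤ s^{-b}` (`s ≤ Up z τ`, `S ≤ 1`),
`(1 + θ) G + η V / 4 ≤ (1 - θ) (G + η V) + 2 θ s^{-b}`, and `c p / (2 C²) = θ / δ'²` -/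
theorem Par.Ok.step_flag (h : P.Ok κ μ) (hS : P.Sub x s x' s') (hz' : z ∈ ball x' s') (hz : z ∈ ball x s)
    (hf : ω ∈ P.Flag x s) :
    EE μ ω (P.tau x s ω) (fun ω₁ => ENNReal.ofReal ((1 - P.mrk' x s x' s' ω₁) * P.pot κ z x' s' ω₁)) +
      (ball x (P.δ' * s)).indicator (fun _ => ENNReal.ofReal (P.θ / P.δ' ^ 2 * s ^ (-bb κ))) z ≤
      ENNReal.ofReal ((1 - P.θ) * P.pot κ z x s ω) + ENNReal.ofReal (2 * P.θ * s ^ (-bb κ)) := by
  have hC := h.C_ge
  have η0 := h.η_pos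
  have hs := h.sub_pos hS
  have V0 := Vg_nonneg κ P.g ω z (P.tau x s ω)
  have h1 : (ball x (P.δ' * s)).indicator (fun _ => ENNReal.ofReal (P.θ / P.δ' ^ 2 * s ^ (-bb κ))) z ≤
      EE μ ω (P.tau x s ω) (fun ω₁ => ENNReal.ofReal (P.gain κ z x s s' ω₁)) := by
    by_cases hb : z ∈ ball x (P.δ' * s)
    · rw [indicator_of_mem hb]
      refine le_of_eq_of_le (congrArg _ ?_) (h.gain_ge hS.pos hS.le hS.im hf hb)
      have := h.δ'_pos
      rw [Par.θ, Par.c₃]; field_simp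
    · rw [indicator_of_notMem hb]; exact zero_le
  have h2 : Gr κ ω z (P.tau x s ω) ≤ s ^ (-bb κ) :=
    (mul_le_of_le_one_right (Real.rpow_nonneg Up_nonneg _) (Real.rpow_le_one Sc_mem.1 Sc_mem.2
      (aa_pos h.hκ h.hκ8).le)).trans (Real.rpow_le_rpow_of_nonpos hs
      (at_hit_near h.koebe hs hS.im hf.1 hz).2.1 (neg_nonpos.2 (bb_pos h.hκ8).le))
  refine ((add_le_add_right h1 _).trans (h.step_pt hS hz' hz hf.1)).trans
    ((ENNReal.ofReal_le_ofReal ?_).trans ENNReal.ofReal_add_le)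
  rw [Par.pot, Par.potG, Par.potV, indicator_of_mem hf.1, indicator_of_mem hf.1]
  nlinarith [mul_le_mul_of_nonneg_right h.θ_le (mul_nonneg η0.le V0), mul_le_mul_of_nonneg_left h2 h.θ_pos.le,
    mul_nonneg η0.le V0]

/-- Recipe: `EE_zero` with the zero path, `After (tau x s) 0 0 T`; `green_super`; `potV ≤ C * (Vg * wt 1 (C s) Up)` as in
`step_V`, `lyap.lyap`, `wt ≤ 1`; `Gr, Vg ≤ Im z^{-b}` at time `0` (`Up_zero`, `Sc_mem`);
`η C (2 + CL) = θ (2 + CL) / CL ≤ 3/4`. -/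
theorem Par.Ok.pot_zero (h : P.Ok κ μ) (hs : 0 < s) (hx : P.C * s ≤ x.im) (hz : z ∈ ball x s) :
    ∫⁻ ω, ENNReal.ofReal (P.pot κ z x s ω) ∂μ ≤ ENNReal.ofReal (2 * z.im ^ (-bb κ)) := by
  have hC := h.C_ge
  have hL := h.lyap.one_le
  have η0 := h.η_pos
  have hz0 : z ∈ HH := by
    have h1 := abs_le.1 ((Complex.abs_im_le_norm (z - x)).trans (mem_ball_iff_norm.1 hz).le)
    rw [Complex.sub_im] at h1
    change 0 < z.im
    nlinarith [h1.1]
  have hA : After (P.tau x s) 0 0 P.T :=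
    ⟨h.stop_tau _ _, le_rfl, fun ω' => (h.tau_mem _ _ _).1, fun ω' => (h.tau_mem _ _ ω').2⟩
  have I0 : 0 ≤ z.im ^ (-bb κ) := Real.rpow_nonneg (le_of_lt hz0) _
  have hV : ∀ g, 0 ≤ g → Vg κ g 0 z 0 ≤ z.im ^ (-bb κ) := fun g hg => by
    rw [Vg, Up_zero hz0]
    exact mul_le_of_le_one_right I0 (Real.rpow_le_one Sc_mem.1 Sc_mem.2 hg)
  have hG : Gr κ 0 z 0 ≤ z.im ^ (-bb κ) := hV _ (aa_pos h.hκ h.hκ8).le
  have G0 := Gr_nonneg κ 0 z 0
  have hw : wt 1 (P.C * s) (Up 0 z 0) ≤ 1 := by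
    rw [wt, Real.rpow_one, Real.rpow_one]
    rcases le_total (Up 0 z 0) (P.C * s) with h1 | h1
    · exact (min_le_left _ _).trans (div_le_one_of_le₀ h1 (by positivity))
    · exact (min_le_right _ _).trans (div_le_one_of_le₀ h1 Up_nonneg)
  have e1 := green_super h.hκ h.hκ8 h.wie z hA
  have e2 := h.step_V_EE hs hx hz hA
  rw [h.wie.EE_zero fun _ _ => rfl] at e1 e2
  have hm : Measurable fun ω => ENNReal.ofReal P.η * ENNReal.ofReal (P.potV κ z x s ω) :=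
    ((h.measurable_potV x s).comp (measurable_id.prodMk measurable_const)).ennreal_ofReal.const_mul _
  have k : 2 * Vg κ P.g 0 z 0 * wt 1 (P.C * s) (Up 0 z 0) + P.CL * Gr κ 0 z 0 ≤ 3 * P.CL * z.im ^ (-bb κ) := by
    have h1 := (mul_le_of_le_one_right (Vg_nonneg κ P.g 0 z 0) hw).trans (hV _ h.g_pos.le)
    nlinarith [mul_le_mul_of_nonneg_left hG (zero_le_one.trans hL), mul_le_mul_of_nonneg_right hL I0]
  calc _ ≤ ∫⁻ ω, ENNReal.ofReal (Gr κ ω z (P.tau x s ω)) +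
        ENNReal.ofReal P.η * ENNReal.ofReal (P.potV κ z x s ω) ∂μ := lintegral_mono fun ω => by
          rw [← ENNReal.ofReal_mul η0.le]
          exact (ENNReal.ofReal_le_ofReal (add_le_add_left (indicator_le_self'
            (fun ω _ => Gr_nonneg κ ω z (P.tau x s ω)) ω) _)).trans ENNReal.ofReal_add_le
    _ ≤ ENNReal.ofReal (z.im ^ (-bb κ)) + ENNReal.ofReal P.η * ENNReal.ofReal (P.C * (3 * P.CL * z.im ^ (-bb κ))) := by
          rw [lintegral_add_right _ hm, lintegral_const_mul' _ _ ENNReal.ofReal_ne_top]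
          exact add_le_add (e1.trans (ENNReal.ofReal_le_ofReal hG)) (mul_le_mul_right (e2.trans
            (ENNReal.ofReal_le_ofReal (mul_le_mul_of_nonneg_left k (by linarith)))) _)
    _ ≤ _ := by
          rw [← ENNReal.ofReal_mul η0.le, ← ENNReal.ofReal_add I0 (by positivity)]
          refine ENNReal.ofReal_le_ofReal ?_
          rw [show P.η * (P.C * (3 * P.CL * z.im ^ (-bb κ))) = 3 * (P.η * (P.C * P.CL) * z.im ^ (-bb κ)) by ring,
            h.step_pt_η]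
          linarith [mul_le_mul_of_nonneg_right h.θ_le I0]

/-- Recipe: if `ω ∉ H x s` the set is empty (`agr_tau`, `order`).  Otherwise `H x' s' ⊆ Hit z (C² s') T`
(`at_hit_near`), `lyap.hit` with `ε = C² s'`, `3 ε ≤ s ≤ Up z τ` (`N_ge`), and `η Vg ≤ pot`. -/
theorem Par.Ok.hit_last (h : P.Ok κ μ) (hS : P.Sub x s x' s') (hz' : z ∈ ball x' s') (hz : z ∈ ball x s)
    (ω : Path) :
    μ {ω' | spl (P.tau x s ω) ω ω' ∈ P.H x' s'} ≤
      ENNReal.ofReal (P.CL * (P.C ^ 2 * s') ^ bb κ / P.η * P.pot κ z x s ω) := by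
  by_cases hω : ω ∈ P.H x s
  · have hC := h.C_ge
    have hL := h.lyap.one_le
    have η0 := h.η_pos
    have hs' := hS.pos
    obtain ⟨a1, a2, -⟩ := at_hit_near h.koebe (h.sub_pos hS) hS.im hω hz
    have h3 : 3 * (P.C ^ 2 * s') ≤ s := by
      nlinarith [mul_le_mul_of_nonneg_right h.N_ge hs'.le, hS.le, show 0 < P.C ^ 2 * s' by positivity]
    refine le_trans (measure_mono fun ω' h' => ?_) ((h.lyap.hit z (P.C ^ 2 * s') ω _ P.T (by positivity) a1
      (h3.trans a2)).trans (ENNReal.ofReal_le_ofReal ?_))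
    · obtain ⟨b1, -, b3, -⟩ := at_hit_near h.koebe hs' hS.im' h' hz'
      exact ⟨_, hitU_mem h.T_nonneg, b1, b3⟩
    · rw [div_mul_eq_mul_div, mul_div_assoc]
      refine mul_le_mul_of_nonneg_left ?_ (by positivity)
      rw [le_div_iff₀' η0, Par.pot, Par.potV, indicator_of_mem hω]
      exact le_add_of_nonneg_left (h.pot_nonneg z x s ω).1
  · have : {ω' | spl (P.tau x s ω) ω ω' ∈ P.H x' s'} = ∅ := eq_empty_of_forall_notMem fun ω' h' =>
      hω ((h.agr_tau (agr_spl _ ω ω') le_rfl).2.1.1 ((h.order hS _).2 h'))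
    rw [this, measure_empty]
    exact zero_le

end Crest.Agent.R162.Cv
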