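import Crest.Agent.R162.C.Lev
import Crest.Agent.R162.C.Left

/-! # Row 162, block C: the expected cost -/

set_option autoImplicit false

open scoped ENNReal NNReal Topology
open Set Filter MeasureTheory Metric

noncomputable section
namespace Crest.Agent.R162.Cv

open Crest.ProbabilityR.Loewner

variable {κ : ℝ} {μ : Measure Path} {P : Par} {z z₀ : ℂ} {k : ℕ}

/-! ### marked squares -/

/-- Recipe: Tonelli (`lintegral_lintegral_swap`, `measurable_W`, `measurable_mrk_x`), move the constant `K₁` inside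
(`lintegral_const_mul'`), `Sat.lintegral_le` at level `k` (`sat_U`, `Sat.mono`).  On a cell `q ∋ z₀` the weight
`w = W k z ω * mrk (x k z) (s k) ω` does not depend on `z` (`W_congr`, `x_congr`): the left side is
`f k * s k² * ∫ w ≤ 36 CS s^{2-b} m^b ∫ w` (`volume_cell`, `num.phi_le`); `main_loc` with `xs i = x i z₀`, `ss = s`
(`U_sub`, `U_im`); `ball_sub_cell` and Tonelli again (`measurable_nz_Ioi`). -/
theorem Par.Ok.costM_level (h : P.Ok κ μ) (hk : k ≤ P.n) :
    ∫⁻ ω, P.costM κ k ω ∂μ ≤ ENNReal.ofReal P.K₁ * ∫⁻ z in P.U, ∫⁻ ω,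
      ENNReal.ofReal (P.W k z ω * P.mrk (P.x k z) (P.s k) ω) * nz κ P.s₀ P.y ω z (Ioi 0) ∂μ := by
  have hprob := h.wie.prob
  have hs := h.s_pos k
  have hm : Measurable fun p : Path × ℂ => ENNReal.ofReal (P.W k p.2 p.1 * P.mrk (P.x k p.2) (P.s k) p.1) :=
    ((h.measurable_W k).mul (h.measurable_mrk_x k)).ennreal_ofReal
  unfold Par.costM
  rw [lintegral_lintegral_swap (hm.mul measurable_const).aemeasurable,
    ← lintegral_const_mul' _ _ ENNReal.ofReal_ne_top]
  refine (P.sat_U.mono h.N_one (Nat.zero_le k)).lintegral_le hs fun z₀ hz₀ => ?_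
  set w : Path → ℝ≥0∞ := fun ω => ENNReal.ofReal (P.W k z₀ ω * P.mrk (P.x k z₀) (P.s k) ω) with hw
  have hwm : Measurable w := hm.comp (f := fun ω : Path => (ω, z₀)) (by fun_prop)
  have e : ∀ z ∈ cell (P.s k) z₀, ∀ ω, ENNReal.ofReal (P.W k z ω * P.mrk (P.x k z) (P.s k) ω) = w ω :=
    fun z hz ω => by rw [(h.W_congr hz ω).1, h.x_congr hz le_rfl]
  have hn := measurable_nz_Ioi κ P.s₀ P.y
  have main := h.main_loc (k := k) (by omega) (xs := fun i => P.x i z₀) (ss := P.s) (fun i hi => h.U_sub hz₀ hi)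
    (h.s_anti (by omega)) (le_trans (by nlinarith [h.C_ge]) (h.U_im hz₀ k))
  calc _ = ∫⁻ _ in cell (P.s k) z₀, (∫⁻ ω, w ω ∂μ) * ENNReal.ofReal (P.f κ k) := by
        refine setLIntegral_congr_fun (measurableSet_cell _ _) fun z hz => ?_
        simp only [e z hz]
        exact lintegral_mul_const _ hwm
    _ = ENNReal.ofReal (gaugeReal κ (2 * P.s k)) * ∫⁻ ω, w ω ∂μ := by
        rw [setLIntegral_const, volume_cell hs, mul_assoc, ← ENNReal.ofReal_mul (h.f_nonneg k), Par.f,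
          div_mul_cancel₀ _ (by positivity), mul_comm]
    _ ≤ ENNReal.ofReal (36 * P.CS * P.s k ^ (2 - bb κ) * P.m ^ bb κ) * ∫⁻ ω, w ω ∂μ := by
        gcongr; exact h.num.phi_le k (by omega)
    _ ≤ ENNReal.ofReal P.K₁ * ∫⁻ ω, w ω * nu κ P.s₀ P.y ω (ball (P.x k z₀) (P.s k / 2)) (Ioi 0) ∂μ := main
    _ ≤ ENNReal.ofReal P.K₁ * ∫⁻ ω, ∫⁻ z in cell (P.s k) z₀, w ω * nz κ P.s₀ P.y ω z (Ioi 0) ∂volume ∂μ := by
        gcongr with ω
        rw [lintegral_const_mul' _ _ ENNReal.ofReal_ne_top]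
        gcongr
        exact lintegral_mono_set (ball_sub_cell hs z₀)
    _ = _ := by
        rw [lintegral_lintegral_swap ((hwm.comp measurable_fst).mul hn).aemeasurable,
          ← lintegral_const_mul' _ _ ENNReal.ofReal_ne_top]
        refine setLIntegral_congr_fun (measurableSet_cell _ _) fun z hz => ?_
        simp only [e z hz]

/-- `costM_level`, `lintegral_finsetSum` (twice), `sum_W_le`, `nz_mean_le` (`U_pos`), `lintegral_U` -/
theorem Par.Ok.costM_le (h : P.Ok κ μ) :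
    ∑ k ∈ Finset.range (P.n + 1), ∫⁻ ω, P.costM κ k ω ∂μ ≤ ENNReal.ofReal (P.K₁ * P.I₀ κ) := by
  have hprob := h.wie.prob
  have hn := measurable_nz_Ioi κ P.s₀ P.y
  have hm : ∀ k, Measurable fun p : Path × ℂ => ENNReal.ofReal (P.W k p.2 p.1 * P.mrk (P.x k p.2) (P.s k) p.1) *
      nz κ P.s₀ P.y p.1 p.2 (Ioi 0) :=
    fun k => ((h.measurable_W k).mul (h.measurable_mrk_x k)).ennreal_ofReal.mul hn
  have hK : 0 ≤ P.K₁ := by
    have := h.CS_ge
    have := h.c_pos
    unfold Par.K₁; positivity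
  refine (Finset.sum_le_sum fun k hk => h.costM_level (Nat.lt_succ_iff.1 (Finset.mem_range.1 hk))).trans ?_
  rw [← Finset.mul_sum, ENNReal.ofReal_mul hK, ← lintegral_finsetSum _ fun k _ => (hm k).lintegral_prod_left']
  gcongr
  refine le_trans (setLIntegral_mono' (P.sat_U.measurableSet (h.s_pos 0)) fun z hz => ?_) h.lintegral_U
  have hm2 : ∀ k, Measurable fun ω : Path => ENNReal.ofReal (P.W k z ω * P.mrk (P.x k z) (P.s k) ω) *
      nz κ P.s₀ P.y ω z (Ioi 0) := fun k => (hm k).comp (f := fun ω : Path => (ω, z)) (by fun_prop)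
  rw [← lintegral_finsetSum _ fun k _ => hm2 k]
  refine le_trans (lintegral_mono fun ω => ?_) (nz_mean_le h.hκ h.hκ8 h.wie h.s₀_pos h.num.y_pos (h.U_pos hz))
  rw [← Finset.sum_mul]
  exact mul_le_of_le_one_left' (h.sum_W_le _ z ω)

/-! ### the potential -/

/-- Recipe: for `z` in the cell, `x k z = x k z₀`, `z ∈ U`, `U_sub`, `mem_ball_x`.  Three cases: not hit (`step_dead`),
hit and not flagged (`step_noflag`), flagged: integrate `step_flag` over the cell (`le_lintegral_add` on the left,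
`lintegral_add_right` with a constant on the right); `ball x (δ' s) ⊆ ball x (s/2) ⊆ cell` has area
`π δ'² s² ≥ 2 δ'² s²`, the cell has area `s²`; cancel the finite term `2 θ s^{-b} s²`. -/
theorem Par.Ok.step_cell (h : P.Ok κ μ) (hz₀ : z₀ ∈ P.U) (k : ℕ) (ω : Path) :
    ∫⁻ z in cell (P.s k) z₀, EE μ ω (P.tau (P.x k z₀) (P.s k) ω) (fun ω₁ => ENNReal.ofReal
        ((1 - P.mrk' (P.x k z₀) (P.s k) (P.x (k + 1) z) (P.s (k + 1)) ω₁) *
          P.pot κ z (P.x (k + 1) z) (P.s (k + 1)) ω₁)) ≤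
      ENNReal.ofReal (1 - P.θ) * ∫⁻ z in cell (P.s k) z₀, ENNReal.ofReal (P.pot κ z (P.x k z₀) (P.s k) ω) := by
  have hs := h.s_pos k
  have hθ := h.θ_pos
  have hθ1 := h.θ_le
  have hmc := measurableSet_cell (P.s k) z₀
  have hS : ∀ z ∈ cell (P.s k) z₀, P.Sub (P.x k z₀) (P.s k) (P.x (k + 1) z) (P.s (k + 1)) := fun z hz => by
    rw [← h.x_congr hz le_rfl]
    exact h.U_sub (P.sat_U.mono h.N_one (Nat.zero_le k) z₀ hz₀ hz) (Nat.lt_succ_self k)
  have hb : ∀ z ∈ cell (P.s k) z₀, z ∈ ball (P.x k z₀) (P.s k) := fun z hz => cell_sub_ball hs z₀ hz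
  have ec : ∀ z, ENNReal.ofReal ((1 - P.θ) * P.pot κ z (P.x k z₀) (P.s k) ω) =
      ENNReal.ofReal (1 - P.θ) * ENNReal.ofReal (P.pot κ z (P.x k z₀) (P.s k) ω) :=
    fun z => ENNReal.ofReal_mul (by linarith)
  rw [← lintegral_const_mul' _ _ ENNReal.ofReal_ne_top]
  by_cases hH : ω ∈ P.H (P.x k z₀) (P.s k)
  swap
  · exact setLIntegral_mono' hmc fun z hz => by rw [h.step_dead (hS z hz) hH]; exact zero_le
  by_cases hF : ω ∈ P.Flag (P.x k z₀) (P.s k)
  swap
  · exact setLIntegral_mono' hmc fun z hz => by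
      rw [← ec]; exact h.step_noflag (hS z hz) (h.mem_ball_x _ z) (hb z hz) hH hF
  have key := setLIntegral_mono' (μ := volume) hmc fun z hz => h.step_flag (hS z hz) (h.mem_ball_x _ z) (hb z hz) hF
  replace key := (le_lintegral_add _ _).trans key
  rw [lintegral_add_right _ measurable_const, setLIntegral_const, volume_cell hs] at key
  simp only [ec] at key
  have hδ := h.δ'_pos
  have hsub : ball (P.x k z₀) (P.δ' * P.s k) ⊆ cell (P.s k) z₀ :=
    (ball_subset_ball (by nlinarith [h.δ'_le])).trans (ball_sub_cell hs z₀)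
  rw [lintegral_indicator measurableSet_ball, Measure.restrict_restrict measurableSet_ball, inter_eq_left.2 hsub,
    setLIntegral_const, Complex.volume_ball] at key
  refine (ENNReal.add_le_add_iff_right (ENNReal.mul_ne_top ENNReal.ofReal_ne_top ENNReal.ofReal_ne_top)).1
    (le_trans (add_le_add le_rfl ?_) key)
  have hπ : (NNReal.pi : ℝ≥0∞) = ENNReal.ofReal Real.pi := by
    rw [← ENNReal.ofReal_coe_nnreal]; rfl
  rw [hπ, ← ENNReal.ofReal_pow (by positivity), ← ENNReal.ofReal_mul (by positivity),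
    ← ENNReal.ofReal_mul (by positivity), ← ENNReal.ofReal_mul (by positivity)]
  refine ENNReal.ofReal_le_ofReal ?_
  calc _ = P.θ / P.δ' ^ 2 * P.s k ^ (-bb κ) * ((P.δ' * P.s k) ^ 2 * 2) := by field_simp
    _ ≤ _ := by gcongr; exact Real.two_le_pi

/-- `lintegral_eq_EE` at `tau (x k z) (s k)`, `Finset.prod_range_succ`, `agr_W'` (with `agr_spl`) -/
theorem Par.Ok.Phi_succ_eq (h : P.Ok κ μ) (hz : z ∈ P.U) (k : ℕ) :
    P.Phi κ μ (k + 1) z = ∫⁻ ω, ENNReal.ofReal (P.W' k z ω) *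
      EE μ ω (P.tau (P.x k z) (P.s k) ω) (fun ω₁ => ENNReal.ofReal
        ((1 - P.mrk' (P.x k z) (P.s k) (P.x (k + 1) z) (P.s (k + 1)) ω₁) *
          P.pot κ z (P.x (k + 1) z) (P.s (k + 1)) ω₁)) ∂μ := by
  have hm : Measurable fun ω => ENNReal.ofReal (P.W' (k + 1) z ω * P.pot κ z (P.x (k + 1) z) (P.s (k + 1)) ω) :=
    (((h.measurable_W' (k + 1)).mul (h.measurable_pot_x (k + 1))).ennreal_ofReal).comp
      (f := fun ω : Path => (ω, z)) (by fun_prop)
  unfold Par.Phi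
  rw [h.wie.lintegral_eq_EE (h.stop_tau (P.x k z) (P.s k)) hm]
  refine lintegral_congr fun ω => ?_
  unfold EE
  rw [← lintegral_const_mul' _ _ ENNReal.ofReal_ne_top]
  refine lintegral_congr fun ω' => ?_
  rw [← ENNReal.ofReal_mul (h.W_nonneg k z ω).2, ← h.agr_W' hz (agr_spl _ ω ω') le_rfl]
  simp only [Par.W', Finset.prod_range_succ, mul_assoc]

/-- Recipe: `Sat.lintegral_le` at level `k`; on a cell use `Phi_succ_eq`, `W_congr`, `x_congr`, Tonelli
(`measurable_EE` with `α = ℂ`), `step_cell`, Tonelli again. -/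
theorem Par.Ok.Phi_succ (h : P.Ok κ μ) (k : ℕ) :
    ∫⁻ z in P.U, P.Phi κ μ (k + 1) z ≤ ENNReal.ofReal (1 - P.θ) * ∫⁻ z in P.U, P.Phi κ μ k z := by
  have hprob := h.wie.prob
  have hs := h.s_pos k
  rw [← lintegral_const_mul' _ _ ENNReal.ofReal_ne_top]
  have hsat := P.sat_U.mono h.N_one (Nat.zero_le k)
  refine hsat.lintegral_le hs fun z₀ hz₀ => ?_
  have hmc := measurableSet_cell (P.s k) z₀
  have hw : Measurable fun ω => ENNReal.ofReal (P.W' k z₀ ω) :=
    (h.measurable_W' k).ennreal_ofReal.comp (f := fun ω : Path => (ω, z₀)) (by fun_prop)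
  have hF : Measurable fun p : ℂ × Path => ENNReal.ofReal
      ((1 - P.mrk' (P.x k z₀) (P.s k) (P.x (k + 1) p.1) (P.s (k + 1)) p.2) *
        P.pot κ p.1 (P.x (k + 1) p.1) (P.s (k + 1)) p.2) := by
    have a1 : Measurable fun p : ℂ × Path => P.mrk' (P.x k z₀) (P.s k) (P.x (k + 1) p.1) (P.s (k + 1)) p.2 :=
      measurable_grid (P.s (k + 1)) measurable_fst
        (F := fun x' (p : ℂ × Path) => P.mrk' (P.x k z₀) (P.s k) x' (P.s (k + 1)) p.2)
        fun x' => (h.measurable_mrk' _ _ x' _).comp measurable_snd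
    have a2 : Measurable fun p : ℂ × Path => P.pot κ p.1 (P.x (k + 1) p.1) (P.s (k + 1)) p.2 :=
      (h.measurable_pot_x (k + 1)).comp (f := fun p : ℂ × Path => (p.2, p.1)) (by fun_prop)
    exact ((measurable_const.sub a1).mul a2).ennreal_ofReal
  have hE : Measurable fun p : ℂ × Path => EE μ p.2 (P.tau (P.x k z₀) (P.s k) p.2) (fun ω₁ => ENNReal.ofReal
      ((1 - P.mrk' (P.x k z₀) (P.s k) (P.x (k + 1) p.1) (P.s (k + 1)) ω₁) *
        P.pot κ p.1 (P.x (k + 1) p.1) (P.s (k + 1)) ω₁)) := (h.wie.measurable_EE (α := ℂ) (F := fun z ω₁ => ENNReal.ofReal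
      ((1 - P.mrk' (P.x k z₀) (P.s k) (P.x (k + 1) z) (P.s (k + 1)) ω₁) *
        P.pot κ z (P.x (k + 1) z) (P.s (k + 1)) ω₁)) hF).comp
    (f := fun p : ℂ × Path => (p.1, p.2, P.tau (P.x k z₀) (P.s k) p.2))
    (measurable_fst.prodMk (measurable_snd.prodMk ((h.stop_tau _ _).meas.comp measurable_snd)))
  have hp : Measurable fun p : Path × ℂ => ENNReal.ofReal (P.pot κ p.2 (P.x k z₀) (P.s k) p.1) :=
    (h.measurable_pot _ _).ennreal_ofReal
  calc _ = ∫⁻ z in cell (P.s k) z₀, ∫⁻ ω, ENNReal.ofReal (P.W' k z₀ ω) *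
        EE μ ω (P.tau (P.x k z₀) (P.s k) ω) (fun ω₁ => ENNReal.ofReal
          ((1 - P.mrk' (P.x k z₀) (P.s k) (P.x (k + 1) z) (P.s (k + 1)) ω₁) *
            P.pot κ z (P.x (k + 1) z) (P.s (k + 1)) ω₁)) ∂μ := by
        refine setLIntegral_congr_fun hmc fun z hz => ?_
        simp only [h.Phi_succ_eq (hsat z₀ hz₀ hz) k, (h.W_congr hz _).2, h.x_congr hz le_rfl]
    _ = ∫⁻ ω, ENNReal.ofReal (P.W' k z₀ ω) * ∫⁻ z in cell (P.s k) z₀,
        EE μ ω (P.tau (P.x k z₀) (P.s k) ω) (fun ω₁ => ENNReal.ofReal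
          ((1 - P.mrk' (P.x k z₀) (P.s k) (P.x (k + 1) z) (P.s (k + 1)) ω₁) *
            P.pot κ z (P.x (k + 1) z) (P.s (k + 1)) ω₁)) ∂volume ∂μ := by
        have hw2 : Measurable fun p : ℂ × Path => ENNReal.ofReal (P.W' k z₀ p.2) := hw.comp measurable_snd
        rw [lintegral_lintegral_swap (hw2.mul hE).aemeasurable]
        exact lintegral_congr fun ω => lintegral_const_mul' _ _ ENNReal.ofReal_ne_top
    _ ≤ ∫⁻ ω, ∫⁻ z in cell (P.s k) z₀, ENNReal.ofReal (1 - P.θ) * (ENNReal.ofReal (P.W' k z₀ ω) *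
        ENNReal.ofReal (P.pot κ z (P.x k z₀) (P.s k) ω)) ∂volume ∂μ := by
        refine lintegral_mono fun ω => ?_
        rw [lintegral_const_mul' _ _ ENNReal.ofReal_ne_top, lintegral_const_mul' _ _ ENNReal.ofReal_ne_top,
          mul_left_comm]
        gcongr
        exact h.step_cell hz₀ k ω
    _ = _ := by
        have hw2 : Measurable fun p : Path × ℂ => ENNReal.ofReal (P.W' k z₀ p.1) := hw.comp measurable_fst
        rw [lintegral_lintegral_swap (measurable_const.mul (hw2.mul hp)).aemeasurable]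
        refine setLIntegral_congr_fun hmc fun z hz => ?_
        rw [lintegral_const_mul' _ _ ENNReal.ofReal_ne_top]
        unfold Par.Phi
        simp only [(h.W_congr hz _).2, h.x_congr hz le_rfl, ENNReal.ofReal_mul (h.W_nonneg k z₀ _).2]

/-- induction; `pot_zero`, `lintegral_U` -/
theorem Par.Ok.Phi_le (h : P.Ok κ μ) (k : ℕ) :
    ∫⁻ z in P.U, P.Phi κ μ k z ≤ ENNReal.ofReal ((1 - P.θ) ^ k * (2 * P.I₀ κ)) := by
  have hθ1 := h.θ_le
  induction k with
  | zero =>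
    rw [pow_zero, one_mul, ENNReal.ofReal_mul zero_le_two]
    refine le_trans ?_ (mul_le_mul_right h.lintegral_U _)
    rw [← lintegral_const_mul' _ _ ENNReal.ofReal_ne_top]
    refine setLIntegral_mono' (P.sat_U.measurableSet (h.s_pos 0)) fun z hz => ?_
    rw [← ENNReal.ofReal_mul zero_le_two]
    simp only [Par.Phi, Par.W', Finset.range_zero, Finset.prod_empty, one_mul]
    exact h.pot_zero (h.s_pos 0) (le_trans (by nlinarith [h.C_ge, h.s_pos 0]) (h.U_im hz 0)) (h.mem_ball_x 0 z)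
  | succ k ih =>
    refine (h.Phi_succ k).trans ((mul_le_mul_right ih _).trans (le_of_eq ?_))
    rw [← ENNReal.ofReal_mul (by linarith)]; congr 1; ring

/-- Recipe: on `U` the second alternative in `last` fails (`U_im`); `W_succ_le`; `lintegral_eq_EE` at
`tau (x n z) (s n)`, `agr_W'`, `hit_last`. -/
theorem Par.Ok.last_le (h : P.Ok κ μ) (hz : z ∈ P.U) :
    ∫⁻ ω, ENNReal.ofReal (P.W (P.n + 1) z ω) * P.last κ (P.x (P.n + 1) z) ω ∂μ ≤
      ENNReal.ofReal (P.f κ (P.n + 1) * (P.CL * (P.C ^ 2 * P.s (P.n + 1)) ^ bb κ / P.η)) * P.Phi κ μ P.n z := by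
  have hmH := P.measurableSet_H (P.x (P.n + 1) z) (P.s (P.n + 1))
  have hw : Measurable fun ω => ENNReal.ofReal (P.W' P.n z ω) :=
    (h.measurable_W' _).ennreal_ofReal.comp (f := fun ω : Path => (ω, z)) (by fun_prop)
  have hA : 0 ≤ P.CL * (P.C ^ 2 * P.s (P.n + 1)) ^ bb κ / P.η := by
    have := h.lyap.one_le
    have := h.η_pos
    have := h.s_pos (P.n + 1)
    positivity
  calc _ ≤ ∫⁻ ω, ENNReal.ofReal (P.f κ (P.n + 1)) * (ENNReal.ofReal (P.W' P.n z ω) *
        (P.H (P.x (P.n + 1) z) (P.s (P.n + 1))).indicator 1 ω) ∂μ := by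
        refine lintegral_mono fun ω => ?_
        by_cases hω : ω ∈ P.H (P.x (P.n + 1) z) (P.s (P.n + 1))
        · rw [Par.last, indicator_of_mem (by exact Or.inl hω), indicator_of_mem hω, Pi.one_apply, mul_one, mul_comm]
          gcongr; exact h.W_succ_le _ z ω
        · rw [Par.last, indicator_of_notMem, mul_zero]
          · exact zero_le
          · rintro (a | a)
            exacts [hω a, absurd (h.U_im hz _) (not_le.2 a)]
    _ ≤ _ := by
        rw [lintegral_const_mul' _ _ ENNReal.ofReal_ne_top, ENNReal.ofReal_mul (h.f_nonneg _), mul_assoc]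
        gcongr
        have hw3 : Measurable fun ω => ENNReal.ofReal (P.W' P.n z ω) *
          (P.H (P.x (P.n + 1) z) (P.s (P.n + 1))).indicator 1 ω := hw.mul (measurable_one.indicator hmH)
        rw [h.wie.lintegral_eq_EE (h.stop_tau (P.x P.n z) (P.s P.n)) hw3]
        unfold Par.Phi
        rw [← lintegral_const_mul' _ _ ENNReal.ofReal_ne_top]
        refine lintegral_mono fun ω => ?_
        have a := h.hit_last (h.U_sub hz (Nat.lt_succ_self P.n)) (h.mem_ball_x _ z) (h.mem_ball_x _ z) ω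
        unfold EE
        simp only [h.agr_W' hz (agr_spl _ ω _) le_rfl]
        rw [lintegral_const_mul' _ _ ENNReal.ofReal_ne_top, ENNReal.ofReal_mul (h.W_nonneg _ z ω).2, mul_left_comm,
          ← ENNReal.ofReal_mul hA]
        gcongr
        refine le_trans (le_of_eq ?_) a
        exact lintegral_indicator_one (step_G_meas_spl _ ω hmH)

/-- Tonelli, `last_le`, `Phi_le`, `f_le`, `(C²)^b ≤ C²`, `1 / η = C CL / θ`, `num.left` -/
theorem Par.Ok.costL_le (h : P.Ok κ μ) : ∫⁻ ω, P.costL κ ω ∂μ ≤ ENNReal.ofReal (P.K₂ * P.I₀ κ) := by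
  have hprob := h.wie.prob
  have hCL := h.lyap.one_le
  have hη := h.η_pos
  have hθ := h.θ_pos
  have hθ1 := h.θ_le
  have hs := h.s_pos (P.n + 1)
  have hC := h.C_ge
  have hCS := h.CS_ge
  have hm := h.m_ge
  have hf := h.f_nonneg (P.n + 1)
  have hI : 0 ≤ P.I₀ κ := by
    have := h.R_nonneg
    have : 0 < 1 - bb κ := by linarith [bb_lt_one h.hκ]
    unfold Par.I₀; positivity
  unfold Par.costL
  rw [lintegral_lintegral_swap ((h.measurable_W _).ennreal_ofReal.mul (P.measurable_last_x κ _)).aemeasurable]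
  refine (setLIntegral_mono' (P.sat_U.measurableSet (h.s_pos 0)) fun z hz => h.last_le hz).trans ?_
  rw [lintegral_const_mul' _ _ ENNReal.ofReal_ne_top]
  refine (mul_le_mul_right (h.Phi_le P.n) _).trans ?_
  rw [← ENNReal.ofReal_mul (by positivity)]
  refine ENNReal.ofReal_le_ofReal ?_
  have a : (P.C ^ 2) ^ bb κ ≤ P.C ^ 2 := Real.rpow_le_self_of_one_le (by nlinarith) (bb_lt_one h.hκ).le
  have b : 0 ≤ (1 - P.θ) ^ P.n := pow_nonneg (by linarith) _
  calc _ = 2 * (P.f κ (P.n + 1) * P.s (P.n + 1) ^ bb κ) * P.CL * (P.C ^ 2) ^ bb κ * (P.C * P.CL) *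
        ((1 - P.θ) ^ P.n / P.θ) * P.I₀ κ := by
        rw [Real.mul_rpow (by positivity) hs.le, Par.η]; field_simp
    _ ≤ 2 * (36 * P.CS * P.m ^ bb κ) * P.CL * P.C ^ 2 * (P.C * P.CL) * ((1 - P.θ) ^ P.n / P.θ) * P.I₀ κ := by
        gcongr 2 * ?_ * _ * ?_ * _ * _ * _; exact h.f_le le_rfl
    _ = 2 * (36 * P.CS) * P.CL * P.C ^ 2 * (P.C * P.CL) * (P.m ^ bb κ * (1 - P.θ) ^ P.n / P.θ) * P.I₀ κ := by ring
    _ ≤ _ := by unfold Par.K₂; gcongr _ * ?_ * _; exact h.num.left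

/-! ### the strip -/

/-- Recipe: `s = s (n+1)`, `x = x (n+1) z`, `|Im x - Im z| ≤ s / 2` (`abs_im_cen`).  If `Im x < 3 C s` then
`Im z ≤ 4 C s` and `1 ≤ CL (4 C s / Im z)^b`; otherwise `lyap.hit0` with `ε = C s` and `Im z ≤ 2 Im x`. -/
theorem Par.Ok.last_strip (h : P.Ok κ μ) (hz : 0 < z.im) :
    ∫⁻ ω, P.last κ (P.x (P.n + 1) z) ω ∂μ ≤
      ENNReal.ofReal (P.f κ (P.n + 1) * (P.CL * (4 * P.C * P.s (P.n + 1)) ^ bb κ) * z.im ^ (-bb κ)) := by
  have hprob := h.wie.prob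
  have hCL := h.lyap.one_le
  have hs := h.s_pos (P.n + 1)
  have hC := h.C_ge
  have hf := h.f_nonneg (P.n + 1)
  have hb := bb_pos h.hκ8
  have him : |(P.x (P.n + 1) z).im - z.im| ≤ P.s (P.n + 1) / 2 := abs_im_cen hs z
  rw [abs_le] at him
  set s := P.s (P.n + 1)
  set x := P.x (P.n + 1) z
  have e : P.f κ (P.n + 1) * (P.CL * (4 * P.C * s) ^ bb κ) * z.im ^ (-bb κ) =
      P.f κ (P.n + 1) * (P.CL * (4 * P.C * s / z.im) ^ bb κ) := by
    rw [Real.div_rpow (by positivity) hz.le, Real.rpow_neg hz.le]; ring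
  rw [e, ENNReal.ofReal_mul hf]
  by_cases hx : x.im < 3 * P.C * s
  · calc _ ≤ ∫⁻ _, ENNReal.ofReal (P.f κ (P.n + 1)) ∂μ := lintegral_mono fun ω => indicator_le_self _ _ ω
      _ = ENNReal.ofReal (P.f κ (P.n + 1)) * 1 := by simp
      _ ≤ _ := by
        gcongr
        rw [ENNReal.one_le_ofReal]
        have : 1 ≤ (4 * P.C * s / z.im) ^ bb κ :=
          Real.one_le_rpow (by rw [le_div_iff₀ hz]; nlinarith) hb.le
        nlinarith
  · have : P.last κ x = (P.H x s).indicator fun _ => ENNReal.ofReal (P.f κ (P.n + 1)) := by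
      unfold Par.last; congr 1; ext ω; simp [hx, s]
    rw [this, lintegral_indicator_const (P.measurableSet_H x s)]
    gcongr
    push Not at hx
    have hx0 : 0 < x.im := lt_of_lt_of_le (by positivity) hx
    refine (h.lyap.hit0 x (P.C * s) P.T (by positivity) (by linarith)).trans (ENNReal.ofReal_le_ofReal ?_)
    gcongr P.CL * ?_ ^ _
    rw [div_le_div_iff₀ hx0 hz]
    have : z.im ≤ 4 * x.im := by nlinarith
    nlinarith [mul_pos (by linarith : 0 < P.C) hs]

/-- Tonelli, `last_strip` a.e. on `S` (`S_box`, `volume_im_zero`), `lintegral_box`, `f_le`, `(4C)^b ≤ 4C`,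
`(5 C s)^{1-b} ≤ 5 C s^{1-b}`, `num.strip` -/
theorem Par.Ok.costS_le (h : P.Ok κ μ) : ∫⁻ ω, P.costS κ ω ∂μ ≤ ENNReal.ofReal (P.K₃ κ) := by
  have hprob := h.wie.prob
  have hCL := h.lyap.one_le
  have hs := h.s_pos (P.n + 1)
  have hs0 := h.s_pos 0
  have hC := h.C_ge
  have hCS := h.CS_ge
  have hm := h.m_ge
  have hR := h.R_nonneg
  have hf := h.f_nonneg (P.n + 1)
  have hb := bb_pos h.hκ8
  have hb1 := bb_lt_one h.hκ
  have hb' : 0 < 1 - bb κ := by linarith
  unfold Par.costS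
  rw [lintegral_lintegral_swap (P.measurable_last_x κ _).aemeasurable]
  calc _ ≤ ∫⁻ z in P.S, ENNReal.ofReal (P.f κ (P.n + 1) * (P.CL * (4 * P.C * P.s (P.n + 1)) ^ bb κ)) *
        ENNReal.ofReal (z.im ^ (-bb κ)) := by
        refine lintegral_mono_ae ?_
        have a : ∀ᵐ z : ℂ, z.im ≠ 0 := by rw [ae_iff]; simpa using volume_im_zero
        filter_upwards [ae_restrict_of_ae a, ae_restrict_mem (P.sat_S.measurableSet hs0)] with z h1 h2
        rw [← ENNReal.ofReal_mul (by positivity)]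
        exact h.last_strip (lt_of_le_of_ne (h.S_box h2).2.1 h1.symm)
    _ ≤ ENNReal.ofReal (P.f κ (P.n + 1) * (P.CL * (4 * P.C * P.s (P.n + 1)) ^ bb κ)) *
        ENNReal.ofReal (2 * (P.R + 2) * (5 * P.C * P.s 0) ^ (1 - bb κ) / (1 - bb κ)) := by
        rw [lintegral_const_mul' _ _ ENNReal.ofReal_ne_top]
        gcongr
        exact (lintegral_mono_set h.S_box).trans (lintegral_box (by linarith) (by positivity) hb1)
    _ ≤ _ := by
        rw [← ENNReal.ofReal_mul (by positivity)]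
        refine ENNReal.ofReal_le_ofReal ?_
        have a : (4 * P.C) ^ bb κ ≤ 4 * P.C := Real.rpow_le_self_of_one_le (by linarith) hb1.le
        have b : (5 * P.C) ^ (1 - bb κ) ≤ 5 * P.C := Real.rpow_le_self_of_one_le (by linarith) (by linarith)
        calc _ = (P.f κ (P.n + 1) * P.s (P.n + 1) ^ bb κ) * P.CL * (4 * P.C) ^ bb κ *
              (2 * (P.R + 2) * (5 * P.C) ^ (1 - bb κ) / (1 - bb κ)) * P.s 0 ^ (1 - bb κ) := by
              rw [Real.mul_rpow (by positivity) hs.le, Real.mul_rpow (by positivity) hs0.le]; ring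
          _ ≤ (36 * P.CS * P.m ^ bb κ) * P.CL * (4 * P.C) *
              (2 * (P.R + 2) * (5 * P.C) / (1 - bb κ)) * P.s 0 ^ (1 - bb κ) := by
              gcongr ?_ * _ * ?_ * (_ * ?_ / _) * _; exact h.f_le le_rfl
          _ = 36 * P.CS * P.CL * (4 * P.C) * (2 * (P.R + 2) * (5 * P.C) / (1 - bb κ)) *
              (P.m ^ bb κ * P.s 0 ^ (1 - bb κ)) := by ring
          _ ≤ 36 * P.CS * P.CL * (4 * P.C) * (2 * (P.R + 2) * (5 * P.C) / (1 - bb κ)) * (1 / (1 - bb κ)) := by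
              gcongr _ * ?_; exact h.num.strip
          _ = _ := by unfold Par.K₃; field_simp

theorem Par.Ok.cost_le (h : P.Ok κ μ) :
    ∫⁻ ω, P.cost κ ω ∂μ ≤
      ENNReal.ofReal (P.K₁ * P.I₀ κ) + ENNReal.ofReal (P.K₂ * P.I₀ κ) + ENNReal.ofReal (P.K₃ κ) := by
  unfold Par.cost
  rw [lintegral_add_right _ (P.measurable_costS κ), lintegral_add_right _ h.measurable_costL,
    lintegral_finsetSum _ fun k _ => h.measurable_costM k]
  exact add_le_add (add_le_add h.costM_le h.costL_le) h.costS_le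

end Crest.Agent.R162.Cv
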