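import Crest.Agent.R162.C.Defs

/-! # Row 162, block C: the grids of squares (elementary geometry) -/

set_option autoImplicit false

open scoped ENNReal NNReal Topology
open Set Filter MeasureTheory Metric

noncomputable section
namespace Crest.Agent.R162.Cv

open Crest.ProbabilityR.Loewner

variable {s : ℝ} {z z₀ : ℂ} {N i k : ℕ} {U : Set ℂ}

theorem abs_re_cen_aux (hs : 0 < s) (t : ℝ) : |s * (⌊t / s⌋ + 1 / 2) - t| ≤ s / 2 :=
  abs_le.2 ⟨by linarith [(div_lt_iff₀ hs).1 (Int.lt_floor_add_one (t / s))],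
    by linarith [(le_div_iff₀ hs).1 (Int.floor_le (t / s))]⟩

theorem abs_re_cen (hs : 0 < s) (z : ℂ) : |(cen s z).re - z.re| ≤ s / 2 := by
  exact abs_re_cen_aux hs _

theorem abs_im_cen (hs : 0 < s) (z : ℂ) : |(cen s z).im - z.im| ≤ s / 2 := by
  exact abs_re_cen_aux hs _

/-- `‖·‖² = re² + im² ≤ s² / 2` -/
theorem mem_ball_cen (hs : 0 < s) (z : ℂ) : z ∈ ball (cen s z) s := by
  obtain ⟨a, b⟩ := abs_le.1 (abs_re_cen hs z)
  obtain ⟨c, d⟩ := abs_le.1 (abs_im_cen hs z)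
  refine mem_ball_iff_norm'.2 (lt_of_pow_lt_pow_left₀ 2 hs.le ?_)
  rw [Complex.sq_norm, Complex.normSq_apply, Complex.sub_re, Complex.sub_im]
  linarith [sq_le_sq' a b, sq_le_sq' c d, sq_pos_of_pos hs]

theorem mem_cell_self (s : ℝ) (z : ℂ) : z ∈ cell s z := rfl

theorem cell_eq (h : z ∈ cell s z₀) : cell s z = cell s z₀ := by
  simp only [cell, show cen s z = cen s z₀ from h]

/-- `z ∈ cell s z₀` iff the two pairs of floors agree -/
theorem mem_cell_iff (hs : 0 < s) : z ∈ cell s z₀ ↔ ⌊z.re / s⌋ = ⌊z₀.re / s⌋ ∧ ⌊z.im / s⌋ = ⌊z₀.im / s⌋ := by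
  simp [cell, cen, Complex.ext_iff, hs.ne']

theorem cell_sub_ball (hs : 0 < s) (z : ℂ) : cell s z ⊆ ball (cen s z) s := by
  exact fun w hw => (show cen s w = cen s z from hw) ▸ mem_ball_cen hs w

theorem ball_sub_cell (hs : 0 < s) (z : ℂ) : ball (cen s z) (s / 2) ⊆ cell s z := by
  have key : ∀ {n : ℤ} {t : ℝ}, |t - s * (n + 1 / 2)| < s / 2 → ⌊t / s⌋ = n := fun h =>
    Int.floor_eq_iff.2 ⟨(le_div_iff₀ hs).2 (by linarith [abs_lt.1 h]), (div_lt_iff₀ hs).2 (by linarith [abs_lt.1 h])⟩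
  exact fun w hw => (mem_cell_iff hs).2 ⟨key ((Complex.abs_re_le_norm (w - cen s z)).trans_lt (mem_ball_iff_norm.1 hw)),
    key ((Complex.abs_im_le_norm (w - cen s z)).trans_lt (mem_ball_iff_norm.1 hw))⟩

theorem cen_mem_cell (hs : 0 < s) (z : ℂ) : cen s z ∈ cell s z := by
  exact ball_sub_cell hs z (mem_ball_self (half_pos hs))

theorem im_cen_pos (hs : 0 < s) : 0 < (cen s z).im ↔ 0 ≤ z.im := by
  refine (mul_pos_iff_of_pos_left hs).trans ⟨fun h => ?_, fun h => ?_⟩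
  · have : (-1 : ℤ) < ⌊z.im / s⌋ := by exact_mod_cast (by linarith : (-1 : ℝ) < ⌊z.im / s⌋)
    simpa using (le_div_iff₀ hs).1 (Int.floor_nonneg.1 this)
  · have : (0 : ℝ) ≤ ⌊z.im / s⌋ := by exact_mod_cast Int.floor_nonneg.2 (div_nonneg h hs.le)
    linarith

theorem ediam_cell (hs : 0 < s) (z : ℂ) : ediam (cell s z) ≤ ENNReal.ofReal (2 * s) := by
  refine ediam_le fun x hx y hy => (edist_dist x y).trans_le (ENNReal.ofReal_le_ofReal ?_)
  linarith [dist_triangle_right x y (cen s z), mem_ball.1 (cell_sub_ball hs z hx), mem_ball.1 (cell_sub_ball hs z hy)]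

theorem sd_pos (hN : 1 ≤ N) (k : ℕ) : 0 < sd N k := by
  exact inv_pos.2 (pow_pos (Nat.cast_pos.2 hN) _)

theorem sd_succ (hN : 1 ≤ N) (k : ℕ) : N * sd N (k + 1) = sd N k := by
  have : (0 : ℝ) < N := Nat.cast_pos.2 hN
  unfold sd
  field_simp
  ring

theorem sd_anti (hN : 1 ≤ N) (h : i ≤ k) : sd N k ≤ sd N i := by
  exact inv_anti₀ (pow_pos (Nat.cast_pos.2 hN) _) (pow_le_pow_right₀ (Nat.one_le_cast.2 hN) (by omega))

theorem mul_sd_le (hN : 1 ≤ N) (h : i < k) : N * sd N k ≤ sd N i := by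
  obtain ⟨k, rfl⟩ := Nat.exists_eq_add_one_of_ne_zero (by omega : k ≠ 0)
  exact (sd_succ hN k).trans_le (sd_anti hN (by omega))

theorem sd_le_one (hN : 1 ≤ N) (k : ℕ) : sd N k ≤ 1 := by
  exact inv_le_one_of_one_le₀ (one_le_pow₀ (Nat.one_le_cast.2 hN))

/-- `⌊t / (N s)⌋ = ⌊t / s⌋ / N` (`Int.floor_div_natCast`), induction on `k - i` -/
theorem cell_nest (hN : 1 ≤ N) (h : i ≤ k) (z : ℂ) : cell (sd N k) z ⊆ cell (sd N i) z := by
  induction h with
  | refl => rfl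
  | @step m _ ih =>
    refine Subset.trans (fun w hw => ?_) ih
    rw [mem_cell_iff (sd_pos hN _)] at hw ⊢
    simp only [← sd_succ hN m, mul_comm (N : ℝ), ← div_div, Int.floor_div_natCast, hw.1, hw.2, and_self]

theorem sat_cell (s : ℝ) (z : ℂ) : Sat s (cell s z) := by
  exact fun w hw => (cell_eq hw).subset

theorem Sat.mono (hN : 1 ≤ N) (h : i ≤ k) (hU : Sat (sd N i) U) : Sat (sd N k) U := by
  exact fun z hz => (cell_nest hN h z).trans (hU z hz)

end Crest.Agent.R162.Cv
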