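import Crest.Agent.R162.C.Grid

/-! # Row 162, block C: the grids of squares (measure theory) -/

set_option autoImplicit false

open scoped ENNReal NNReal Topology
open Set Filter MeasureTheory Metric

noncomputable section
namespace Crest.Agent.R162.Cv

open Crest.ProbabilityR.Loewner

variable {s : ℝ} {U : Set ℂ}

/-- Recipe: `cen s z = e (⌊z.re / s⌋, ⌊z.im / s⌋)`; the map `(i, a) ↦ F (e i) a` is measurable on `(ℤ × ℤ) × α`
(`measurable_from_prod_countable_right` or `_left`), compose with `a ↦ (floors of ζ a, a)` (`Int.measurable_floor`). -/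
theorem measurable_grid {α β : Type} [MeasurableSpace α] [MeasurableSpace β] (s : ℝ) {ζ : α → ℂ}
    (hζ : Measurable ζ) {F : ℂ → α → β} (hF : ∀ x, Measurable (F x)) :
    Measurable fun a => F (cen s (ζ a)) a := by
  exact (measurable_from_prod_countable_left (f := fun p : α × ℤ × ℤ =>
    F ⟨s * (p.2.1 + 1 / 2), s * (p.2.2 + 1 / 2)⟩ p.1) fun i => hF ⟨s * (i.1 + 1 / 2), s * (i.2 + 1 / 2)⟩).comp
     (f := fun a => (a, ⌊(ζ a).re / s⌋, ⌊(ζ a).im / s⌋))
      (measurable_id.prodMk (((Complex.measurable_re.comp hζ).div_const s).floor.prodMk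
        ((Complex.measurable_im.comp hζ).div_const s).floor))

theorem measurable_cen (s : ℝ) : Measurable (cen s) := by
  exact measurable_grid s measurable_id (F := fun x _ => x) fun _ => measurable_const

theorem measurableSet_cell (s : ℝ) (z : ℂ) : MeasurableSet (cell s z) := by
  exact measurable_cen s (measurableSet_singleton _)

/-- Recipe: `mem_cell_iff`, `Int.floor_eq_iff`: the cell is the preimage of a product of two `Ico` of length `s`
under `Complex.measurableEquivRealProd` (`Complex.volume_preserving_equiv_real_prod`). -/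
theorem volume_cell (hs : 0 < s) (z : ℂ) : volume (cell s z) = ENNReal.ofReal (s ^ 2) := by
  have : cell s z = Complex.measurableEquivRealProd ⁻¹'
      (Ico (⌊z.re / s⌋ * s) ((⌊z.re / s⌋ + 1) * s) ×ˢ Ico (⌊z.im / s⌋ * s) ((⌊z.im / s⌋ + 1) * s)) := by
    ext w
    rw [mem_cell_iff hs, Int.floor_eq_iff, Int.floor_eq_iff, le_div_iff₀ hs, le_div_iff₀ hs, div_lt_iff₀ hs,
      div_lt_iff₀ hs]
    rfl
  rw [this, Complex.volume_preserving_equiv_real_prod.measure_preimage_equiv, Measure.volume_eq_prod,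
    Measure.prod_prod, Real.volume_Ico, Real.volume_Ico, ← ENNReal.ofReal_mul (by linarith)]
  congr 1
  ring

/-- a saturated set is a countable disjoint union of cells: take `t = cen s '' U` (countable since the range of
`cen s` is, and `cell s (cen s z) = cell s z`) -/
theorem Sat.exists_cover (hs : 0 < s) (hU : Sat s U) :
    ∃ t : Set ℂ, t.Countable ∧ t ⊆ U ∧ U = ⋃ x ∈ t, cell s x ∧ t.PairwiseDisjoint (cell s) := by
  refine ⟨cen s '' U, ((countable_range fun i : ℤ × ℤ => (⟨s * (i.1 + 1 / 2), s * (i.2 + 1 / 2)⟩ : ℂ)).mono ?_), ?_,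
    Subset.antisymm (fun z hz => mem_biUnion (mem_image_of_mem _ hz) (Eq.symm (cen_mem_cell hs z))) ?_, ?_⟩
  · rintro _ ⟨z, -, rfl⟩
    exact ⟨(_, _), rfl⟩
  · rintro _ ⟨z, hz, rfl⟩
    exact hU z hz (cen_mem_cell hs z)
  · exact iUnion₂_subset (by rintro _ ⟨z, hz, rfl⟩; exact (cell_eq (cen_mem_cell hs z)).trans_subset (hU z hz))
  · rintro _ ⟨z, -, rfl⟩ _ ⟨w, -, rfl⟩ h
    exact disjoint_left.2 fun v h1 h2 =>
      h ((cen_mem_cell hs z).symm.trans (h1.symm.trans (h2.trans (cen_mem_cell hs w))))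

theorem Sat.measurableSet (hs : 0 < s) (hU : Sat s U) : MeasurableSet U := by
  obtain ⟨t, h1, -, rfl, -⟩ := hU.exists_cover hs
  exact .biUnion h1 fun x _ => measurableSet_cell s x

/-- `lintegral_biUnion` -/
theorem Sat.lintegral_le (hs : 0 < s) (hU : Sat s U) {f g : ℂ → ℝ≥0∞}
    (h : ∀ z₀ ∈ U, ∫⁻ z in cell s z₀, f z ≤ ∫⁻ z in cell s z₀, g z) : ∫⁻ z in U, f z ≤ ∫⁻ z in U, g z := by
  obtain ⟨t, h1, h2, h3, h4⟩ := hU.exists_cover hs
  have := h1.to_subtype
  rw [h3, lintegral_biUnion h1 (fun x _ => measurableSet_cell s x) h4,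
    lintegral_biUnion h1 (fun x _ => measurableSet_cell s x) h4]
  exact ENNReal.tsum_le_tsum fun x => h _ (h2 x.2)

/-- countable subadditivity (`measure_biUnion_le`) -/
theorem Sat.outer_le (hs : 0 < s) (hU : Sat s U) (ν : OuterMeasure ℂ) {g : ℂ → ℝ≥0∞}
    (h : ∀ z₀ ∈ U, ν (cell s z₀) ≤ ∫⁻ z in cell s z₀, g z) : ν U ≤ ∫⁻ z in U, g z := by
  obtain ⟨t, h1, h2, h3, h4⟩ := hU.exists_cover hs
  rw [h3, lintegral_biUnion h1 (fun x _ => measurableSet_cell s x) h4]
  exact (measure_biUnion_le ν h1 _).trans (ENNReal.tsum_le_tsum fun x => h _ (h2 x.2))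

/-- Recipe: `Complex.volume_preserving_equiv_real_prod`, Tonelli (`lintegral_prod`/`setLIntegral_prod`), and
`∫_0^h t^{-b} = h^{1-b} / (1-b)` (`integral_rpow`, `intervalIntegral.intervalIntegrable_rpow'`). -/
theorem lintegral_box {a h b : ℝ} (ha : 0 ≤ a) (hh : 0 ≤ h) (hb : b < 1) :
    ∫⁻ z in box a h, ENNReal.ofReal (z.im ^ (-b)) ≤ ENNReal.ofReal (2 * a * h ^ (1 - b) / (1 - b)) := by
  have e : box a h = Complex.measurableEquivRealProd ⁻¹' (Icc (-a) a ×ˢ Icc 0 h) := by
    ext w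
    simp [box, abs_le, -Icc_prod_Icc]
  have i := intervalIntegral.intervalIntegrable_rpow' (a := 0) (b := h) (r := -b) (by linarith)
  rw [e]
  refine (Complex.volume_preserving_equiv_real_prod.setLIntegral_comp_preimage_emb
    Complex.measurableEquivRealProd.measurableEmbedding (fun p => ENNReal.ofReal (p.2 ^ (-b))) _).trans_le ?_
  rw [Measure.volume_eq_prod, setLIntegral_prod _ (by fun_prop)]
  dsimp only
  rw [setLIntegral_const, Real.volume_Icc, ← ofReal_integral_eq_lintegral_ofReal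
    ((intervalIntegrable_iff_integrableOn_Icc_of_le hh).1 i)
    ((ae_restrict_mem measurableSet_Icc).mono fun t ht => Real.rpow_nonneg ht.1 _), integral_Icc_eq_integral_Ioc,
    ← intervalIntegral.integral_of_le hh, integral_rpow (Or.inl (by linarith)), Real.zero_rpow (by linarith),
    mul_comm, ← ENNReal.ofReal_mul (by linarith), neg_add_eq_sub]
  exact le_of_eq (congrArg _ (by ring))

theorem volume_im_zero : volume {z : ℂ | z.im = 0} = 0 := by
  have : {z : ℂ | z.im = 0} = Complex.measurableEquivRealProd ⁻¹' (univ ×ˢ {0}) := by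
    ext w
    simp
  rw [this, Complex.volume_preserving_equiv_real_prod.measure_preimage_equiv, Measure.volume_eq_prod,
    Measure.prod_prod, Real.volume_singleton, mul_zero]

/-- The fractional cover.  Recipe: put `Q k z = ν (cell (sd N k) z) / ofReal (sd N k ^ 2)` (constant on the cells of
level `k`, so `∫⁻ z in cell, Q k z = ν cell` by `volume_cell`), `W k z = ∏ i ∈ range k, (1 - a i (cen (sd N i) z))`
(constant on the cells of level `k` by `cell_nest`).  For a cell `q` of level `k < K`: `ν q ≤ ∫⁻ q, Q (k+1)`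
(`Sat.outer_le` at level `k + 1` for `q`, which is saturated by `sat_cell`, `Sat.mono`), and `ν q ≤ f k * s²`; so with
the constants `w = W k`, `α = a k` of `q`: `∫⁻ q, W k * Q k = w α ν q + w (1 - α) ν q ≤ ∫⁻ q, W k a k f k +
∫⁻ q, W (k+1) Q (k+1)`.  Sum over the cells (`Sat.lintegral_le`; the first integrand is measurable by
`measurable_grid`/`measurable_cen`, so `lintegral_add_left` applies).  Induction on `k ≤ K`, starting from
`ν U ≤ ∫⁻ U, Q 0`; finally `Q K z ≤ l (cen (sd N K) z)`. -/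
theorem cover_abs (ν : OuterMeasure ℂ) {N : ℕ} (hN : 1 ≤ N) (K : ℕ) (hU : Sat (sd N 0) U)
    (a : ℕ → ℂ → ℝ) (ha : ∀ k x, a k x ∈ Icc (0 : ℝ) 1) (f : ℕ → ℝ≥0∞) (l : ℂ → ℝ≥0∞)
    (hf : ∀ k < K, ∀ z, ν (cell (sd N k) z) ≤ f k * ENNReal.ofReal (sd N k ^ 2))
    (hl : ∀ z, ν (cell (sd N K) z) ≤ l (cen (sd N K) z) * ENNReal.ofReal (sd N K ^ 2)) :
    ν U ≤ ∑ k ∈ Finset.range K, (∫⁻ z in U, ENNReal.ofReal
        ((∏ i ∈ Finset.range k, (1 - a i (cen (sd N i) z))) * a k (cen (sd N k) z)) * f k) +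
      ∫⁻ z in U, ENNReal.ofReal (∏ i ∈ Finset.range K, (1 - a i (cen (sd N i) z))) * l (cen (sd N K) z) := by
  have sp := sd_pos hN
  have s0 : ∀ k, ENNReal.ofReal (sd N k ^ 2) ≠ 0 := fun k => (ENNReal.ofReal_pos.2 (pow_pos (sp k) 2)).ne'
  obtain ⟨Q, hQ⟩ : ∃ Q : ℕ → ℂ → ℝ≥0∞, Q = fun k z => ν (cell (sd N k) z) / ENNReal.ofReal (sd N k ^ 2) := ⟨_, rfl⟩
  have cst : ∀ k z₀ (g : ℂ → ℝ≥0∞), (∀ z ∈ cell (sd N k) z₀, g z = g z₀) →
      ∫⁻ z in cell (sd N k) z₀, g z = g z₀ * ENNReal.ofReal (sd N k ^ 2) := fun k z₀ g hg => by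
    rw [setLIntegral_congr_fun (measurableSet_cell _ _) hg, setLIntegral_const, volume_cell (sp k)]
  have Qc : ∀ k z₀, ∀ z ∈ cell (sd N k) z₀, Q k z = Q k z₀ := fun k z₀ z hz => by simp only [hQ, cell_eq hz]
  have Qm : ∀ k z, Q k z * ENNReal.ofReal (sd N k ^ 2) = ν (cell (sd N k) z) := fun k z => by
    rw [hQ, ENNReal.div_mul_cancel (s0 k) ENNReal.ofReal_ne_top]
  have Qo : ∀ k V, Sat (sd N k) V → ν V ≤ ∫⁻ z in V, Q k z := fun k V hV =>
    hV.outer_le (sp k) ν fun z₀ _ => by rw [cst k z₀ _ (Qc k z₀), Qm]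
  have Wc : ∀ k m z₀, m ≤ k + 1 → ∀ z ∈ cell (sd N k) z₀, ∏ i ∈ Finset.range m, (1 - a i (cen (sd N i) z)) =
      ∏ i ∈ Finset.range m, (1 - a i (cen (sd N i) z₀)) := fun k m z₀ hm z hz => Finset.prod_congr rfl fun i hi => by
    rw [show cen (sd N i) z = cen (sd N i) z₀ from cell_nest hN (by have := Finset.mem_range.1 hi; omega) z₀ hz]
  have W0 : ∀ k z, 0 ≤ ∏ i ∈ Finset.range k, (1 - a i (cen (sd N i) z)) := fun k z =>
    Finset.prod_nonneg fun i _ => sub_nonneg.2 (ha _ _).2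
  have am : ∀ i, Measurable fun z => a i (cen (sd N i) z) := fun i =>
    measurable_grid _ measurable_id (F := fun x _ => a i x) fun _ => measurable_const
  have key : ∀ k ≤ K, ν U ≤ ∑ k ∈ Finset.range k, (∫⁻ z in U, ENNReal.ofReal
      ((∏ i ∈ Finset.range k, (1 - a i (cen (sd N i) z))) * a k (cen (sd N k) z)) * f k) +
      ∫⁻ z in U, ENNReal.ofReal (∏ i ∈ Finset.range k, (1 - a i (cen (sd N i) z))) * Q k z := fun k hk => by
    induction k with
    | zero => simpa using Qo 0 U hU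
    | succ k ih =>
      have m : Measurable fun z => ENNReal.ofReal
          ((∏ i ∈ Finset.range k, (1 - a i (cen (sd N i) z))) * a k (cen (sd N k) z)) * f k :=
        ((Finset.measurable_prod _ fun i _ => (am i).const_sub 1).mul (am k)).ennreal_ofReal.mul_const _
      refine (ih (by omega)).trans ?_
      rw [Finset.sum_range_succ, add_assoc, ← lintegral_add_left m]
      refine add_le_add_right ((hU.mono hN k.zero_le).lintegral_le (sp k) fun z₀ _ => ?_) _
      rw [lintegral_add_left m, cst k z₀ _ fun z hz => by rw [Wc k k z₀ k.le_succ z hz, Qc k z₀ z hz],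
        cst k z₀ _ fun z hz => by rw [Wc k k z₀ k.le_succ z hz, show cen (sd N k) z = _ from hz],
        setLIntegral_congr_fun (measurableSet_cell _ _) (g := fun z => ENNReal.ofReal
          (∏ i ∈ Finset.range (k + 1), (1 - a i (cen (sd N i) z₀))) * Q (k + 1) z)
          fun z hz => by simp only [Wc k _ z₀ le_rfl z hz],
        lintegral_const_mul' _ _ ENNReal.ofReal_ne_top, mul_assoc, mul_assoc, Qm, Finset.prod_range_succ]
      refine le_trans (le_of_eq ?_) (add_le_add (mul_le_mul_right (hf k hk z₀) _)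
        (mul_le_mul_right (Qo (k + 1) _ ((sat_cell _ z₀).mono hN k.le_succ)) _))
      rw [← add_mul, ← ENNReal.ofReal_add (mul_nonneg (W0 _ _) (ha _ _).1)
        (mul_nonneg (W0 _ _) (sub_nonneg.2 (ha _ _).2)), ← mul_add, add_sub_cancel, mul_one]
  refine (key K le_rfl).trans (add_le_add_right (lintegral_mono fun z => mul_le_mul_right ?_ _) _)
  rw [hQ]
  exact ENNReal.div_le_of_le_mul (hl z)

end Crest.Agent.R162.Cv
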