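import Crest.Agent.R162.C.GridM
import Crest.Agent.R162.C.Mark

/-! # Row 162, block C: the levels of the grid, the weights, the cover -/

set_option autoImplicit false

open scoped ENNReal NNReal Topology
open Set Filter MeasureTheory Metric

noncomputable section
namespace Crest.Agent.R162.Cv

open Crest.ProbabilityR.Loewner

variable {κ : ℝ} {μ : Measure Path} {P : Par} {ω ω' : Path} {z z₀ : ℂ} {i k : ℕ} {t : ℝ}

theorem Par.Ok.s_pos (h : P.Ok κ μ) (k : ℕ) : 0 < P.s k := sd_pos h.N_one k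

theorem Par.Ok.s_anti (h : P.Ok κ μ) (hik : i ≤ k) : P.s k ≤ P.s i := sd_anti h.N_one hik

theorem Par.Ok.mem_ball_x (h : P.Ok κ μ) (k : ℕ) (z : ℂ) : z ∈ ball (P.x k z) (P.s k) :=
  mem_ball_cen (h.s_pos k) z

theorem Par.Ok.x_congr (h : P.Ok κ μ) (hz : z ∈ cell (P.s k) z₀) (hik : i ≤ k) : P.x i z = P.x i z₀ :=
  cell_nest h.N_one hik z₀ hz

theorem Par.sat_U (P : Par) : Sat (P.s 0) P.U := by
  intro z hz w hw
  have : P.x 0 w = P.x 0 z := hw
  simp only [Par.U, mem_ofPred_eq, this]; exact hz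

theorem Par.sat_S (P : Par) : Sat (P.s 0) P.S := by
  intro z hz w hw
  have : P.x 0 w = P.x 0 z := hw
  simp only [Par.S, mem_ofPred_eq, this]; exact hz

/-- `x k z ∈ cell (s k) z ⊆ cell (s i) z ⊆ ball (x i z) (s i)` -/
theorem Par.Ok.x_mem_ball (h : P.Ok κ μ) (hik : i ≤ k) (z : ℂ) : P.x k z ∈ ball (P.x i z) (P.s i) := by
  exact cell_sub_ball (h.s_pos i) z (cell_nest h.N_one hik z (cen_mem_cell (h.s_pos k) z))

theorem leva_im {z w : ℂ} {r : ℝ} (h : z ∈ ball w r) : |z.im - w.im| < r := by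
  rw [mem_ball, dist_eq_norm] at h
  exact (Complex.abs_im_le_norm (z - w)).trans_lt h

theorem Par.Ok.U_im (h : P.Ok κ μ) (hz : z ∈ P.U) (k : ℕ) : 3 * P.C * P.s k ≤ (P.x k z).im := by
  have a := leva_im (h.x_mem_ball (Nat.zero_le k) z)
  have b := h.s_anti (Nat.zero_le k)
  have c := h.C_ge
  have d := h.s_pos 0
  have e := hz.2
  nlinarith [(abs_lt.1 a).1]

theorem Par.Ok.U_pos (h : P.Ok κ μ) (hz : z ∈ P.U) : 0 < z.im := by
  have a := leva_im (h.mem_ball_x 0 z)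
  have c := h.C_ge
  have d := h.s_pos 0
  have e := hz.2
  nlinarith [(abs_lt.1 a).1]

theorem Par.Ok.U_sub (h : P.Ok κ μ) (hz : z ∈ P.U) (hik : i < k) :
    P.Sub (P.x i z) (P.s i) (P.x k z) (P.s k) := by
  have c := h.C_ge
  refine ⟨h.s_pos k, mul_sd_le h.N_one hik, h.x_mem_ball hik.le z, le_trans ?_ (h.U_im hz i), le_trans ?_ (h.U_im hz k)⟩
  · nlinarith [h.s_pos i]
  · nlinarith [h.s_pos k]

theorem leva_norm (h : P.Ok κ μ) (hz : ‖P.x 0 z‖ ≤ P.R + 1) : ‖z‖ ≤ P.R + 2 := by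
  have a := h.mem_ball_x 0 z
  rw [mem_ball, dist_eq_norm] at a
  have b : P.s 0 ≤ 1 := sd_le_one h.N_one 0
  linarith [norm_sub_norm_le z (P.x 0 z)]

theorem Par.Ok.U_box (h : P.Ok κ μ) : P.U ⊆ box (P.R + 2) (P.R + 2) := by
  intro z hz
  have a := leva_norm h hz.1
  exact ⟨(Complex.abs_re_le_norm z).trans a, (h.U_pos hz).le, (Complex.im_le_norm z).trans a⟩

theorem Par.Ok.S_box (h : P.Ok κ μ) : P.S ⊆ box (P.R + 2) (5 * P.C * P.s 0) := by
  intro z hz
  have a := leva_im (h.mem_ball_x 0 z)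
  have c := h.C_ge
  have d := h.s_pos 0
  refine ⟨(Complex.abs_re_le_norm z).trans (leva_norm h hz.1), (im_cen_pos d).1 hz.2.1, ?_⟩
  nlinarith [(abs_lt.1 a).2, hz.2.2]

theorem Par.Ok.mem_U_or_S (h : P.Ok κ μ) (hz : z ∈ closedBall (0 : ℂ) P.R) (him : 0 ≤ z.im) :
    z ∈ P.U ∪ P.S := by
  have a := h.mem_ball_x 0 z
  rw [mem_ball, dist_eq_norm, norm_sub_rev] at a
  rw [mem_closedBall_zero_iff] at hz
  have b : P.s 0 ≤ 1 := sd_le_one h.N_one 0
  have c : ‖P.x 0 z‖ ≤ P.R + 1 := by linarith [norm_sub_norm_le (P.x 0 z) z]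
  rcases le_or_gt (4 * P.C * P.s 0) (P.x 0 z).im with d | d
  · exact Or.inl ⟨c, d⟩
  · exact Or.inr ⟨c, (im_cen_pos (h.s_pos 0)).2 him, d⟩

/-- `U_box`, `lintegral_box` -/
theorem Par.Ok.lintegral_U (h : P.Ok κ μ) :
    ∫⁻ z in P.U, ENNReal.ofReal (z.im ^ (-bb κ)) ≤ ENNReal.ofReal (P.I₀ κ) := by
  have := h.R_nonneg
  exact (lintegral_mono_set h.U_box).trans (lintegral_box (by linarith) (by linarith) (bb_lt_one h.hκ))

theorem Par.Ok.f_nonneg (h : P.Ok κ μ) (k : ℕ) : 0 ≤ P.f κ k := by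
  have := h.s_pos k
  exact div_nonneg (gaugeReal_nonneg κ (by positivity)) (by positivity)

/-- `num.phi_le` -/
theorem Par.Ok.f_le (h : P.Ok κ μ) (hk : k ≤ P.n + 1) :
    P.f κ k * P.s k ^ bb κ ≤ 36 * P.CS * P.m ^ bb κ := by
  have a := h.num.phi_le k hk
  have hs := h.s_pos k
  rw [Real.rpow_sub hs, Real.rpow_two] at a
  have hp : 0 < P.s k ^ bb κ := by positivity
  calc P.f κ k * P.s k ^ bb κ ≤ 36 * P.CS * (P.s k ^ 2 / P.s k ^ bb κ) * P.m ^ bb κ / P.s k ^ 2 * P.s k ^ bb κ := by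
        unfold Par.f; gcongr
    _ = _ := by field_simp

/-! ### the weights -/

theorem Par.Ok.W_congr (h : P.Ok κ μ) (hz : z ∈ cell (P.s k) z₀) (ω : Path) :
    P.W k z ω = P.W k z₀ ω ∧ P.W' k z ω = P.W' k z₀ ω := by
  constructor
  · refine Finset.prod_congr rfl fun i hi => ?_
    rw [h.x_congr hz (Finset.mem_range.1 hi).le]
  · refine Finset.prod_congr rfl fun i hi => ?_
    rw [h.x_congr hz (Finset.mem_range.1 hi).le, h.x_congr hz (Finset.mem_range.1 hi)]

theorem Par.Ok.W_nonneg (h : P.Ok κ μ) (k : ℕ) (z : ℂ) (ω : Path) : 0 ≤ P.W k z ω ∧ 0 ≤ P.W' k z ω := by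
  refine ⟨Finset.prod_nonneg fun i _ => ?_, Finset.prod_nonneg fun i _ => ?_⟩
  · linarith [(h.mrk_mem (P.x i z) (P.s i) ω).2]
  · linarith [(h.mrk_mem (P.x i z) (P.s i) ω).2, (h.mrk'_mem (P.x i z) (P.s i) (P.x (i + 1) z) (P.s (i + 1)) ω).2]

theorem Par.Ok.W_succ_le (h : P.Ok κ μ) (k : ℕ) (z : ℂ) (ω : Path) : P.W (k + 1) z ω ≤ P.W' k z ω := by
  unfold Par.W
  rw [Finset.prod_range_succ]
  refine (mul_le_of_le_one_right (h.W_nonneg k z ω).1 (by linarith [(h.mrk_mem (P.x k z) (P.s k) ω).1])).trans ?_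
  refine Finset.prod_le_prod (fun i _ => ?_) fun i _ => ?_
  · linarith [(h.mrk_mem (P.x i z) (P.s i) ω).2]
  · linarith [(h.mrk'_mem (P.x i z) (P.s i) (P.x (i + 1) z) (P.s (i + 1)) ω).2]

/-- telescoping: the sum is `1 - W K` -/
theorem Par.Ok.sum_W_le (h : P.Ok κ μ) (K : ℕ) (z : ℂ) (ω : Path) :
    ∑ k ∈ Finset.range K, ENNReal.ofReal (P.W k z ω * P.mrk (P.x k z) (P.s k) ω) ≤ 1 := by
  have e : ∀ K, ∑ k ∈ Finset.range K, P.W k z ω * P.mrk (P.x k z) (P.s k) ω = 1 - P.W K z ω := fun K => by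
    induction K with
    | zero => simp [Par.W]
    | succ K ih =>
      rw [Finset.sum_range_succ, ih]
      simp only [Par.W, Finset.prod_range_succ]; ring
  rw [← ENNReal.ofReal_sum_of_nonneg fun k _ => mul_nonneg (h.W_nonneg k z ω).1 (h.mrk_mem _ _ ω).1, e]
  exact ENNReal.ofReal_le_one.2 (by linarith [(h.W_nonneg K z ω).1])

/-- `agr_mrk'` with `U_sub`; `tau (x (i+1) z) ≤ tau (x k z)` for `i + 1 ≤ k` by `order` -/
theorem Par.Ok.agr_W' (h : P.Ok κ μ) (hz : z ∈ P.U) (ha : Agr t ω ω') (ht : P.tau (P.x k z) (P.s k) ω ≤ t) :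
    P.W' k z ω' = P.W' k z ω := by
  refine Finset.prod_congr rfl fun i hi => ?_
  rw [h.agr_mrk' (h.U_sub hz (Nat.lt_succ_self i)) ha (le_trans ?_ ht)]
  rcases (Nat.succ_le_of_lt (Finset.mem_range.1 hi)).eq_or_lt with e | e
  · rw [← e]
  · exact (h.order (h.U_sub hz e) ω).1

/-- `measurable_grid` -/
theorem Par.Ok.measurable_mrk_x (h : P.Ok κ μ) (k : ℕ) :
    Measurable fun p : Path × ℂ => P.mrk (P.x k p.2) (P.s k) p.1 := by
  exact measurable_grid (P.s k) measurable_snd (F := fun x (p : Path × ℂ) => P.mrk x (P.s k) p.1)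
    fun x => (h.measurable_mrk x _).comp measurable_fst

/-- `measurable_grid` twice -/
theorem Par.Ok.measurable_mrk'_x (h : P.Ok κ μ) (i k : ℕ) :
    Measurable fun p : Path × ℂ => P.mrk' (P.x i p.2) (P.s i) (P.x k p.2) (P.s k) p.1 := by
  exact measurable_grid (P.s i) measurable_snd
    (F := fun x (p : Path × ℂ) => P.mrk' x (P.s i) (P.x k p.2) (P.s k) p.1) fun x =>
    measurable_grid (P.s k) measurable_snd (F := fun x' (p : Path × ℂ) => P.mrk' x (P.s i) x' (P.s k) p.1)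
      fun x' => (h.measurable_mrk' x _ x' _).comp measurable_fst

theorem Par.Ok.measurable_W (h : P.Ok κ μ) (k : ℕ) : Measurable fun p : Path × ℂ => P.W k p.2 p.1 := by
  exact Finset.measurable_prod _ fun i _ => measurable_const.sub (h.measurable_mrk_x i)

theorem Par.Ok.measurable_W' (h : P.Ok κ μ) (k : ℕ) : Measurable fun p : Path × ℂ => P.W' k p.2 p.1 := by
  exact Finset.measurable_prod _ fun i _ => measurable_const.sub (h.measurable_mrk'_x i (i + 1))

theorem Par.Ok.measurable_pot_x (h : P.Ok κ μ) (k : ℕ) :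
    Measurable fun p : Path × ℂ => P.pot κ p.2 (P.x k p.2) (P.s k) p.1 := by
  exact measurable_grid (P.s k) measurable_snd (F := fun x (p : Path × ℂ) => P.pot κ p.2 x (P.s k) p.1)
    fun x => h.measurable_pot x _

theorem Par.measurable_last_x (P : Par) (κ : ℝ) (k : ℕ) :
    Measurable fun p : Path × ℂ => P.last κ (P.x k p.2) p.1 := by
  exact measurable_grid (P.s k) measurable_snd (F := fun x (p : Path × ℂ) => P.last κ x p.1)
    fun x => (P.measurable_last κ x).comp measurable_fst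

theorem Par.Ok.measurable_costM (h : P.Ok κ μ) (k : ℕ) : Measurable (P.costM κ k) := by
  exact ((((h.measurable_W k).mul (h.measurable_mrk_x k)).ennreal_ofReal).mul measurable_const).lintegral_prod_right'

theorem Par.Ok.measurable_costL (h : P.Ok κ μ) : Measurable (P.costL κ) := by
  exact ((h.measurable_W _).ennreal_ofReal.mul (P.measurable_last_x κ _)).lintegral_prod_right'

theorem Par.measurable_costS (P : Par) (κ : ℝ) : Measurable (P.costS κ) := by
  exact (P.measurable_last_x κ _).lintegral_prod_right'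

theorem Par.Ok.measurable_cost (h : P.Ok κ μ) : Measurable (P.cost κ) :=
  ((Finset.measurable_sum _ fun k _ => h.measurable_costM k).add h.measurable_costL).add (P.measurable_costS κ)

/-! ### the cover -/

/-- Recipe: `ν = OuterMeasure.restrict (γ '' Icc 0 T) (pre κ δ)`.  For every cell of level `k`, `ν cell ≤ φ (2 s k) =
f k * s k²` (`pre_le_gauge`, `ediam_cell`, `s_anti`); at the last level `K = n + 1`, if `ω ∉ H x (s K)` and
`3 C s K ≤ Im x` the cell does not meet `γ [0, T]` (`trace_hit` with `ρ = s K`, `cell_sub_ball`), so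
`ν cell ≤ last x ω * s K²`.  The set is contained in `γ [0,T] ∩ (U ∪ S)` (`mem_U_or_S`, `mem_closure`);
`cover_abs` for `U` with `a k x = mrk x (s k) ω`, `Sat.outer_le` at level `K` for `S` (`Sat.mono`, `volume_cell`). -/
theorem Par.Ok.cover (h : P.Ok κ μ) {γ : ℝ → ℂ} (hγ : IsChordalTrace ω γ) :
    pre κ (ENNReal.ofReal (2 * P.s 0)) (γ '' Icc 0 P.T ∩ closedBall 0 P.R) ≤ P.cost κ ω := by
  set ν := OuterMeasure.restrict (γ '' Icc 0 P.T) (pre κ (ENNReal.ofReal (2 * P.s 0))) with hν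
  have c := h.C_ge
  have hf : ∀ k z, ν (cell (P.s k) z) ≤ ENNReal.ofReal (P.f κ k) * ENNReal.ofReal (P.s k ^ 2) := fun k z => by
    have hs := h.s_pos k
    rw [hν, OuterMeasure.restrict_apply, ← ENNReal.ofReal_mul (h.f_nonneg k), Par.f, div_mul_cancel₀ _ (by positivity)]
    refine (measure_mono inter_subset_left).trans (pre_le_gauge h.hκ h.hκ8 (by positivity) (ediam_cell hs z) ?_)
    exact ENNReal.ofReal_le_ofReal (by linarith [h.s_anti (Nat.zero_le k)])
  have hl : ∀ z, ν (cell (P.s (P.n + 1)) z) ≤ P.last κ (P.x (P.n + 1) z) ω * ENNReal.ofReal (P.s (P.n + 1) ^ 2) :=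
    fun z => by
    have hs := h.s_pos (P.n + 1)
    by_cases hω : ω ∈ {ω | ω ∈ P.H (P.x (P.n + 1) z) (P.s (P.n + 1)) ∨
        (P.x (P.n + 1) z).im < 3 * P.C * P.s (P.n + 1)}
    · rw [Par.last, indicator_of_mem hω]; exact hf _ z
    · have : cell (P.s (P.n + 1)) z ∩ γ '' Icc 0 P.T = ∅ := by
        refine eq_empty_of_forall_notMem ?_
        rintro w ⟨hw, t, ht, rfl⟩
        simp only [mem_ofPred_eq, not_or, not_lt] at hω
        have := cell_sub_ball hs z hw
        rw [mem_ball, dist_eq_norm] at this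
        exact hω.1 (trace_hit h.koebe hγ ht this (le_trans (by nlinarith) hω.2)).1
      rw [hν, OuterMeasure.restrict_apply, this, measure_empty]; exact zero_le
  have hU := cover_abs ν h.N_one (P.n + 1) P.sat_U (fun k x => P.mrk x (P.s k) ω)
    (fun k x => ⟨(h.mrk_mem x _ ω).1, (h.mrk_mem x _ ω).2.trans (by norm_num)⟩)
    (fun k => ENNReal.ofReal (P.f κ k)) (fun x => P.last κ x ω) (fun k _ z => hf k z) hl
  have hS : ν P.S ≤ P.costS κ ω := by
    refine (P.sat_S.mono h.N_one (Nat.zero_le (P.n + 1))).outer_le (h.s_pos _) ν fun z₀ _ => (hl z₀).trans (le_of_eq ?_)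
    rw [← volume_cell (h.s_pos _) z₀, ← setLIntegral_const]
    refine setLIntegral_congr_fun (measurableSet_cell _ _) fun z hz => ?_
    simp only [h.x_congr hz le_rfl]
  calc _ ≤ ν (P.U ∪ P.S) := by
        rw [hν, OuterMeasure.restrict_apply]
        refine measure_mono ?_
        rintro w ⟨⟨t, ht, rfl⟩, hw⟩
        exact ⟨h.mem_U_or_S hw (hγ.mem_closure t ht.1), t, ht, rfl⟩
    _ ≤ ν P.U + ν P.S := measure_union_le _ _
    _ ≤ _ := add_le_add hU hS

end Crest.Agent.R162.Cv
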