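import Crest.Agent.R162.C.Res
import Crest.Agent.R162.C.Grid

/-! # Row 162, block C: the cost of a marked square is paid by its mass -/

set_option autoImplicit false

open scoped ENNReal NNReal Topology
open Set Filter MeasureTheory Metric

noncomputable section
namespace Crest.Agent.R162.Cv

open Crest.ProbabilityR.Loewner

variable {κ : ℝ} {μ : Measure Path} {P : Par} {ω ω' ω'' : Path} {x x' z : ℂ} {s s' : ℝ}

/-- on the flag, the mark of the restarted path is `π` of the new increments (`agr_tau` with `agr_res`,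
`scl_sh_res`; `0 < Y` by `at_hit`) -/
theorem Par.Ok.mrk_res (h : P.Ok κ μ) (hx : P.C * s ≤ x.im) (hω : ω ∈ P.Flag x s) (ω' : Path) :
    P.mrk x s (res (P.tau x s ω) (P.Y x s ω) ω ω') = P.π (sh 0 ω') := by
  obtain ⟨h1, -, h3, h4, -⟩ := h.agr_tau (x := x) (s := s) (agr_res (P.tau x s ω) (P.Y x s ω) ω ω') le_rfl
  rw [Par.mrk, indicator_of_mem (h4.2 hω), h1, h3, scl_sh_res (Y := P.Y x s ω) (at_hit hx hω.1).2.2]

/-- off the flag the mark vanishes on all continuations -/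
theorem Par.Ok.mrk_spl_of_not (h : P.Ok κ μ) (hω : ω ∉ P.Flag x s) (ω' : Path) :
    P.mrk x s (spl (P.tau x s ω) ω ω') = 0 := by
  exact indicator_of_notMem (mt (h.agr_tau (agr_spl _ ω ω') le_rfl).2.2.2.1.1 hω) _

/-- Recipe: `τ = tau x s ω ≤ τ' = tau x' s' ω` (`order`), both paths `ω₁, ω₂` agree with `ω` up to `τ'` (`agr_res`), so
`tau, Y, Flag` of `(x, s)` are those of `ω` (`agr_tau`).  Off the flag both marks vanish (`0 ≤ β` from `u = 0`).  On the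
flag use `Mark.lip` for `scl Y (sh τ ωᵢ)`, whose increments are `(ωᵢ (τ + Y² t) - ωᵢ τ) / Y` with `ω₁ τ = ω₂ τ`; by
`res_diff` they differ by at most `Y' β / Y ≤ 2 √(C/N) β` (`ratio`; `0 < Y, Y'` by `at_hit`). -/
theorem Par.Ok.lip_mrk (h : P.Ok κ μ) (hS : P.Sub x s x' s') (hω : ω ∈ P.H x' s') {β : ℝ}
    (hβ : ∀ u, 0 ≤ u → |(ω' u - ω' 0) - (ω'' u - ω'' 0)| ≤ β) :
    1 - P.mrk x s (res (P.tau x' s' ω) (P.Y x' s' ω) ω ω') ≤
      Real.exp (P.CS * P.m ^ 2 * (2 * √(P.C / P.N) * β)) *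
        (1 - P.mrk x s (res (P.tau x' s' ω) (P.Y x' s' ω) ω ω'')) := by
  obtain ⟨o1, o2⟩ := h.order hS ω
  have β0 : 0 ≤ β := (abs_nonneg _).trans (hβ 0 le_rfl)
  have A1 := agr_res (P.tau x' s' ω) (P.Y x' s' ω) ω ω'
  have A2 := agr_res (P.tau x' s' ω) (P.Y x' s' ω) ω ω''
  obtain ⟨a1, -, a3, a4, -⟩ := h.agr_tau A1 o1
  obtain ⟨b1, -, b3, b4, -⟩ := h.agr_tau A2 o1
  unfold Par.mrk
  by_cases hf : ω ∈ P.Flag x s
  · rw [indicator_of_mem (a4.2 hf), indicator_of_mem (b4.2 hf), a1, a3, b1, b3]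
    refine h.snake.mark.lip _ _ _ fun t _ => ?_
    have Y0 : 0 < P.Y x s ω := (at_hit hS.im hf.1).2.2
    have Y1 : 0 < P.Y x' s' ω := (at_hit hS.im' hω).2.2
    have d := (res_diff Y1 (P.tau x' s' ω) ω hβ (P.tau x s ω + max (P.Y x s ω ^ 2 * t) 0)).trans
      (mul_le_mul_of_nonneg_right (h.ratio hS hω) β0)
    rw [mul_right_comm, ← div_le_iff₀ Y0, ← abs_of_pos Y0, ← abs_div, abs_of_pos Y0] at d
    refine le_of_eq_of_le (congrArg _ ?_) d
    simp only [scl, sh, ContinuousMap.coe_mk, mul_zero, max_self, add_zero, A1 _ o1, A2 _ o1]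
    ring
  · rw [indicator_of_notMem (mt a4.1 hf), indicator_of_notMem (mt b4.1 hf), sub_zero, mul_one]
    have := h.CS_ge
    exact Real.one_le_exp (by positivity)

/-- product of `lip_mrk` (`Finset.prod_le_prod`, factors `≥ 1/2` by `mrk_mem`) and `h.num.indep` -/
theorem Par.Ok.lip_prod (h : P.Ok κ μ) {k : ℕ} (hk : k ≤ P.n + 1) {xs : ℕ → ℂ} {ss : ℕ → ℝ}
    (hS : ∀ i < k, P.Sub (xs i) (ss i) x s) (hω : ω ∈ P.H x s) {β : ℝ}
    (hβ : ∀ u, 0 ≤ u → |(ω' u - ω' 0) - (ω'' u - ω'' 0)| ≤ β) :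
    ∏ i ∈ Finset.range k, (1 - P.mrk (xs i) (ss i) (res (P.tau x s ω) (P.Y x s ω) ω ω')) ≤
      Real.exp β * ∏ i ∈ Finset.range k, (1 - P.mrk (xs i) (ss i) (res (P.tau x s ω) (P.Y x s ω) ω ω'')) := by
  have β0 : 0 ≤ β := (abs_nonneg _).trans (hβ 0 le_rfl)
  have p0 : ∀ i ω, 0 ≤ 1 - P.mrk (xs i) (ss i) ω := fun i ω => by linarith [(h.mrk_mem (xs i) (ss i) ω).2]
  refine (Finset.prod_le_prod (fun i _ => p0 i _) fun i hi =>
    h.lip_mrk (hS i (Finset.mem_range.1 hi)) hω hβ).trans ?_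
  rw [Finset.prod_mul_distrib, Finset.prod_const, Finset.card_range, ← Real.exp_nat_mul]
  refine mul_le_mul_of_nonneg_right (Real.exp_le_exp.2 ?_) (Finset.prod_nonneg fun i _ => p0 i _)
  have hk' : (k : ℝ) ≤ P.n + 1 := by exact_mod_cast hk
  have := h.CS_ge
  calc _ ≤ (P.n + 1) * (P.CS * P.m ^ 2 * (2 * √(P.C / P.N) * β)) := mul_le_mul_of_nonneg_right hk' (by positivity)
    _ = P.CS * P.m ^ 2 * (P.n + 1) * (2 * √(P.C / P.N)) * β := by ring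
    _ ≤ β := mul_le_of_le_one_left β0 h.num.indep

/-- on the flag `|Re Z| / Y ≤ ‖Z‖ / Y = 1 / S ≤ 1 / s₁` and `Im Z / Y = 1` -/
theorem Par.Ok.flag_re (h : P.Ok κ μ) (hx : P.C * s ≤ x.im) (hω : ω ∈ P.Flag x s) :
    |(Zc ω x (P.tau x s ω) / P.Y x s ω).re| ≤ 1 / P.s₁ ∧ (Zc ω x (P.tau x s ω) / P.Y x s ω).im = 1 := by
  obtain ⟨ha, -, Y0⟩ := at_hit hx hω.1
  have N0 := Lx.norm_pos ha
  have h1 := (le_div_iff₀ N0).1 hω.2
  change 0 < P.Y x s ω at Y0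
  refine ⟨?_, ?_⟩
  · rw [Complex.div_ofReal_re, abs_div, abs_of_pos Y0, div_le_div_iff₀ Y0 h.s₁_pos, one_mul, mul_comm]
    exact (mul_le_mul_of_nonneg_left (Complex.abs_re_le_norm _) h.s₁_pos.le).trans h1
  · rw [Complex.div_ofReal_im, Lx.zc_im]; exact div_self Y0.ne'

theorem Par.Ok.mass_pt_pos (h : P.Ok κ μ) {k : ℕ} : 0 < P.s k := by
  have : (0 : ℝ) < P.N := by exact_mod_cast h.N_one
  unfold Par.s sd; positivity

theorem mass_pt_rpow (hκ : 0 < κ) (hκ8 : κ < 8) {K l : ℝ} (hs : 0 < s) (hK : 1 ≤ K) (hl : 0 < l) (h : l ≤ K * s) :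
    s ^ (-bb κ) / K ≤ l ^ (-bb κ) := by
  have K0 : 0 < K := by linarith
  refine le_trans ?_ (Real.rpow_le_rpow_of_nonpos hl h (neg_nonpos.2 (bb_pos hκ8).le))
  rw [Real.mul_rpow K0.le hs.le, div_eq_inv_mul, ← Real.rpow_neg_one]
  exact mul_le_mul_of_nonneg_right (Real.rpow_le_rpow_of_exponent_le hK (neg_le_neg (bb_lt_one hκ).le))
    (by positivity)

/-- One point of the good ball.  Recipe: `ζ = Zc ω z τ / Y` has `|Re ζ| ≤ 1/s₁ + 1`, `Im ζ ∈ [1 - 3δ/4, 1 - δ/4]`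
(`flag_re`, `hz'`), `λ = Up z τ * Y / Yc z τ ∈ [s, 2 C² s]` (`at_hit_near`, `Yc z τ = Y Im ζ ≤ Y`), `y / λ ≤ y / s ≤ c / m`
(`num.y_le`).  By `res_nz` and `Wie.sh_zero` the integrand is a.e. `π ω' * (λ^{-b} * nz (y/λ) ω' ζ (Ioc 0 Tm))`; apply
`snake.mass`, and `λ^{-b} ≥ (2 C² s)^{-b} ≥ s^{-b} / (2 C²)` since `0 < b < 1`. -/
theorem Par.Ok.mass_pt (h : P.Ok κ μ) (hs : P.s (P.n + 1) ≤ s) (hx : P.C * s ≤ x.im) (hω : ω ∈ P.Flag x s)
    (hz : z ∈ ball x s)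
    (hz' : ‖Zc ω z (P.tau x s ω) - (Zc ω x (P.tau x s ω) -
      ((1 / (2 * P.C₁ * P.C) / 2 * P.Y x s ω : ℝ) : ℂ) * Complex.I)‖ ≤ 1 / (2 * P.C₁ * P.C) / 4 * P.Y x s ω) :
    ENNReal.ofReal (P.c * P.p * P.m ^ bb κ * s ^ (-bb κ) / (2 * P.C ^ 2)) ≤
      ∫⁻ ω' in {ω' | osc P.Tm ω' ≤ P.CS}, ENNReal.ofReal (P.π ω') *
        nz κ P.s₀ P.y (res (P.tau x s ω) (P.Y x s ω) ω ω') z
          (Ioc (P.tau x s ω) (P.tau x s ω + P.Y x s ω ^ 2 * P.Tm)) ∂μ := by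
  have hs0 := h.mass_pt_pos.trans_le hs
  have hC := h.C_ge
  have hC₁ := h.good.one_le
  obtain ⟨a1, a2, a3, a4, -⟩ := at_hit_near h.koebe hs0 hx hω.1 hz
  obtain ⟨f1, f2⟩ := h.flag_re hx hω
  have Y0 : 0 < P.Y x s ω := (at_hit hx hω.1).2.2
  change Alive ω z (P.tau x s ω) at a1
  change s ≤ Up ω z (P.tau x s ω) at a2
  change Up ω z (P.tau x s ω) ≤ _ at a3
  change P.Y x s ω / 2 ≤ Yc ω z (P.tau x s ω) at a4
  set δ := 1 / (2 * P.C₁ * P.C) with hδ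
  have δ0 : 0 < δ := by positivity
  have δ1 : δ ≤ 1 := (div_le_one (by positivity)).2 (by nlinarith)
  set τ := P.tau x s ω
  set Y := P.Y x s ω
  set D := (Zc ω z τ - (Zc ω x τ - ((δ / 2 * Y : ℝ) : ℂ) * Complex.I)) / Y with hD
  have hY : (Y : ℂ) ≠ 0 := by exact_mod_cast Y0.ne'
  have e : Zc ω z τ / Y = D + Zc ω x τ / Y - ((δ / 2 : ℝ) : ℂ) * Complex.I := by
    rw [hD]; push_cast; field_simp; ring
  have n : ‖D‖ ≤ δ / 4 := by
    rw [hD, norm_div, Complex.norm_real, Real.norm_of_nonneg Y0.le, div_le_iff₀ Y0]; exact hz'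
  have r1 := abs_le.1 ((Complex.abs_re_le_norm D).trans n)
  have r2 := abs_le.1 ((Complex.abs_im_le_norm D).trans n)
  have r3 := abs_le.1 f1
  have z1 : |(Zc ω z τ / Y).re| ≤ 1 / P.s₁ + 1 := by
    rw [e, abs_le]
    simp only [Complex.sub_re, Complex.add_re, Complex.re_ofReal_mul, Complex.I_re, mul_zero, sub_zero]
    constructor <;> linarith [r1.1, r1.2, r3.1, r3.2]
  have z2 : (Zc ω z τ / Y).im ∈ Icc (1 - 3 * δ / 4) (1 - δ / 4) := by
    rw [e]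
    simp only [Complex.sub_im, Complex.add_im, Complex.im_ofReal_mul, Complex.I_im, mul_one, f2]
    constructor <;> linarith [r2.1, r2.2]
  have y0 := alive_iff.1 a1
  have y1 : Yc ω z τ ≤ Y := by
    have := z2.2
    rw [Complex.div_ofReal_im, Lx.zc_im, div_le_iff₀ Y0] at this
    nlinarith
  set l := Up ω z τ * Y / Yc ω z τ with hl
  have l1 : s ≤ l := by rw [hl, le_div_iff₀ y0]; exact mul_le_mul a2 y1 y0.le (hs0.le.trans a2)
  have l2 : l ≤ 2 * P.C ^ 2 * s := by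
    rw [hl, div_le_iff₀ y0]
    calc _ ≤ P.C ^ 2 * s * (2 * Yc ω z τ) := mul_le_mul a3 (by linarith) Y0.le (by positivity)
      _ = _ := by ring
  have l0 := hs0.trans_le l1
  have m0 : 0 < P.m := one_pos.trans_le h.m_ge
  have hy := h.num.y_pos
  have y2 : P.y / l ≤ P.c / P.m := by
    rw [div_le_div_iff₀ l0 m0, mul_comm]
    exact h.num.y_le.trans (mul_le_mul_of_nonneg_left (hs.trans l1) h.c_pos.le)
  have k := h.snake.mass _ _ z1 z2 (div_pos hy l0) y2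
  have c0 := h.c_pos
  have p0 := P.p_pos
  calc _ ≤ ENNReal.ofReal (l ^ (-bb κ)) * ENNReal.ofReal (P.c * P.p * P.m ^ bb κ) := by
        rw [← ENNReal.ofReal_mul (by positivity), mul_comm (l ^ _), mul_div_assoc]
        exact ENNReal.ofReal_le_ofReal (mul_le_mul_of_nonneg_left
          (mass_pt_rpow h.hκ h.hκ8 hs0 (by nlinarith) l0 l2) (by positivity))
    _ ≤ _ := mul_le_mul_right k _
    _ = _ := by
        rw [← lintegral_const_mul' _ _ ENNReal.ofReal_ne_top]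
        refine lintegral_congr_ae (ae_restrict_of_ae (h.wie.sh_zero.mono fun ω' e' => ?_))
        simp only [res_nz h.hκ8 hy a1 Y0, e']
        exact mul_left_comm _ _ _

/-- Recipe: `good.good` with `δ = 1 / (2 C₁ C)`, `Up x τ = C s`: a ball `B` of radius `s / (2 C₁²)` inside `ball x (s/2)`,
of area `≥ s² / (4 C₁⁴)` (`Complex.volume_ball`).  Unfold `nu`, pull `π ω'` inside (`lintegral_const_mul'`), swap the
integrals (`lintegral_lintegral_swap`; `measurable_nz`, `continuous_res`), restrict to `B`, use `mass_pt`;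
`s^{-b} s² = s^{2-b}`. -/
theorem Par.Ok.mass_loc (h : P.Ok κ μ) (hs : P.s (P.n + 1) ≤ s) (hx : P.C * s ≤ x.im) (hω : ω ∈ P.Flag x s) :
    ENNReal.ofReal (P.c * P.p * P.m ^ bb κ * s ^ (2 - bb κ) / (8 * P.C ^ 2 * P.C₁ ^ 4)) ≤
      ∫⁻ ω' in {ω' | osc P.Tm ω' ≤ P.CS}, ENNReal.ofReal (P.π ω') *
        nu κ P.s₀ P.y (res (P.tau x s ω) (P.Y x s ω) ω ω') (ball x (s / 2))
          (Ioc (P.tau x s ω) (P.tau x s ω + P.Y x s ω ^ 2 * P.Tm)) ∂μ := by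
  have hs0 := h.mass_pt_pos.trans_le hs
  have hC := h.C_ge
  have hC₁ := h.good.one_le
  have := h.wie.prob
  obtain ⟨a1, a2, -⟩ := at_hit hx hω.1
  obtain ⟨z₁, hz₁⟩ := h.good.good ω x (P.tau x s ω) (1 / (2 * P.C₁ * P.C)) a1 (by positivity)
    (one_div_le_one_div_of_le two_pos (by nlinarith))
  change Up ω x (P.tau x s ω) = _ at a2
  rw [a2, show 1 / (2 * P.C₁ * P.C) * (P.C * s) / P.C₁ = s / (2 * P.C₁ ^ 2) by field_simp,
    show P.C₁ * (1 / (2 * P.C₁ * P.C)) * (P.C * s) = s / 2 by field_simp] at hz₁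
  have hm : Measurable fun q : Path × ℂ => ENNReal.ofReal (P.π q.1) *
      nz κ P.s₀ P.y (res (P.tau x s ω) (P.Y x s ω) ω q.1) q.2
        (Ioc (P.tau x s ω) (P.tau x s ω + P.Y x s ω ^ 2 * P.Tm)) :=
    (h.snake.mark.cont.measurable.comp measurable_fst).ennreal_ofReal.mul (measurable_nz.comp
      (measurable_const.prodMk (((continuous_res _ _ ω).measurable.comp measurable_fst).prodMk
        (measurable_snd.prodMk (measurable_const (a := (P.tau x s ω, P.tau x s ω + P.Y x s ω ^ 2 * P.Tm)))))))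
  have m0 : 0 < P.m := one_pos.trans_le h.m_ge
  have c0 := h.c_pos
  have p0 := P.p_pos
  calc _ ≤ ∫⁻ _ in ball z₁ (s / (2 * P.C₁ ^ 2)),
        ENNReal.ofReal (P.c * P.p * P.m ^ bb κ * s ^ (-bb κ) / (2 * P.C ^ 2)) := by
        rw [setLIntegral_const, Complex.volume_ball, ← ENNReal.ofReal_pow (by positivity),
          ← ENNReal.ofReal_coe_nnreal, ← ENNReal.ofReal_mul (by positivity), ← ENNReal.ofReal_mul (by positivity)]
        refine ENNReal.ofReal_le_ofReal ?_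
        rw [sub_eq_neg_add, Real.rpow_add hs0, Real.rpow_two, NNReal.coe_real_pi]
        calc _ = P.c * P.p * P.m ^ bb κ * s ^ (-bb κ) / (2 * P.C ^ 2) * ((s / (2 * P.C₁ ^ 2)) ^ 2 * 1) := by
              field_simp; ring
          _ ≤ _ := by gcongr; linarith [Real.pi_gt_three]
    _ ≤ _ := setLIntegral_mono' measurableSet_ball fun z hz =>
        h.mass_pt hs hx hω (ball_subset_ball (by linarith) (hz₁ z hz).1) (hz₁ z hz).2.2
    _ ≤ _ := lintegral_mono_set fun z hz => (hz₁ z hz).1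
    _ = _ := by
        rw [← lintegral_lintegral_swap hm.aemeasurable]
        exact lintegral_congr fun ω' => lintegral_const_mul' _ _ ENNReal.ofReal_ne_top

theorem main_cond_meas (h : P.Ok κ μ) (k : ℕ) (xs : ℕ → ℂ) (ss : ℕ → ℝ) :
    Measurable fun ω => ∏ i ∈ Finset.range k, (1 - P.mrk (xs i) (ss i) ω) :=
  Finset.measurable_prod _ fun _ _ => measurable_const.sub (h.measurable_mrk _ _)

theorem main_cond_meas1 (h : P.Ok κ μ) (k : ℕ) (xs : ℕ → ℂ) (ss : ℕ → ℝ) (x : ℂ) (s : ℝ) :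
    Measurable fun ω => ENNReal.ofReal ((∏ i ∈ Finset.range k, (1 - P.mrk (xs i) (ss i) ω)) * P.mrk x s ω) :=
  ((main_cond_meas h k xs ss).mul (h.measurable_mrk x s)).ennreal_ofReal

theorem main_cond_meas2 (h : P.Ok κ μ) (k : ℕ) (xs : ℕ → ℂ) (ss : ℕ → ℝ) (x : ℂ) (s : ℝ) (A : Set ℂ) :
    Measurable fun ω => ENNReal.ofReal ((∏ i ∈ Finset.range k, (1 - P.mrk (xs i) (ss i) ω)) * P.mrk x s ω) *
      nu κ P.s₀ P.y ω A (Ioi 0) :=
  (main_cond_meas1 h k xs ss x s).mul (measurable_nu_Ioi _ _ _ _)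

theorem main_cond_nonneg (h : P.Ok κ μ) (k : ℕ) (xs : ℕ → ℂ) (ss : ℕ → ℝ) (ω : Path) :
    0 ≤ ∏ i ∈ Finset.range k, (1 - P.mrk (xs i) (ss i) ω) :=
  Finset.prod_nonneg fun i _ => by linarith [(h.mrk_mem (xs i) (ss i) ω).2]

/-- Recipe: off the flag the left side is `0` (`mrk_spl_of_not`).  On the flag rewrite both sides by `EE_res`, `mrk_res`,
`Wie.sh_zero`; `near_indep` with `T = Tm`, `K = CS`, `h ω' = ofReal (∏ (1 - mrk (xs i) (ss i) (res τ Y ω ω')))`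
(`lip_prod`), `a₁ = ofReal ∘ π` (`Mark.agr`), `a₂ ω' = ofReal (π ω') * nu (res τ Y ω ω') (ball x (s/2)) (Ioc τ (τ + Y² Tm))`
(`agr_res_res`, `Agr.nz`; `measurable_nu`); `mass_loc`, `snake.rare`; `Ioc τ _ ⊆ Ioi 0`; cancel the factor `p`. -/
theorem Par.Ok.main_cond (h : P.Ok κ μ) {k : ℕ} (hk : k ≤ P.n + 1) {xs : ℕ → ℂ} {ss : ℕ → ℝ}
    (hS : ∀ i < k, P.Sub (xs i) (ss i) x s) (hs : P.s (P.n + 1) ≤ s) (hx : P.C * s ≤ x.im) (ω : Path) :
    ENNReal.ofReal (P.c * P.m ^ bb κ * s ^ (2 - bb κ) / (8 * P.C ^ 2 * P.C₁ ^ 4)) *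
        EE μ ω (P.tau x s ω) (fun ω₁ => ENNReal.ofReal
          ((∏ i ∈ Finset.range k, (1 - P.mrk (xs i) (ss i) ω₁)) * P.mrk x s ω₁)) ≤
      ENNReal.ofReal (P.CS * Real.exp P.CS) *
        EE μ ω (P.tau x s ω) (fun ω₁ => ENNReal.ofReal
          ((∏ i ∈ Finset.range k, (1 - P.mrk (xs i) (ss i) ω₁)) * P.mrk x s ω₁) *
            nu κ P.s₀ P.y ω₁ (ball x (s / 2)) (Ioi 0)) := by
  by_cases hω : ω ∈ P.Flag x s
  swap
  · have : EE μ ω (P.tau x s ω) (fun ω₁ => ENNReal.ofReal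
        ((∏ i ∈ Finset.range k, (1 - P.mrk (xs i) (ss i) ω₁)) * P.mrk x s ω₁)) = 0 := by
      unfold EE
      simp only [h.mrk_spl_of_not hω, mul_zero, ENNReal.ofReal_zero, lintegral_const, zero_mul]
    rw [this, mul_zero]
    exact zero_le
  have hY : 0 < P.Y x s ω := (at_hit hx hω.1).2.2
  have hτ0 : 0 ≤ P.tau x s ω := (h.tau_mem x s ω).1
  have hTm := h.snake.T_pos
  have hwm := main_cond_meas h k xs ss
  have hrm : Measurable (res (P.tau x s ω) (P.Y x s ω) ω) := (continuous_res _ _ _).measurable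
  have hπm : Measurable fun ω' => ENNReal.ofReal (P.π ω') := h.snake.mark.cont.measurable.ennreal_ofReal
  set w : Path → ℝ≥0∞ := fun ω' => ENNReal.ofReal
    (∏ i ∈ Finset.range k, (1 - P.mrk (xs i) (ss i) (res (P.tau x s ω) (P.Y x s ω) ω ω'))) with hw
  set ν : Path → ℝ≥0∞ := fun ω' => nu κ P.s₀ P.y (res (P.tau x s ω) (P.Y x s ω) ω ω') (ball x (s / 2))
    (Ioc (P.tau x s ω) (P.tau x s ω + P.Y x s ω ^ 2 * P.Tm)) with hν
  have hνm : Measurable ν := (measurable_nu (κ := κ) (s₀ := P.s₀) (y := P.y) (A := ball x (s / 2))).comp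
    (hrm.prodMk (measurable_const (a := (P.tau x s ω, P.tau x s ω + P.Y x s ω ^ 2 * P.Tm))))
  have key := near_indep h.wie P.CS hTm.le (h := w) (a₁ := fun ω' => ENNReal.ofReal (P.π ω'))
    (a₂ := fun ω' => ENNReal.ofReal (P.π ω') * ν ω') (hwm.comp hrm).ennreal_ofReal hπm (hπm.mul hνm)
    (fun ω₁ ω₂ hA => by rw [h.snake.mark.agr _ _ hA])
    (fun ω₁ ω₂ hA => by
      rw [h.snake.mark.agr _ _ hA]
      congr 1
      refine lintegral_congr fun z => ?_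
      exact (agr_res_res hY hTm.le _ ω hA).nz measurableSet_Ioc fun u hu => hu.2)
    (fun ω₁ ω₂ β hβ => by
      simp only [hw]
      rw [← ENNReal.ofReal_mul (Real.exp_pos _).le]
      exact ENNReal.ofReal_le_ofReal (h.lip_prod hk hS hω.1 hβ))
  have e1 : EE μ ω (P.tau x s ω) (fun ω₁ => ENNReal.ofReal
      ((∏ i ∈ Finset.range k, (1 - P.mrk (xs i) (ss i) ω₁)) * P.mrk x s ω₁)) =
      ∫⁻ ω', w ω' * ENNReal.ofReal (P.π ω') ∂μ := by
    rw [EE_res h.wie hY _ _ (main_cond_meas1 h k xs ss x s)]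
    refine lintegral_congr_ae ?_
    filter_upwards [h.wie.sh_zero] with ω' h0
    rw [h.mrk_res hx hω, h0, ENNReal.ofReal_mul (main_cond_nonneg h k xs ss _)]
  have e2 : ∫⁻ ω', w ω' * (ENNReal.ofReal (P.π ω') * ν ω') ∂μ ≤
      EE μ ω (P.tau x s ω) (fun ω₁ => ENNReal.ofReal
          ((∏ i ∈ Finset.range k, (1 - P.mrk (xs i) (ss i) ω₁)) * P.mrk x s ω₁) *
            nu κ P.s₀ P.y ω₁ (ball x (s / 2)) (Ioi 0)) := by
    rw [EE_res h.wie hY _ _ (main_cond_meas2 h k xs ss x s _)]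
    refine lintegral_mono_ae ?_
    filter_upwards [h.wie.sh_zero] with ω' h0
    rw [h.mrk_res hx hω, h0, ENNReal.ofReal_mul (main_cond_nonneg h k xs ss _), ← mul_assoc]
    refine mul_le_mul_right ?_ _
    exact lintegral_mono fun z => lintegral_mono_set fun u hu => lt_of_le_of_lt hτ0 hu.1
  have e3 : ∫⁻ ω', ENNReal.ofReal (P.π ω') * ENNReal.ofReal (Real.exp (osc P.Tm ω')) ∂μ ≤
      ENNReal.ofReal (P.CS * P.p) := by
    refine le_trans (le_of_eq (lintegral_congr fun ω' => ?_)) h.snake.rare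
    rw [ENNReal.ofReal_mul (h.snake.mark.nonneg _)]
  have e4 := h.mass_loc hs hx hω
  rw [e1]
  have hp : ENNReal.ofReal P.p ≠ 0 := (ENNReal.ofReal_pos.2 P.p_pos).ne'
  have hCS := h.CS_ge
  refine (ENNReal.mul_le_mul_iff_right hp ENNReal.ofReal_ne_top).1 ?_
  calc ENNReal.ofReal P.p * (ENNReal.ofReal (P.c * P.m ^ bb κ * s ^ (2 - bb κ) / (8 * P.C ^ 2 * P.C₁ ^ 4)) *
        ∫⁻ ω', w ω' * ENNReal.ofReal (P.π ω') ∂μ)
      = (∫⁻ ω', w ω' * ENNReal.ofReal (P.π ω') ∂μ) *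
        ENNReal.ofReal (P.c * P.p * P.m ^ bb κ * s ^ (2 - bb κ) / (8 * P.C ^ 2 * P.C₁ ^ 4)) := by
        rw [← mul_assoc, ← ENNReal.ofReal_mul P.p_pos.le, mul_comm]
        congr 2; ring
    _ ≤ _ := mul_le_mul_right e4 _
    _ ≤ _ := key
    _ ≤ ENNReal.ofReal (Real.exp P.CS) * ENNReal.ofReal (P.CS * P.p) * _ := mul_le_mul' (mul_le_mul_right e3 _) e2
    _ = _ := by
        rw [← mul_assoc, ← ENNReal.ofReal_mul P.p_pos.le, ← ENNReal.ofReal_mul (Real.exp_pos _).le]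
        congr 2; ring

/-- `lintegral_eq_EE` at `tau x s` on both sides, `main_cond`, and `K₁ = 36 CS (8 C² C₁⁴ / c) (CS e^CS)` -/
theorem Par.Ok.main_loc (h : P.Ok κ μ) {k : ℕ} (hk : k ≤ P.n + 1) {xs : ℕ → ℂ} {ss : ℕ → ℝ}
    (hS : ∀ i < k, P.Sub (xs i) (ss i) x s) (hs : P.s (P.n + 1) ≤ s) (hx : P.C * s ≤ x.im) :
    ENNReal.ofReal (36 * P.CS * s ^ (2 - bb κ) * P.m ^ bb κ) *
        ∫⁻ ω, ENNReal.ofReal ((∏ i ∈ Finset.range k, (1 - P.mrk (xs i) (ss i) ω)) * P.mrk x s ω) ∂μ ≤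
      ENNReal.ofReal P.K₁ * ∫⁻ ω, ENNReal.ofReal
        ((∏ i ∈ Finset.range k, (1 - P.mrk (xs i) (ss i) ω)) * P.mrk x s ω) *
          nu κ P.s₀ P.y ω (ball x (s / 2)) (Ioi 0) ∂μ := by
  have hC := h.C_ge
  have hC₁ := h.good.one_le
  have hc := h.c_pos
  have hCS := h.CS_ge
  have hK : 0 ≤ 36 * P.CS * (8 * P.C ^ 2 * P.C₁ ^ 4 / P.c) := by positivity
  have e1 : ENNReal.ofReal (36 * P.CS * s ^ (2 - bb κ) * P.m ^ bb κ) =
      ENNReal.ofReal (36 * P.CS * (8 * P.C ^ 2 * P.C₁ ^ 4 / P.c)) *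
        ENNReal.ofReal (P.c * P.m ^ bb κ * s ^ (2 - bb κ) / (8 * P.C ^ 2 * P.C₁ ^ 4)) := by
    rw [← ENNReal.ofReal_mul hK]
    congr 1
    field_simp
  rw [e1, Par.K₁, ENNReal.ofReal_mul hK, mul_assoc (ENNReal.ofReal _), mul_assoc (ENNReal.ofReal _)]
  refine mul_le_mul_right ?_ _
  rw [h.wie.lintegral_eq_EE (h.stop_tau x s) (main_cond_meas1 h k xs ss x s),
    h.wie.lintegral_eq_EE (h.stop_tau x s) (main_cond_meas2 h k xs ss x s _),
    ← lintegral_const_mul' _ _ ENNReal.ofReal_ne_top, ← lintegral_const_mul' _ _ ENNReal.ofReal_ne_top]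
  exact lintegral_mono fun ω => h.main_cond hk hS hs hx ω

end Crest.Agent.R162.Cv
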