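import Crest.Agent.R162.C.Mark

/-! # Row 162, block C: restarting and rescaling the path; the good ball; near independence -/

set_option autoImplicit false

open scoped ENNReal NNReal Topology
open Set Filter MeasureTheory Metric

noncomputable section
namespace Crest.Agent.R162.Cv

open Crest.ProbabilityR.Loewner

variable {κ : ℝ} {μ : Measure Path} {ω ω' ω'' : Path} {z : ℂ} {t Y u : ℝ}

theorem agr_res (t Y : ℝ) (ω ω' : Path) : Agr t ω (res t Y ω ω') := agr_spl _ _ _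

theorem continuous_res (t Y : ℝ) (ω : Path) : Continuous (res t Y ω) := by
  exact continuous_spl.comp (continuous_const.prodMk (continuous_const.prodMk continuous_scl))

/-- `sh_spl`, then `ext` -/
theorem scl_sh_res (hY : 0 < Y) (t : ℝ) (ω ω' : Path) : scl Y (sh t (res t Y ω ω')) = sh 0 ω' := by
  rw [res, sh_spl]
  ext v
  have e : Y⁻¹ ^ 2 * max (Y ^ 2 * v) 0 = max v 0 := by
    rw [mul_max_of_nonneg _ _ (sq_nonneg _), mul_zero, ← mul_assoc, ← mul_pow, inv_mul_cancel₀ hY.ne', one_pow,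
      one_mul]
  simp only [scl, sh, ContinuousMap.coe_mk, zero_add, mul_zero, e]
  field_simp

theorem agr_res_res (hY : 0 < Y) (hu : 0 ≤ u) (t : ℝ) (ω : Path) (h : Agr u ω' ω'') :
    Agr (t + Y ^ 2 * u) (res t Y ω ω') (res t Y ω ω'') := by
  refine agr_spl_spl t ω (by positivity) fun v hv => ?_
  have : Y⁻¹ ^ 2 * v ≤ u := by rwa [inv_pow, inv_mul_le_iff₀ (by positivity)]
  simp only [scl, ContinuousMap.coe_mk, h _ this]

theorem res_diff (hY : 0 < Y) (t : ℝ) (ω : Path) {β : ℝ}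
    (h : ∀ u, 0 ≤ u → |(ω' u - ω' 0) - (ω'' u - ω'' 0)| ≤ β) (v : ℝ) :
    |res t Y ω ω' v - res t Y ω ω'' v| ≤ Y * β := by
  have := h (Y⁻¹ ^ 2 * max (v - t) 0) (by positivity)
  refine le_of_eq_of_le ?_ (mul_le_mul_of_nonneg_left this hY.le)
  rw [← abs_of_pos hY, ← abs_mul, abs_of_pos hY]
  simp only [res, spl, scl, ContinuousMap.coe_mk, mul_zero, div_inv_eq_mul]
  congr 1; ring

/-- `hμ.scale Y⁻¹` -/
theorem EE_res (hμ : Wie κ μ) (hY : 0 < Y) (t : ℝ) (ω : Path) {F : Path → ℝ≥0∞} (hF : Measurable F) :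
    EE μ ω t F = ∫⁻ ω', F (res t Y ω ω') ∂μ := by
  have hc : Continuous fun ω' : Path => spl t ω ω' :=
    continuous_spl.comp (continuous_const.prodMk (continuous_const.prodMk continuous_id))
  exact ((hμ.scale Y⁻¹ (inv_pos.2 hY)).lintegral_comp (hF.comp hc.measurable)).symm

/-- `Alive.Up_add` for the path `res t Y ω ω'` (which agrees with `ω` up to `t`), `Up_scl`, `scl_sh_res` -/
theorem res_Up (h : Alive ω z t) (hY : 0 < Y) (hu : 0 ≤ u) (ω' : Path) :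
    Up (res t Y ω ω') z (t + Y ^ 2 * u) = Up ω z t * Y / Yc ω z t * Up (sh 0 ω') (Zc ω z t / Y) u := by
  have ha := agr_res t Y ω ω'
  rw [(ha.alive.2 h).Up_add (by positivity), ← scl_sh_res hY t ω ω', Up_scl hY, ha.Up, agr_Yc ha, agr_Zc ha]
  field_simp

theorem res_Sc (h : Alive ω z t) (hY : 0 < Y) (hu : 0 ≤ u) (ω' : Path) :
    Sc (res t Y ω ω') z (t + Y ^ 2 * u) = Sc (sh 0 ω') (Zc ω z t / Y) u := by
  have ha := agr_res t Y ω ω'
  rw [(ha.alive.2 h).Sc_add (by positivity), ← scl_sh_res hY t ω ω', Sc_scl hY, agr_Zc ha]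

theorem res_Gr (h : Alive ω z t) (hY : 0 < Y) (hu : 0 ≤ u) (κ : ℝ) (ω' : Path) :
    Gr κ (res t Y ω ω') z (t + Y ^ 2 * u) =
      (Up ω z t * Y / Yc ω z t) ^ (-bb κ) * Gr κ (sh 0 ω') (Zc ω z t / Y) u := by
  have := h.up_pos
  have := alive_iff.1 h
  rw [Gr, Gr, Vg, Vg, res_Up h hY hu, res_Sc h hY hu, Real.mul_rpow (by positivity) Up_nonneg, mul_assoc]

/-- `Alive.nz_add` with `a = 0`, `b = Y² u`, then `nz_scl` with `c = Y` -/
theorem res_nz (hκ8 : κ < 8) {s₀ y : ℝ} (hy : 0 < y) (h : Alive ω z t) (hY : 0 < Y) (u : ℝ) (ω' : Path) :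
    nz κ s₀ y (res t Y ω ω') z (Ioc t (t + Y ^ 2 * u)) =
      ENNReal.ofReal ((Up ω z t * Y / Yc ω z t) ^ (-bb κ)) *
        nz κ s₀ (y / (Up ω z t * Y / Yc ω z t)) (sh 0 ω') (Zc ω z t / Y) (Ioc 0 u) := by
  have ha := agr_res t Y ω ω'
  have h1 := h.up_pos
  have h2 := alive_iff.1 h
  have e1 := (ha.alive.2 h).nz_add (s₀ := s₀) (b := Y ^ 2 * u) hκ8 hy le_rfl
  rw [add_zero, ha.Up, agr_Yc ha, agr_Zc ha] at e1
  have e2 := nz_scl (κ := κ) (s₀ := s₀) (y := y / (Up ω z t / Yc ω z t)) (ω := sh t (res t Y ω ω'))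
    (z := Zc ω z t) (by positivity) hY 0 u
  rw [scl_sh_res hY, mul_zero, show y / (Up ω z t / Yc ω z t) / Y = y / (Up ω z t * Y / Yc ω z t) by field_simp] at e2
  rw [e1, e2, ← mul_assoc, ← ENNReal.ofReal_mul (by positivity)]
  congr 2
  rw [← div_mul_eq_mul_div, Real.mul_rpow (by positivity) hY.le, Real.rpow_neg hY.le,
    inv_mul_cancel_right₀ (by positivity)]

/-- Recipe: take `Koebe K` (`exists_koebe`), `KoebeF C` (`exists_koebeF`), `C₁ = 8 K C`.  With `f = ft ω t`,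
`ζ = gt ω x t` (`f ζ = x` by `Alive.ft_gt`, `Im ζ = Y`, `Up x = Y ‖f' ζ‖` by `Up_ft`), `ζ₁ = ζ - (δ/2) Y i`,
`z₁ = f ζ₁` (alive, `gt z₁ = ζ₁`): `Koebe.near` gives `‖z₁ - x‖ ≤ K δ Υ / 2` and
`Up z₁ = Im ζ₁ ‖f' ζ₁‖ ≥ Υ / (2K)`.  For `z ∈ ball z₁ (δ Υ / C₁) ⊆ ball z₁ (Up z₁ / C)`, `KoebeF.near` at `z₁` gives
`Up z₁ ‖gt z - ζ₁‖ ≤ C Y δ Υ / C₁`, so `‖gt z - ζ₁‖ ≤ δ Y / 4`. -/
theorem exists_good : ∃ C₁, Good C₁ := by
  obtain ⟨K, hK⟩ := exists_koebe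
  obtain ⟨C, hC⟩ := exists_koebeF
  have K2 := hK.two_le
  have C2 := hC.two_le
  have K0 : 0 < K := by linarith
  have C0 : 0 < C := by linarith
  refine ⟨8 * K * C, by nlinarith, fun ω x t δ h hδ hδ1 => ?_⟩
  have Y0 := alive_iff.1 h
  have U0 := h.up_pos
  have hζ := Lx.gt_mem h
  set Y := Yc ω x t with hY
  set U := Up ω x t with hU
  set ζ := gt ω x t with hζd
  set ζ₁ := ζ - ((δ / 2 * Y : ℝ) : ℂ) * Complex.I with hζ₁
  have i0 : ζ.im = Y := rfl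
  have i1 : ζ₁.im = Y - δ / 2 * Y := by simp [hζ₁, i0]
  have dY : δ * Y ≤ 1 / 2 * Y := mul_le_mul_of_nonneg_right hδ1 Y0.le
  have dY0 := mul_pos hδ Y0
  have m1 : ζ₁ ∈ HH := by change 0 < ζ₁.im; rw [i1]; linarith
  have n1 : ‖ζ₁ - ζ‖ = δ / 2 * Y := by
    simp [hζ₁, abs_of_pos hδ, abs_of_pos Y0]
  have fx : ft ω t ζ = x := h.ft_gt
  have eU : U = Y * ‖deriv (ft ω t) ζ‖ := by rw [hU, ← fx]; exact Up_ft h.1 hζ
  obtain ⟨-, b2, b3, -⟩ := hK.near _ (differentiableOn_ft (ω := ω) h.1) (injOn_ft h.1) ζ hζ ζ₁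
    (by rw [mem_closedBall_iff_norm, n1, i0]; linarith)
  rw [fx, n1] at b3
  have a1 := alive_ft (ω := ω) h.1 m1
  have g1 := gt_ft (ω := ω) h.1 m1
  have u1 := Up_ft (ω := ω) h.1 m1
  have y1 : Yc ω (ft ω t ζ₁) t ≤ Y := by rw [Yc, g1, i1]; linarith
  set U₁ := Up ω (ft ω t ζ₁) t
  have U1 := a1.up_pos
  have c1 : U ≤ 2 * K * U₁ := by
    rw [eU, u1, i1]
    have := norm_nonneg (deriv (ft ω t) ζ₁)
    calc _ ≤ Y * (K * ‖deriv (ft ω t) ζ₁‖) := mul_le_mul_of_nonneg_left b2 Y0.le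
      _ = 2 * K * (Y / 2 * ‖deriv (ft ω t) ζ₁‖) := by ring
      _ ≤ _ := by gcongr; linarith
  have c2 : ‖ft ω t ζ₁ - x‖ ≤ K / 2 * (δ * U) := b3.trans_eq (by rw [eU]; ring)
  have dU := mul_pos hδ U0
  refine ⟨ft ω t ζ₁, fun z hz => ?_⟩
  rw [mem_ball_iff_norm, lt_div_iff₀ (by positivity)] at hz
  have n0 := norm_nonneg (z - ft ω t ζ₁)
  have c3 : C * ‖z - ft ω t ζ₁‖ ≤ δ / 4 * U₁ := by
    refine le_of_mul_le_mul_left ?_ (show 0 < 8 * K by positivity)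
    nlinarith [mul_le_mul_of_nonneg_left c1 hδ.le]
  obtain ⟨d1, -, d3, -⟩ := hC.near ω _ t a1 z (by
    rw [mem_ball_iff_norm, lt_div_iff₀' C0]
    exact c3.trans_lt (mul_lt_of_lt_one_left U1 (by linarith)))
  refine ⟨?_, d1, ?_⟩
  · rw [mem_ball_iff_norm]
    have h1 := norm_sub_le_norm_sub_add_norm_sub z (ft ω t ζ₁) x
    have h2 : ‖z - ft ω t ζ₁‖ ≤ δ * U := (le_mul_of_one_le_right n0 (by nlinarith)).trans hz.le
    have h3 : K / 2 + 1 < 8 * K * C := by nlinarith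
    calc _ ≤ (K / 2 + 1) * (δ * U) := by linarith
      _ < 8 * K * C * (δ * U) := mul_lt_mul_of_pos_right h3 dU
      _ = _ := by ring
  · have e : Zc ω z t - (Zc ω x t - ((δ / 2 * Y : ℝ) : ℂ) * Complex.I) = gt ω z t - ζ₁ := by
      simp only [Zc, hζ₁, hζd]; ring
    rw [e]
    rw [g1] at d3
    refine le_of_mul_le_mul_left (d3.trans ?_) U1
    calc C * Yc ω (ft ω t ζ₁) t * ‖z - ft ω t ζ₁‖ ≤ C * Y * ‖z - ft ω t ζ₁‖ := by gcongr
      _ = Y * (C * ‖z - ft ω t ζ₁‖) := by ring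
      _ ≤ Y * (δ / 4 * U₁) := mul_le_mul_of_nonneg_left c3 Y0.le
      _ = _ := by ring

/-- Near independence.  Recipe: `H ω₂ = EE μ ω₂ T h`, `H₀ = H 0`.  By `lintegral_eq_EE` at the constant time `T`
(`Stop.const`) and `agr_spl`, `∫ h aᵢ = ∫ aᵢ H`.  For `u ≥ 0` the increments of `spl T ω₂ ω''` and `spl T 0 ω''` differ by
`ω₂ (min u T) - ω₂ 0`, at most `osc T ω₂` (`abs_le_osc`); so `H ω₂ ≤ e^{osc T ω₂} H₀` and `H₀ ≤ e^{osc T ω₂} H ω₂`.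
Hence `∫ h a₁ ≤ H₀ ∫ a₁ e^{osc}` and `H₀ ∫_{osc ≤ K} a₂ ≤ e^K ∫ h a₂`. -/
theorem near_indep (hμ : Wie κ μ) {T : ℝ} (K : ℝ) (hT : 0 ≤ T) {h a₁ a₂ : Path → ℝ≥0∞} (hh : Measurable h)
    (h₁ : Measurable a₁) (h₂ : Measurable a₂) (ha₁ : ∀ ω ω', Agr T ω ω' → a₁ ω' = a₁ ω)
    (ha₂ : ∀ ω ω', Agr T ω ω' → a₂ ω' = a₂ ω)
    (hl : ∀ (ω ω' : Path) (β : ℝ), (∀ u, 0 ≤ u → |(ω u - ω 0) - (ω' u - ω' 0)| ≤ β) →
      h ω ≤ ENNReal.ofReal (Real.exp β) * h ω') :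
    (∫⁻ ω, h ω * a₁ ω ∂μ) * ∫⁻ ω in {ω | osc T ω ≤ K}, a₂ ω ∂μ ≤
      ENNReal.ofReal (Real.exp K) * (∫⁻ ω, a₁ ω * ENNReal.ofReal (Real.exp (osc T ω)) ∂μ) *
        ∫⁻ ω, h ω * a₂ ω ∂μ := by
  set H : Path → ℝ≥0∞ := fun ω => EE μ ω T h with hH
  have key : ∀ {a : Path → ℝ≥0∞}, Measurable a → (∀ ω ω', Agr T ω ω' → a ω' = a ω) →
      ∫⁻ ω, h ω * a ω ∂μ = ∫⁻ ω, H ω * a ω ∂μ := fun {a} ha ha' => by
    rw [hμ.lintegral_eq_EE (Stop.const hT) (hh.fun_mul ha)]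
    refine lintegral_congr fun ω => ?_
    have hc : Continuous fun ω' : Path => spl T ω ω' :=
      continuous_spl.comp (continuous_const.prodMk (continuous_const.prodMk continuous_id))
    simp only [EE, hH, ha' ω _ (agr_spl T ω _)]
    exact lintegral_mul_const _ (hh.comp hc.measurable)
  have diff : ∀ (ω ω' : Path) (u : ℝ), 0 ≤ u →
      |(spl T ω ω' u - spl T ω ω' 0) - (spl T 0 ω' u - spl T 0 ω' 0)| ≤ osc T ω := fun ω ω' u hu => by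
    refine le_of_eq_of_le (congrArg _ ?_) (abs_le_osc ω ⟨le_min hu hT, min_le_right u T⟩)
    simp only [spl, ContinuousMap.coe_mk, ContinuousMap.zero_apply, min_eq_left hT]
    ring
  have b1 : ∀ ω, H ω ≤ ENNReal.ofReal (Real.exp (osc T ω)) * H 0 := fun ω => by
    simp only [hH, EE]
    rw [← lintegral_const_mul' _ _ ENNReal.ofReal_ne_top]
    exact lintegral_mono fun ω' => hl _ _ _ (diff ω ω')
  have b2 : ∀ ω, H 0 ≤ ENNReal.ofReal (Real.exp (osc T ω)) * H ω := fun ω => by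
    simp only [hH, EE]
    rw [← lintegral_const_mul' _ _ ENNReal.ofReal_ne_top]
    exact lintegral_mono fun ω' => hl _ _ _ fun u hu => (abs_sub_comm _ _).trans_le (diff ω ω' u hu)
  have hm : Measurable fun ω => a₁ ω * ENNReal.ofReal (Real.exp (osc T ω)) :=
    h₁.mul (continuous_osc T).measurable.exp.ennreal_ofReal
  have c1 : ∫⁻ ω, H ω * a₁ ω ∂μ ≤ (∫⁻ ω, a₁ ω * ENNReal.ofReal (Real.exp (osc T ω)) ∂μ) * H 0 := by
    rw [← lintegral_mul_const _ hm]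
    exact lintegral_mono fun ω => (mul_le_mul_left (b1 ω) _).trans_eq (by ring)
  have c2 : H 0 * ∫⁻ ω in {ω | osc T ω ≤ K}, a₂ ω ∂μ ≤ ENNReal.ofReal (Real.exp K) * ∫⁻ ω, H ω * a₂ ω ∂μ := by
    rw [← lintegral_const_mul _ h₂, ← lintegral_const_mul' _ _ ENNReal.ofReal_ne_top]
    refine le_trans (setLIntegral_mono' (measurableSet_le (continuous_osc T).measurable measurable_const)
      fun ω hω => ?_) (setLIntegral_le_lintegral _ _)
    rw [← mul_assoc]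
    exact mul_le_mul_left ((b2 ω).trans (mul_le_mul_left
      (ENNReal.ofReal_le_ofReal (Real.exp_le_exp.2 hω)) _)) _
  rw [key h₁ ha₁, key h₂ ha₂]
  calc _ ≤ _ := mul_le_mul_left c1 _
    _ = _ := mul_assoc _ _ _
    _ ≤ _ := mul_le_mul_right c2 _
    _ = _ := by ring

end Crest.Agent.R162.Cv
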